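import Vale.Agent.P250.Defs

/-!
Hermitian forms, the radial profile of the metric and the algebraic curvature tensor.
-/

open Complex

noncomputable section

namespace Vale.Agent.P250

/-- A Hermitian form on `ℂ³`, linear in the first variable. -/
structure HF (B : Cn 3 → Cn 3 → ℂ) : Prop where
  add : ∀ a b c, B (a + b) c = B a c + B b c
  smul : ∀ (t : ℂ) a c, B (t • a) c = t * B a c
  conj : ∀ a b, B b a = starRingEnd ℂ (B a b)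

/-- The profile `p`. -/
def pP (A y : ℝ) : ℝ := (y - 1) * (1 + (y + 1) / A)

/-- The profile `ψ`. -/
def psiP (A y : ℝ) : ℝ := y * (y ^ 2 - 1) * (1 + 2 * y / A) / 2

/-- The coefficient of the mixed curvature term. -/
def mP (A y : ℝ) : ℝ := 1 + (y ^ 2 - 1) / 2 * ((3 + 8 * y / A) / (1 + 2 * y / A))

/-- The coefficient of the vertical curvature term. -/
def vP (A y : ℝ) : ℝ :=
  (y * (3 + 8 * y / A) * (1 + 2 * y / A) + (y ^ 2 - 1) / A) / (2 * (1 + 2 * y / A) ^ 3)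

/-- The Hermitian metric `A ω + p μ + ℓ ℓ̄`. -/
def hM (A y : ℝ) (ω μ : Cn 3 → Cn 3 → ℂ) (ℓ : Cn 3 → ℂ) (a b : Cn 3) : ℂ :=
  A * ω a b + pP A y * μ a b + ℓ a * starRingEnd ℂ (ℓ b)

/-- The negative of the Kähler curvature tensor `R(a, b̄, c, d̄)`. -/
def curvT (A y : ℝ) (ω μ : Cn 3 → Cn 3 → ℂ) (ℓ : Cn 3 → ℂ) (β : ℂ)
    (T3 : Cn 3 → Cn 3 → Cn 3 → ℂ) (T4 : Cn 3 → Cn 3 → Cn 3 → Cn 3 → ℂ) (Γ : Cn 3 → Cn 3 → Cn 3)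
    (a c b d : Cn 3) : ℂ :=
  A * (ω a b * ω c d + ω a d * ω c b) + psiP A y * (μ a b * μ c d + μ a d * μ c b) +
    mP A y * (μ a b * ℓ c * starRingEnd ℂ (ℓ d) + μ a d * ℓ c * starRingEnd ℂ (ℓ b) +
      μ c b * ℓ a * starRingEnd ℂ (ℓ d) + μ c d * ℓ a * starRingEnd ℂ (ℓ b)) +
    2 * vP A y * (ℓ a * ℓ c * starRingEnd ℂ (ℓ b) * starRingEnd ℂ (ℓ d)) +
    pP A y * T4 a c b d +
    starRingEnd ℂ β * (starRingEnd ℂ (ℓ b) * T3 a c d + starRingEnd ℂ (ℓ d) * T3 a c b) +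
    β * (ℓ a * starRingEnd ℂ (T3 b d c) + ℓ c * starRingEnd ℂ (T3 b d a)) -
    hM A y ω μ ℓ (Γ a c) (Γ b d)

/-- The pointwise data of the metric. -/
structure PtData (ε L C A y : ℝ) (ω μ : Cn 3 → Cn 3 → ℂ) (ℓ : Cn 3 → ℂ) (β : ℂ)
    (T3 : Cn 3 → Cn 3 → Cn 3 → ℂ) (T4 : Cn 3 → Cn 3 → Cn 3 → Cn 3 → ℂ)
    (Γ : Cn 3 → Cn 3 → Cn 3) : Prop where
  hy : 1 ≤ y
  hω : HF ω
  hμ : HF μ
  ℓ_add : ∀ a b, ℓ (a + b) = ℓ a + ℓ b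
  ℓ_smul : ∀ (t : ℂ) a, ℓ (t • a) = t * ℓ a
  vert : ∃ e, ℓ e ≠ 0 ∧ ω e e = 0
  nondeg : ∀ a, ω a a = 0 → ℓ a = 0 → a = 0
  ω_nonneg : ∀ a, 0 ≤ (ω a a).re
  μ_ge : ∀ a, ε * (ω a a).re ≤ (μ a a).re
  μ_le : ∀ a, (μ a a).re ≤ L * (ω a a).re
  hβ : ‖β‖ ^ 2 = psiP A y
  T3_add : ∀ a c b b', T3 a c (b + b') = T3 a c b + T3 a c b'
  T3_smul : ∀ a c (t : ℂ) b, T3 a c (t • b) = starRingEnd ℂ t * T3 a c b
  T3_symm : ∀ a c b, T3 a c b = T3 c a b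
  T3_le : ∀ a c b, ‖T3 a c b‖ ≤ C * √(ω a a).re * √(ω c c).re * √(ω b b).re
  T4_le : ∀ a c b d, ‖T4 a c b d‖ ≤ C * √(ω a a).re * √(ω c c).re * √(ω b b).re * √(ω d d).re
  hΓ : ∀ a c b, hM A y ω μ ℓ (Γ a c) b =
    pP A y * T3 a c b + β * (ℓ a * μ c b + ℓ c * μ a b)

end Vale.Agent.P250
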