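import Mathlib

/-!
Kähler metrics on open subsets of `ℂⁿ`, their Levi-Civita connection, sectional curvature,
geodesic completeness, and biholomorphisms onto bounded domains.
-/

open scoped ContDiff

noncomputable section

namespace Vale.Agent.P250.Stmt

/-- The space `ℂⁿ`. -/
abbrev Cn (n : ℕ) := Fin n → ℂ

variable {n : ℕ}

/-- The derivative at `x` in the direction `a` of the function `y ↦ g y u v`. -/
def dg (g : Cn n → Cn n → Cn n → ℝ) (x a u v : Cn n) : ℝ := lineDeriv ℝ (fun y => g y u v) x a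

/-- `g` is a Kähler metric on the open set `U ⊆ ℂⁿ`: a smooth Riemannian metric (a field of real
symmetric positive definite bilinear forms `g x`) that is invariant under the complex structure
`J = i •` and whose fundamental form `ω(v, w) = g(J v, w)` is closed. -/
structure IsKahler (U : Set (Cn n)) (g : Cn n → Cn n → Cn n → ℝ) : Prop where
  smooth : ∀ u v, ContDiffOn ℝ ∞ (fun y => g y u v) U
  add : ∀ x ∈ U, ∀ u u' v, g x (u + u') v = g x u v + g x u' v
  smul : ∀ x ∈ U, ∀ (t : ℝ) u v, g x (t • u) v = t * g x u v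
  symm : ∀ x ∈ U, ∀ u v, g x u v = g x v u
  pos : ∀ x ∈ U, ∀ u, u ≠ 0 → 0 < g x u u
  herm : ∀ x ∈ U, ∀ u v, g x (Complex.I • u) (Complex.I • v) = g x u v
  closed : ∀ x ∈ U, ∀ u v w, dg g x u (Complex.I • v) w + dg g x v (Complex.I • w) u +
    dg g x w (Complex.I • u) v = 0

/-- `Γ` is the Christoffel map of the Levi-Civita connection of `g` on `U`, that is,
`∇_u v = Γ x u v` for constant fields: the Koszul formula holds. -/
def IsLeviCivita (U : Set (Cn n)) (g : Cn n → Cn n → Cn n → ℝ)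
    (Γ : Cn n → Cn n → Cn n → Cn n) : Prop :=
  ∀ x ∈ U, ∀ u v w, 2 * g x (Γ x u v) w = dg g x u v w + dg g x v u w - dg g x w u v

/-- The Riemann curvature tensor `R(u, v) w = ∇_u ∇_v w - ∇_v ∇_u w` for constant fields. -/
def riemann (Γ : Cn n → Cn n → Cn n → Cn n) (x u v w : Cn n) : Cn n :=
  lineDeriv ℝ (fun y => Γ y v w) x u - lineDeriv ℝ (fun y => Γ y u w) x v +
    Γ x u (Γ x v w) - Γ x v (Γ x u w)

/-- The sectional curvature of the real two-plane spanned by `u` and `v` at `x`. -/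
def sectional (g : Cn n → Cn n → Cn n → ℝ) (Γ : Cn n → Cn n → Cn n → Cn n) (x u v : Cn n) : ℝ :=
  g x (riemann Γ x u v v) u / (g x u u * g x v v - g x u v ^ 2)

/-- All sectional curvatures of real two-planes lie in `[-b, -a]` with `0 < a ≤ b`. -/
def NegPinched (U : Set (Cn n)) (g : Cn n → Cn n → Cn n → ℝ)
    (Γ : Cn n → Cn n → Cn n → Cn n) : Prop :=
  ∃ a b : ℝ, 0 < a ∧ a ≤ b ∧ ∀ x ∈ U, ∀ u v : Cn n, LinearIndependent ℝ ![u, v] →
    -b ≤ sectional g Γ x u v ∧ sectional g Γ x u v ≤ -a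

/-- Geodesic completeness: every point of `U` and every tangent vector are the initial data of a
geodesic `γ : ℝ → U`, that is, of a solution of `γ'' + Γ(γ', γ') = 0` defined for all times. -/
def GeodComplete (U : Set (Cn n)) (Γ : Cn n → Cn n → Cn n → Cn n) : Prop :=
  ∀ x ∈ U, ∀ v : Cn n, ∃ γ γ' : ℝ → Cn n, γ 0 = x ∧ γ' 0 = v ∧ ∀ t, γ t ∈ U ∧
    HasDerivAt γ (γ' t) t ∧ HasDerivAt γ' (- Γ (γ t) (γ' t) (γ' t)) t

/-- `U` is biholomorphic to a bounded domain (a bounded connected open set) of `ℂⁿ`. -/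
def BiholoToBounded (U : Set (Cn n)) : Prop :=
  ∃ (D : Set (Cn n)) (F G : Cn n → Cn n), IsOpen D ∧ IsConnected D ∧ Bornology.IsBounded D ∧
    DifferentiableOn ℂ F U ∧ DifferentiableOn ℂ G D ∧ Set.MapsTo F U D ∧ Set.MapsTo G D U ∧
    (∀ x ∈ U, G (F x) = x) ∧ ∀ y ∈ D, F (G y) = y

end Vale.Agent.P250.Stmt
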