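import Vale.Agent.P250.Main
import Vale.Agent.P250.Stmt

/-!
Transfer of the counterexample to the plain definitions.
-/

open scoped ContDiff

noncomputable section

namespace Vale.Agent.P250

theorem main' : ∃ (U : Set (Cn 3)) (g : Cn 3 → Cn 3 → Cn 3 → ℝ) (Γ : Cn 3 → Cn 3 → Cn 3 → Cn 3),
    IsOpen U ∧ SimplyConnectedSpace U ∧ Stmt.IsKahler U g ∧ Stmt.IsLeviCivita U g Γ ∧
    Stmt.GeodComplete U Γ ∧ Stmt.NegPinched U g Γ ∧ ¬ Stmt.BiholoToBounded U := by
  obtain ⟨U, g, hU, hS, hK, hG, ⟨a, b, ha, hab, hP⟩, hB⟩ := main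
  have hs : ∀ x ∈ U, ContDiffAt ℝ ∞ g x := fun x hx => hK.smooth.contDiffAt (hU.mem_nhds hx)
  have hd : ∀ x ∈ U, ∀ c u v, Stmt.dg (fun x u v => g x u v) x c u v = fderiv ℝ g x c u v := by
    intro x hx c u v
    have h1 := (hs x hx).differentiableAt (by simp)
    rw [Stmt.dg, DifferentiableAt.lineDeriv_eq_fderiv, fderiv_apply2 h1]
    exact (h1.clm_apply (differentiableAt_const _)).clm_apply (differentiableAt_const _)
  refine ⟨U, fun x u v => g x u v, christoffel g, hU, hS, ⟨fun u v =>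
    (hK.smooth.clm_apply contDiffOn_const).clm_apply contDiffOn_const, by simp, by simp, hK.symm,
    hK.pos, hK.herm, fun x hx u v w => ?_⟩, fun x hx u v w => ?_, hG,
    ⟨a, b, ha, hab, fun x hx u v huv => ?_⟩, hB⟩
  · rw [hd x hx, hd x hx, hd x hx]
    exact hK.closed x hx u v w
  · rw [hd x hx, hd x hx, hd x hx]
    simp only [rm_apply (hK.pos x hx), koszul_apply]
    ring
  · have e : Stmt.sectional (fun x u v => g x u v) (christoffel g) x u v = sectional g x u v := by
      rw [Stmt.sectional, sectional, Stmt.riemann, riemann,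
        (rm_diff (hs x hx) (hK.pos x hx) _ _).lineDeriv_eq_fderiv,
        (rm_diff (hs x hx) (hK.pos x hx) _ _).lineDeriv_eq_fderiv]
    rw [e]
    exact hP x hx u v huv

end Vale.Agent.P250
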