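import Vale.Agent.P250.Defs

/-!
A Riemannian metric on an open set with an exhaustion function of bounded gradient is
geodesically complete.
-/

open scoped ContDiff Topology NNReal Manifold
open Set Filter Metric

noncomputable section

namespace Vale.Agent.P250

theorem cpl_glue {E : Type} [NormedAddCommGroup E] [NormedSpace ℝ E] (α : ℕ → ℝ → E)
    (huniq : ∀ M N : ℕ, M ≤ N → EqOn (α M) (α N) (Ioo (-((M : ℝ) + 1)) (M + 1))) :
    ∃ γ : ℝ → E, ∀ t, ∃ N : ℕ, t ∈ Ioo (-((N : ℝ) + 1)) (N + 1) ∧ γ =ᶠ[𝓝 t] α N := by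
  have hmem : ∀ t : ℝ, t ∈ Ioo (-((⌈|t|⌉₊ : ℝ) + 1)) (⌈|t|⌉₊ + 1) := by
    intro t
    have h1 := Nat.le_ceil |t|
    have h2 := le_abs_self t
    have h3 := neg_abs_le t
    exact ⟨by linarith, by linarith⟩
  refine ⟨fun t => α ⌈|t|⌉₊ t, fun t => ⟨⌈|t|⌉₊ + 1, ?_, ?_⟩⟩
  · have := hmem t
    push_cast
    exact ⟨by linarith [this.1], by linarith [this.2]⟩
  · filter_upwards [Metric.ball_mem_nhds t zero_lt_one] with r hr
    refine huniq _ _ ?_ (hmem r)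
    rw [Nat.ceil_le]
    have h1 := Nat.le_ceil |t|
    have h2 : |r - t| < 1 := hr
    have h3 := abs_sub_abs_le_abs_sub r t
    push_cast
    linarith

theorem cpl_global {E : Type} [NormedAddCommGroup E] [NormedSpace ℝ E] [CompleteSpace E]
    {F : E → E} {K L : ℝ≥0} (hK : LipschitzWith K F) (hL : ∀ x, ‖F x‖ ≤ L) (x₀ : E) :
    ∃ γ : ℝ → E, γ 0 = x₀ ∧ ∀ t, HasDerivAt γ (F (γ t)) t := by
  have h1 : ∀ N : ℕ, ∃ α : ℝ → E, α 0 = x₀ ∧
      ∀ t ∈ Ioo (-((N : ℝ) + 1)) (N + 1), HasDerivAt α (F (α t)) t := by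
    intro N
    have hN : (0 : ℝ) ∈ Icc (-((N : ℝ) + 1)) (N + 1) :=
      ⟨by have : (0 : ℝ) ≤ N := N.cast_nonneg; linarith, by positivity⟩
    have hpl : IsPicardLindelof (fun _ => F) (⟨0, hN⟩ : Icc (-((N : ℝ) + 1)) (N + 1)) x₀
        (L * (N + 1)) 0 L K :=
      IsPicardLindelof.of_time_independent (fun x _ => hL x) hK.lipschitzOnWith (by simp)
    obtain ⟨α, h0, hα⟩ := hpl.exists_eq_forall_mem_Icc_hasDerivWithinAt₀
    exact ⟨α, h0, fun t ht => (hα t (Ioo_subset_Icc_self ht)).hasDerivAt (Icc_mem_nhds ht.1 ht.2)⟩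
  choose α h0 hα using h1
  obtain ⟨γ, hγ⟩ := cpl_glue α fun M N hMN => by
    have hMN' : (M : ℝ) ≤ N := by exact_mod_cast hMN
    have hM : (0 : ℝ) ≤ M := M.cast_nonneg
    refine ODE_solution_unique_of_mem_Ioo (v := fun _ => F) (s := fun _ => univ) (K := K)
      (t₀ := 0) (fun _ _ => hK.lipschitzOnWith) ⟨by linarith, by linarith⟩
      (fun t ht => ⟨hα M t ht, trivial⟩)
      (fun t ht => ⟨hα N t ⟨by linarith [ht.1], by linarith [ht.2]⟩, trivial⟩) ?_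
    rw [h0, h0]
  refine ⟨γ, ?_, fun t => ?_⟩
  · obtain ⟨N, -, h⟩ := hγ 0
    rw [h.eq_of_nhds, h0]
  · obtain ⟨N, h1, h⟩ := hγ t
    rw [h.eq_of_nhds]
    exact (hα N t h1).congr_of_eventuallyEq h

theorem cpl_trapped {E : Type} [NormedAddCommGroup E] [NormedSpace ℝ E] [FiniteDimensional ℝ E]
    {Ω : Set E} (hΩ : IsOpen Ω) {X : E → E} (hX : ContDiffOn ℝ 1 X Ω) {z₀ : E} (hz : z₀ ∈ Ω)
    (K : ℕ → Set E) (hK : ∀ N, IsCompact (K N)) (hKΩ : ∀ N, K N ⊆ Ω)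
    (htrap : ∀ (α : ℝ → E) (c : ℝ → ℝ), α 0 = z₀ → (∀ t, |c t| ≤ 1) →
      (∀ t, α t ∈ Ω ∧ HasDerivAt α (c t • X (α t)) t) →
      ∀ N : ℕ, ∀ t ∈ Ioo (-((N : ℝ) + 1)) (N + 1), α t ∈ K N) :
    ∃ γ : ℝ → E, γ 0 = z₀ ∧ ∀ t, γ t ∈ Ω ∧ HasDerivAt γ (X (γ t)) t := by
  have : CompleteSpace E := FiniteDimensional.complete ℝ E
  have h1 : ∀ N : ℕ, ∃ (F : E → E) (C : ℝ≥0) (α : ℝ → E), LipschitzWith C F ∧
      EqOn F X (K N) ∧ α 0 = z₀ ∧ (∀ t, HasDerivAt α (F (α t)) t) ∧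
      ∀ M : ℕ, ∀ t ∈ Ioo (-((M : ℝ) + 1)) (M + 1), α t ∈ K M := by
    intro N
    obtain ⟨K', hK', h1, h2⟩ := exists_compact_between (hK N) hΩ (hKΩ N)
    obtain ⟨χ, hχ0, hχ1, hχ⟩ := exists_contMDiffMap_zero_one_of_isClosed (n := 1) 𝓘(ℝ, E)
      isOpen_interior.isClosed_compl (hK N).isClosed (disjoint_compl_left_iff_subset.2 h1)
    have hχs : ContDiff ℝ 1 χ := χ.contMDiff.contDiff
    let F : E → E := fun z => χ z • X z
    have hF0 : ∀ z, z ∉ K' → F z = 0 := fun z hz => by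
      have : χ z = 0 := hχ0 fun h => hz (interior_subset h)
      simp [F, this]
    have hFs : ContDiff ℝ 1 F := by
      rw [contDiff_iff_contDiffAt]
      intro z
      by_cases hz : z ∈ Ω
      · exact hχs.contDiffAt.smul (hX.contDiffAt (hΩ.mem_nhds hz))
      · refine (contDiffAt_const (c := 0)).congr_of_eventuallyEq ?_
        filter_upwards [hK'.isClosed.isOpen_compl.mem_nhds fun h => hz (h2 h)] with w hw
        exact hF0 w hw
    have hFc : HasCompactSupport F := HasCompactSupport.intro hK' hF0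
    obtain ⟨C, hC⟩ := hFs.lipschitzWith_of_hasCompactSupport hFc one_ne_zero
    obtain ⟨B, hB⟩ := hFc.exists_bound_of_continuous hFs.continuous
    obtain ⟨α, h0, hα⟩ := cpl_global (L := B.toNNReal) hC
      (fun p => (hB p).trans (Real.le_coe_toNNReal B)) z₀
    refine ⟨F, C, α, hC, fun z hz => by simp [F, hχ1 hz], h0, hα,
      htrap α (fun t => χ (α t)) h0 (fun t => abs_le.2 ⟨by linarith [(hχ (α t)).1], (hχ _).2⟩)
        fun t => ⟨?_, hα t⟩⟩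
    by_contra ht
    have h3 : α = fun _ => α t := ODE_solution_unique_univ (v := fun _ => F) (s := fun _ => univ)
      (K := C) (t₀ := t) (fun _ => hC.lipschitzOnWith) (fun r => ⟨hα r, trivial⟩)
      (fun r => ⟨by rw [hF0 _ fun h => ht (h2 h)]; exact hasDerivAt_const _ _, trivial⟩) rfl
    exact ht (by rw [← congrFun h3 0, h0]; exact hz)
  choose F C α hC hF h0 hα hαK using h1
  obtain ⟨γ, hγ⟩ := cpl_glue α fun M N hMN => by
    have hMN' : (M : ℝ) ≤ N := by exact_mod_cast hMN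
    have hM : (0 : ℝ) ≤ M := M.cast_nonneg
    refine ODE_solution_unique_of_mem_Ioo (v := fun _ => F N) (s := fun _ => univ) (K := C N)
      (t₀ := 0) (fun _ _ => (hC N).lipschitzOnWith) ⟨by linarith, by linarith⟩
      (fun t ht => ⟨?_, trivial⟩) (fun t _ => ⟨hα N t, trivial⟩) (by rw [h0, h0])
    rw [hF N (hαK M N t ⟨by linarith [ht.1], by linarith [ht.2]⟩), ← hF M (hαK M M t ht)]
    exact hα M t
  refine ⟨γ, ?_, fun t => ?_⟩
  · obtain ⟨N, -, h⟩ := hγ 0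
    rw [h.eq_of_nhds, h0]
  · obtain ⟨N, h1, h⟩ := hγ t
    rw [h.eq_of_nhds, ← hF N (hαK N N t h1)]
    exact ⟨hKΩ N (hαK N N t h1), (hα N t).congr_of_eventuallyEq h⟩

variable {n : ℕ}

set_option maxSynthPendingDepth 3

theorem cpl_inv {B : Cn n →L[ℝ] Cn n →L[ℝ] ℝ} (hpos : ∀ u, u ≠ 0 → 0 < B u u) :
    B.IsInvertible := by
  have hinj : Function.Injective (B : Cn n →ₗ[ℝ] Cn n →L[ℝ] ℝ) := by
    rw [injective_iff_map_eq_zero]
    intro u hu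
    by_contra h
    have h1 := hpos u h
    have h2 : B u = 0 := hu
    simp [h2] at h1
  have hdim : Module.finrank ℝ (Cn n) = Module.finrank ℝ (Cn n →L[ℝ] ℝ) := by
    rw [← (LinearMap.toContinuousLinearMap (𝕜 := ℝ) (E := Cn n) (F' := ℝ)).finrank_eq]
    exact Subspace.dual_finrank_eq.symm
  exact ⟨(LinearMap.linearEquivOfInjective _ hinj hdim).toContinuousLinearEquiv, by
    ext u v; rfl⟩

theorem cpl_lower {S : Set (Cn n)} (hS : IsCompact S) {g : Cn n → Cn n →L[ℝ] Cn n →L[ℝ] ℝ}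
    (hg : ContinuousOn g S) (hpos : ∀ x ∈ S, ∀ u, u ≠ 0 → 0 < g x u u) :
    ∃ m : ℝ, 0 < m ∧ ∀ x ∈ S, ∀ u, m * ‖u‖ ^ 2 ≤ g x u u := by
  have h1 : ContinuousOn (fun p : Cn n × Cn n => g p.1 p.2 p.2) (S ×ˢ sphere 0 1) :=
    ((hg.comp continuousOn_fst fun p hp => hp.1).clm_apply continuousOn_snd).clm_apply
      continuousOn_snd
  obtain ⟨m, hm, h⟩ := (hS.prod (isCompact_sphere (0 : Cn n) 1)).exists_forall_le' (a := 0) h1
    fun p hp => hpos _ hp.1 _ fun h0 => by simpa [h0] using hp.2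
  refine ⟨m, hm, fun x hx u => ?_⟩
  by_cases hu : u = 0
  · simp [hu]
  have hn : 0 < ‖u‖ := norm_pos_iff.2 hu
  have h2 := h (x, (‖u‖⁻¹ : ℝ) • u) ⟨hx, by simp [norm_smul, hn.ne']⟩
  simp only [map_smul, smul_apply, smul_eq_mul] at h2
  calc m * ‖u‖ ^ 2 ≤ ‖u‖⁻¹ * (‖u‖⁻¹ * g x u u) * ‖u‖ ^ 2 := by gcongr
    _ = g x u u := by field_simp

theorem cpl_smooth {U : Set (Cn n)} (hU : IsOpen U)
    {g : Cn n → Cn n →L[ℝ] Cn n →L[ℝ] ℝ} (hs : ContDiffOn ℝ ∞ g U)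
    (hpos : ∀ x ∈ U, ∀ u, u ≠ 0 → 0 < g x u u) :
    ContDiffOn ℝ 1 (fun z : Cn n × Cn n => (z.2, -christoffel g z.1 z.2 z.2)) (U ×ˢ univ) := by
  intro z hz
  refine ContDiffAt.contDiffWithinAt (contDiffAt_snd.prodMk (ContDiffAt.neg ?_))
  have hg : ContDiffAt ℝ 2 g z.1 := (hs.contDiffAt (hU.mem_nhds hz.1)).of_le
    (WithTop.coe_le_coe.2 (le_top : (2 : ℕ∞) ≤ ⊤))
  have h1 : ContDiffAt ℝ 1 (fun z : Cn n × Cn n => (g z.1).inverse) z :=
    ((cpl_inv (hpos _ hz.1)).contDiffAt_map_inverse.comp z.1 (hg.of_le one_le_two)).comp z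
      contDiffAt_fst
  have h2 : ContDiffAt ℝ 1 (fun z : Cn n × Cn n => fderiv ℝ g z.1) z :=
    (hg.fderiv_right (m := 1) (by norm_num)).comp z contDiffAt_fst
  have h3 : ContDiffAt ℝ 1 (fun z : Cn n × Cn n => fderiv ℝ g z.1 z.2 z.2) z :=
    (h2.clm_apply contDiffAt_snd).clm_apply contDiffAt_snd
  have h4 : ContDiffAt ℝ 1 (fun z : Cn n × Cn n => (fderiv ℝ g z.1).flip z.2) z :=
    ((ContinuousLinearMap.flipₗᵢ ℝ (Cn n) (Cn n) (Cn n →L[ℝ] ℝ)).contDiff.contDiffAt.comp z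
      h2).clm_apply contDiffAt_snd
  have h5 : ContDiffAt ℝ 1 (fun z : Cn n × Cn n => ((fderiv ℝ g z.1).flip z.2).flip z.2) z :=
    ((ContinuousLinearMap.flipₗᵢ ℝ (Cn n) (Cn n) ℝ).contDiff.contDiffAt.comp z
      h4).clm_apply contDiffAt_snd
  exact h1.clm_apply (((h3.add h3).sub h5).const_smul (1 / 2 : ℝ))

theorem cpl_energy {U : Set (Cn n)} (hU : IsOpen U)
    {g : Cn n → Cn n →L[ℝ] Cn n →L[ℝ] ℝ} (hs : ContDiffOn ℝ ∞ g U)
    (hsymm : ∀ x ∈ U, ∀ u v, g x u v = g x v u) (hpos : ∀ x ∈ U, ∀ u, u ≠ 0 → 0 < g x u u)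
    {x v : ℝ → Cn n} {c t : ℝ} (hx : x t ∈ U) (h1 : HasDerivAt x (c • v t) t)
    (h2 : HasDerivAt v (c • -christoffel g (x t) (v t) (v t)) t) :
    HasDerivAt (fun t => g (x t) (v t) (v t)) 0 t := by
  have hg : HasFDerivAt g (fderiv ℝ g (x t)) (x t) :=
    ((hs.contDiffAt (hU.mem_nhds hx)).differentiableAt (by simp)).hasFDerivAt
  have h3 : HasDerivAt (fun t => g (x t)) (fderiv ℝ g (x t) (c • v t)) t :=
    hg.comp_hasDerivAt t h1
  refine ((h3.clm_apply h2).clm_apply h2).congr_deriv ?_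
  have h4 : g (x t) (christoffel g (x t) (v t) (v t)) (v t) =
      1 / 2 * fderiv ℝ g (x t) (v t) (v t) (v t) := by
    rw [christoffel, (cpl_inv (hpos _ hx)).self_apply_inverse]
    simp [koszul]
  have h5 := hsymm _ hx (v t) (christoffel g (x t) (v t) (v t))
  simp only [map_smul, map_neg, smul_apply, smul_eq_mul, add_apply, neg_apply, h5, h4]
  ring

theorem complete_of_exhaustion {U : Set (Cn n)} (hU : IsOpen U)
    {g : Cn n → Cn n →L[ℝ] Cn n →L[ℝ] ℝ} (hs : ContDiffOn ℝ ∞ g U)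
    (hsymm : ∀ x ∈ U, ∀ u v, g x u v = g x v u) (hpos : ∀ x ∈ U, ∀ u, u ≠ 0 → 0 < g x u u)
    (Θ : Cn n → ℝ) (hΘ : DifferentiableOn ℝ Θ U) (C : ℝ)
    (hb : ∀ x ∈ U, ∀ v, (fderiv ℝ Θ x v) ^ 2 ≤ C * g x v v)
    (hK : ∀ c : ℝ, IsCompact {x | x ∈ U ∧ Θ x ≤ c}) : GeodComplete U g := by
  intro x₀ hx₀ v₀
  set e := g x₀ v₀ v₀ with he
  set B := √(C * e) with hB
  have hm : ∀ N : ℕ, ∃ m : ℝ, 0 < m ∧ ∀ x ∈ {x | x ∈ U ∧ Θ x ≤ Θ x₀ + B * (N + 1)}, ∀ u,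
      m * ‖u‖ ^ 2 ≤ g x u u := fun N =>
    cpl_lower (hK _) (hs.continuousOn.mono fun x hx => hx.1) fun x hx => hpos x hx.1
  choose m hm0 hm using hm
  obtain ⟨γ, h0, hγ⟩ := cpl_trapped (hU.prod isOpen_univ) (cpl_smooth hU hs hpos) (z₀ := (x₀, v₀)) ⟨hx₀, trivial⟩
    (fun N => {x | x ∈ U ∧ Θ x ≤ Θ x₀ + B * (N + 1)} ×ˢ closedBall 0 √(e / m N))
    (fun N => (hK _).prod (isCompact_closedBall _ _)) (fun N z hz => ⟨hz.1.1, trivial⟩)
    (fun α c h0 hc hα N t ht => by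
      have hU' : ∀ t, (α t).1 ∈ U := fun t => (hα t).1.1
      have h1 : ∀ t, HasDerivAt (fun t => (α t).1) (c t • (α t).2) t := fun t => (hα t).2.fst
      have h2 : ∀ t, HasDerivAt (fun t => (α t).2)
          (c t • -christoffel g (α t).1 (α t).2 (α t).2) t := fun t => (hα t).2.snd
      have h3 : ∀ t, HasDerivAt (fun t => g (α t).1 (α t).2 (α t).2) 0 t := fun t =>
        cpl_energy hU hs hsymm hpos (x := fun t => (α t).1) (v := fun t => (α t).2) (hU' t)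
          (h1 t) (h2 t)
      have h4 : ∀ t, g (α t).1 (α t).2 (α t).2 = e := fun t => by
        rw [is_const_of_deriv_eq_zero (fun t => (h3 t).differentiableAt) (fun t => (h3 t).deriv)
          t 0, h0]
      have h5 : ∀ t, HasDerivAt (fun t => Θ (α t).1) (fderiv ℝ Θ (α t).1 (c t • (α t).2)) t :=
        fun t => (hΘ.differentiableAt (hU.mem_nhds (hU' t))).hasFDerivAt.comp_hasDerivAt t (h1 t)
      have h6 : ∀ t, ‖fderiv ℝ Θ (α t).1 (c t • (α t).2)‖ ≤ B := fun t => by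
        rw [map_smul, norm_smul, Real.norm_eq_abs, Real.norm_eq_abs]
        have := Real.abs_le_sqrt ((hb _ (hU' t) (α t).2).trans_eq (by rw [h4 t]))
        exact (mul_le_of_le_one_left (abs_nonneg _) (hc t)).trans this
      have h7 := convex_univ.norm_image_sub_le_of_norm_hasDerivWithin_le
        (fun t _ => (h5 t).hasDerivWithinAt) (fun t _ => h6 t) (mem_univ 0) (mem_univ t)
      have hB0 : 0 ≤ B := Real.sqrt_nonneg _
      have h8 : Θ (α t).1 ≤ Θ x₀ + B * (N + 1) := by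
        rw [h0, Real.norm_eq_abs, Real.norm_eq_abs, sub_zero] at h7
        have := mul_le_mul_of_nonneg_left (abs_le.2 ⟨ht.1.le, ht.2.le⟩) hB0
        linarith [le_abs_self (Θ (α t).1 - Θ x₀)]
      refine ⟨⟨hU' t, h8⟩, mem_closedBall_zero_iff.2 (Real.le_sqrt_of_sq_le ?_)⟩
      rw [le_div_iff₀ (hm0 N), mul_comm, ← h4 t]
      exact hm N _ ⟨hU' t, h8⟩ _)
  exact ⟨fun t => (γ t).1, fun t => (γ t).2, by simp [h0], by simp [h0],
    fun t => ⟨(hγ t).1.1, (hγ t).2.fst, (hγ t).2.snd⟩⟩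

end Vale.Agent.P250
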