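import Vale.Agent.P250.CurvDec

/-!
Scalar inequalities for the radial profiles.
-/

noncomputable section

namespace Vale.Agent.P250

/-- The quotient `ψ / p`. -/
def caD (A y : ℝ) : ℝ := y * (y + 1) * ((1 + 2 * y / A) / (1 + (y + 1) / A)) / 2

variable {A y : ℝ}

theorem ca_psi_eq (hA : 0 < A) (hy : 1 ≤ y) : psiP A y = caD A y * pP A y := by
  unfold psiP caD pP
  have : 0 < 1 + (y + 1) / A := by positivity
  field_simp
  ring

theorem ca_e_ge (hA : 0 < A) (hy : 1 ≤ y) : 1 ≤ (1 + 2 * y / A) / (1 + (y + 1) / A) := by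
  have : 0 < 1 + (y + 1) / A := by positivity
  rw [le_div_iff₀ this]
  have : (y + 1) / A ≤ 2 * y / A := by gcongr; linarith
  linarith

theorem ca_e_le (hA : 0 < A) (hy : 1 ≤ y) :
    2 * ((1 + 2 * y / A) / (1 + (y + 1) / A)) ≤ (3 + 8 * y / A) / (1 + 2 * y / A) := by
  have h1 : 0 < 1 + (y + 1) / A := by positivity
  have h2 : 0 < 1 + 2 * y / A := by positivity
  have ht : 0 ≤ y / A := by positivity
  have hη : 0 ≤ 1 / A := by positivity
  rw [← mul_div_assoc, div_le_div_iff₀ h1 h2]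
  have e1 : (y + 1) / A = y / A + 1 / A := by ring
  have e2 : 2 * y / A = 2 * (y / A) := by ring
  have e3 : 8 * y / A = 8 * (y / A) := by ring
  rw [e1, e2, e3]
  nlinarith [mul_nonneg ht hη]

theorem ca_r_ge (hA : 0 < A) (hy : 1 ≤ y) : 3 ≤ (3 + 8 * y / A) / (1 + 2 * y / A) := by
  have h2 : 0 < 1 + 2 * y / A := by positivity
  have ht : 0 ≤ y / A := by positivity
  rw [le_div_iff₀ h2]
  have e2 : 2 * y / A = 2 * (y / A) := by ring
  have e3 : 8 * y / A = 8 * (y / A) := by ring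
  rw [e2, e3]; linarith

theorem ca_r_le (hA : 0 < A) (hy : 1 ≤ y) : (3 + 8 * y / A) / (1 + 2 * y / A) ≤ 4 := by
  have h2 : 0 < 1 + 2 * y / A := by positivity
  rw [div_le_iff₀ h2]
  have e2 : 2 * y / A = 2 * (y / A) := by ring
  have e3 : 8 * y / A = 8 * (y / A) := by ring
  rw [e2, e3]; linarith

theorem ca_D_ge (hA : 0 < A) (hy : 1 ≤ y) : y * (y + 1) / 2 ≤ caD A y := by
  unfold caD
  have h := ca_e_ge hA hy
  have : 0 ≤ y * (y + 1) := by positivity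
  nlinarith

theorem ca_D_le (hA : 0 < A) (hy : 1 ≤ y) : caD A y ≤ y * (y + 1) := by
  unfold caD
  have h1 := ca_e_le hA hy
  have h2 := ca_r_le hA hy
  have : 0 ≤ y * (y + 1) := by positivity
  nlinarith

theorem ca_p_le (hA : 1 ≤ A) (hy : 1 ≤ y) : pP A y ≤ y * (y + 1) := by
  unfold pP
  have h1 : (y + 1) / A ≤ y + 1 := div_le_self (by linarith) hA
  have h2 : 0 ≤ y - 1 := by linarith
  nlinarith [mul_le_mul_of_nonneg_left h1 h2]

theorem ca_psi_ge (hA : 1 ≤ A) (hy : 1 ≤ y) : pP A y ^ 2 ≤ 2 * psiP A y := by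
  have hA0 : 0 < A := by linarith
  rw [ca_psi_eq hA0 hy]
  have h1 := ca_D_ge hA0 hy
  have h2 := ca_p_le hA hy
  have h3 := ca_pP_nonneg hA0 hy
  nlinarith

theorem ca_psi_le (hA : 0 < A) (hy : 1 ≤ y) : psiP A y ≤ 2 * y ^ 2 * pP A y := by
  rw [ca_psi_eq hA hy]
  have h1 := ca_D_le hA hy
  have h3 := ca_pP_nonneg hA hy
  have : caD A y ≤ 2 * y ^ 2 := by nlinarith
  gcongr

theorem ca_sq_le (hA : 0 < A) (hy : 1 ≤ y) : y ^ 2 ≤ 1 + A * pP A y := by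
  have : A * pP A y = (y - 1) * (A + (y + 1)) := by unfold pP; field_simp
  rw [this]; nlinarith

theorem ca_m_ge (hA : 0 < A) (hy : 1 ≤ y) : y ^ 2 ≤ mP A y := by
  unfold mP
  have h := ca_r_ge hA hy
  have : 0 ≤ y ^ 2 - 1 := by nlinarith
  nlinarith

theorem ca_m_le (hA : 0 < A) (hy : 1 ≤ y) : mP A y ≤ 1 + 2 * A * pP A y := by
  have h1 := ca_sq_le hA hy
  unfold mP
  have h := ca_r_le hA hy
  have : 0 ≤ y ^ 2 - 1 := by nlinarith
  nlinarith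

theorem ca_v_ge0 (hA : 0 < A) (hy : 1 ≤ y) :
    y * ((3 + 8 * y / A) / (1 + 2 * y / A)) / (2 * (1 + 2 * y / A)) ≤ vP A y := by
  unfold vP
  have h2 : 0 < 1 + 2 * y / A := by positivity
  have h3 : 0 ≤ (y ^ 2 - 1) / A := div_nonneg (by nlinarith) hA.le
  have e : y * ((3 + 8 * y / A) / (1 + 2 * y / A)) / (2 * (1 + 2 * y / A)) =
      (y * (3 + 8 * y / A) * (1 + 2 * y / A)) / (2 * (1 + 2 * y / A) ^ 3) := by
    field_simp
  rw [e]
  gcongr
  linarith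

theorem ca_v_ge (hA : 1 ≤ A) (hy : 1 ≤ y) : 1 / 2 ≤ vP A y := by
  have hA0 : 0 < A := by linarith
  refine le_trans ?_ (ca_v_ge0 hA0 hy)
  have h2 : 0 < 1 + 2 * y / A := by positivity
  have ht : 0 ≤ y / A := by positivity
  have hty : y / A ≤ y := div_le_self (by linarith) hA
  rw [le_div_iff₀ (by positivity), ← mul_div_assoc, le_div_iff₀ h2]
  have e2 : 2 * y / A = 2 * (y / A) := by ring
  have e3 : 8 * y / A = 8 * (y / A) := by ring
  rw [e2, e3]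
  set t := y / A
  rcases le_total t 1 with h | h
  · nlinarith [mul_nonneg ht (sub_nonneg.2 hy)]
  · nlinarith [mul_nonneg ht (sub_nonneg.2 hty)]

theorem ca_v_le (hA : 0 < A) (hy : 1 ≤ y) : vP A y ≤ 2 * A := by
  unfold vP
  have h2 : 0 < 1 + 2 * y / A := by positivity
  have ht : 0 ≤ y / A := by positivity
  rw [div_le_iff₀ (by positivity)]
  have e2 : 2 * y / A = 2 * (y / A) := by ring
  have e3 : 8 * y / A = 8 * (y / A) := by ring
  have e4 : (y ^ 2 - 1) / A ≤ A * (y / A) ^ 2 := by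
    have : A * (y / A) ^ 2 = y ^ 2 / A := by field_simp
    rw [this]; gcongr; linarith
  have e5 : y = A * (y / A) := by field_simp
  rw [e2, e3]
  set t := y / A
  have h5 : t * (3 + 8 * t) * (1 + 2 * t) + t ^ 2 ≤ 2 * (2 * (1 + 2 * t) ^ 3) := by
    nlinarith [mul_nonneg ht ht, mul_nonneg ht (mul_nonneg ht ht)]
  have h6 := mul_le_mul_of_nonneg_left h5 hA.le
  calc y * (3 + 8 * t) * (1 + 2 * t) + (y ^ 2 - 1) / A
      ≤ A * t * (3 + 8 * t) * (1 + 2 * t) + A * t ^ 2 := by rw [← e5]; linarith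
    _ ≤ _ := by nlinarith

theorem ca_psi_div_le {L : ℝ} (hL : 0 < L) (hA : 0 < A) (hy : 1 ≤ y) :
    psiP A y / (A / L + pP A y) ≤ caD A y := by
  have hp := ca_pP_nonneg hA hy
  have hd : 0 ≤ caD A y := le_trans (by positivity) (ca_D_ge hA hy)
  rw [div_le_iff₀ (by positivity), ca_psi_eq hA hy]
  have : 0 ≤ A / L := by positivity
  nlinarith

theorem ca_lo_ge {L : ℝ} (hL : 0 < L) (hA : 1 ≤ A) (hAL : 30 * L ≤ A) (hy : 1 ≤ y) :
    y ^ 2 / 8 ≤ mP A y - psiP A y / (A / L + pP A y) := by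
  have hA0 : 0 < A := by linarith
  rcases le_total 2 y with h | h
  · have h1 := ca_psi_div_le hL hA0 hy
    have h2 := ca_e_ge hA0 hy
    have h3 := ca_e_le hA0 hy
    have h4 : y ^ 2 / 8 ≤ mP A y - caD A y := by
      unfold mP caD
      set e := (1 + 2 * y / A) / (1 + (y + 1) / A)
      set r := (3 + 8 * y / A) / (1 + 2 * y / A)
      have h5 : 0 ≤ y ^ 2 - 1 := by nlinarith
      have h6 : 0 ≤ (y - 2) * (y + 1) := by nlinarith
      nlinarith [mul_le_mul_of_nonneg_left h3 h5, mul_le_mul_of_nonneg_left h2 h6]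
    linarith
  · have h1 := ca_m_ge hA0 hy
    have hp := ca_pP_nonneg hA0 hy
    have h2 : psiP A y ≤ 15 := by
      unfold psiP
      have h3 : 2 * y / A ≤ 4 := by
        rw [div_le_iff₀ hA0]; linarith
      have h4 : y * (y ^ 2 - 1) ≤ 6 := by nlinarith
      have h5 : 0 ≤ y * (y ^ 2 - 1) := mul_nonneg (by linarith) (by nlinarith)
      have h6 : 0 ≤ 2 * y / A := by positivity
      nlinarith
    have h3 : psiP A y / (A / L + pP A y) ≤ 1 / 2 := by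
      rw [div_le_iff₀ (by positivity)]
      have : 30 ≤ A / L := by rw [le_div_iff₀ hL]; linarith
      linarith
    nlinarith

theorem ca_g_nonneg (hA : 1 ≤ A) (hy : 1 ≤ y) :
    0 ≤ 3 * ((3 + 8 * y / A) / (1 + 2 * y / A)) - ((3 + 8 * y / A) / (1 + 2 * y / A)) ^ 2 +
      ((3 + 8 * y / A) / (1 + 2 * y / A)) * ((1 + 2 * y / A) / (1 + (y + 1) / A)) -
      ((1 + 2 * y / A) / (1 + (y + 1) / A)) ^ 2 := by
  have hA0 : 0 < A := by linarith
  set U := 1 + 2 * y / A with hU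
  set P := 1 + 2 / A with hP
  have hU1 : 1 ≤ U := by
    have : 0 ≤ 2 * y / A := by positivity
    linarith
  have hP1 : 1 ≤ P := by
    have : 0 ≤ 2 / A := by positivity
    linarith
  have hP3 : P ≤ 3 := by
    have : 2 / A ≤ 2 := div_le_self (by norm_num) hA
    linarith
  have e1 : 1 + (y + 1) / A = (P + U) / 2 := by rw [hP, hU]; ring
  have e2 : (3 + 8 * y / A) / U = 4 - 1 / U := by
    have : 3 + 8 * y / A = 4 * U - 1 := by rw [hU]; ring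
    rw [this]; field_simp
  have e3 : U / ((P + U) / 2) = 2 - 2 * P / (P + U) := by field_simp; ring
  rw [e1, e2, e3]
  set s := 1 / U with hs
  set w := 2 * P / (P + U) with hw
  have h1 : s ≤ w := by
    rw [hs, hw, div_le_div_iff₀ (by positivity) (by positivity)]
    nlinarith [mul_nonneg (sub_nonneg.2 hU1) (sub_nonneg.2 hP1)]
  have h2 : w ^ 2 ≤ 3 * s := by
    rw [hs, hw, div_pow, ← mul_div_assoc, div_le_div_iff₀ (by positivity) (by positivity)]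
    have h3 : 0 ≤ P * U := by positivity
    nlinarith [sq_nonneg (P - U), mul_le_mul_of_nonneg_left hP3 h3]
  have h3 : 0 ≤ s := by positivity
  nlinarith [mul_le_mul_of_nonneg_left h1 h3]

theorem ca_g_ge (hA : 0 < A) (hy : 1 ≤ y) (hyA : y ≤ A) :
    2 / 9 ≤ 3 * ((3 + 8 * y / A) / (1 + 2 * y / A)) - ((3 + 8 * y / A) / (1 + 2 * y / A)) ^ 2 +
      ((3 + 8 * y / A) / (1 + 2 * y / A)) * ((1 + 2 * y / A) / (1 + (y + 1) / A)) -
      ((1 + 2 * y / A) / (1 + (y + 1) / A)) ^ 2 := by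
  have h1 := ca_e_ge hA hy
  have h2 := ca_e_le hA hy
  have h3 := ca_r_ge hA hy
  have h4 : (3 + 8 * y / A) / (1 + 2 * y / A) ≤ 11 / 3 := by
    have ht : y / A ≤ 1 := by rw [div_le_one hA]; exact hyA
    rw [div_le_iff₀ (by positivity)]
    have e2 : 2 * y / A = 2 * (y / A) := by ring
    have e3 : 8 * y / A = 8 * (y / A) := by ring
    rw [e2, e3]; linarith
  set e := (1 + 2 * y / A) / (1 + (y + 1) / A)
  set r := (3 + 8 * y / A) / (1 + 2 * y / A)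
  nlinarith [mul_nonneg (sub_nonneg.2 h1) (show 0 ≤ r - e - 1 by linarith),
    mul_nonneg (sub_nonneg.2 h3) (sub_nonneg.2 h4)]

theorem ca_poly {r e y : ℝ} (hy : 1 ≤ y) (h1 : 1 ≤ e) (h2 : 2 * e ≤ r) (h3 : 3 ≤ r) (h4 : r ≤ 4) :
    (1 + (y ^ 2 - 1) / 2 * r) ^ 2 - (1 + (y ^ 2 - 1) / 2 * r) * (y * (y + 1) * e / 2) +
      (y * (y + 1) * e / 2) ^ 2 ≤
      3 / 4 * (y ^ 2 * (y ^ 2 - 1) * r) - (3 * r - r ^ 2 + r * e - e ^ 2) / 4 * y ^ 4 +
        6 * y ^ 2 := by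
  have e0 : (1 + (y ^ 2 - 1) / 2 * r) ^ 2 - (1 + (y ^ 2 - 1) / 2 * r) * (y * (y + 1) * e / 2) +
      (y * (y + 1) * e / 2) ^ 2 =
      3 / 4 * (y ^ 2 * (y ^ 2 - 1) * r) - (3 * r - r ^ 2 + r * e - e ^ 2) / 4 * y ^ 4 +
        e * (2 * e - r) / 4 * y ^ 3 +
        (r * (1 - r / 2) + (r / 2 - 1) * e / 2 + e ^ 2 / 4 + 3 * r / 4) * y ^ 2 +
        (r / 2 - 1) * e / 2 * y + (1 - r / 2) ^ 2 := by ring
  rw [e0]
  have he2 : e ≤ 2 := by linarith
  have c3 : e * (2 * e - r) / 4 ≤ 0 := by nlinarith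
  have c1 : (r / 2 - 1) * e / 2 ≤ 1 := by nlinarith
  have c2 : r * (1 - r / 2) + (r / 2 - 1) * e / 2 + e ^ 2 / 4 + 3 * r / 4 ≤ 4 := by nlinarith
  have c0 : (1 - r / 2) ^ 2 ≤ 1 := by nlinarith
  have y1 : 0 ≤ y := by linarith
  have y2 : 1 ≤ y ^ 2 := by nlinarith
  have y3 : y ≤ y ^ 2 := by nlinarith
  have t3 : e * (2 * e - r) / 4 * y ^ 3 ≤ 0 := mul_nonpos_of_nonpos_of_nonneg c3 (by positivity)
  have t2 := mul_le_mul_of_nonneg_right c2 (sq_nonneg y)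
  have t1 := mul_le_mul_of_nonneg_right c1 y1
  linarith

theorem ca_del_ge {ε k : ℝ} (hε : 0 < ε) (hk0 : 0 < k) (hk : k ≤ ε / (2 * (1 + ε))) (hA : 2 ≤ A)
    (h : A ≤ y) : k * y ^ 2 ≤ psiP A y / (A / ε + pP A y) := by
  have hA0 : 0 < A := by linarith
  have hy : 1 ≤ y := by linarith
  have hp := ca_pP_nonneg hA0 hy
  have hpA : A ≤ pP A y := by
    unfold pP
    have h5 : 1 ≤ (y + 1) / A := by rw [le_div_iff₀ hA0]; linarith
    nlinarith
  have hd := ca_D_ge hA0 hy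
  rw [le_div_iff₀ (by positivity), ca_psi_eq hA0 hy]
  have h6 : A / ε + pP A y ≤ pP A y * (1 + ε) / ε := by
    have : A / ε ≤ pP A y / ε := by gcongr
    have e6 : pP A y * (1 + ε) / ε = pP A y / ε + pP A y := by field_simp
    linarith
  have h7 : y ^ 2 / 2 ≤ caD A y := by nlinarith
  calc k * y ^ 2 * (A / ε + pP A y)
      ≤ ε / (2 * (1 + ε)) * y ^ 2 * (pP A y * (1 + ε) / ε) := by gcongr
    _ = y ^ 2 / 2 * pP A y := by field_simp
    _ ≤ _ := by gcongr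

theorem ca_prof_aux {m d del X g k y : ℝ} (hdel0 : 0 ≤ del) (hdeld : del ≤ d) (hm : y ^ 2 ≤ m)
    (hk : 0 < k) (hpoly : m ^ 2 - m * d + d ^ 2 ≤ X - g / 4 * y ^ 4 + 6 * y ^ 2)
    (h : k ≤ g / 4 ∨ (0 ≤ g ∧ k * y ^ 2 ≤ del)) :
    (m - d) ^ 2 + (m - del) ^ 2 - (m - d) * (m - del) ≤ X - k * y ^ 4 + 6 * y ^ 2 := by
  have hy4 : 0 ≤ y ^ 4 := by positivity
  have hm0 : 0 ≤ m := le_trans (sq_nonneg y) hm
  have h2 : (m - d) ^ 2 + (m - del) ^ 2 - (m - d) * (m - del) ≤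
      m ^ 2 - m * d + d ^ 2 - m * del := by
    nlinarith [mul_le_mul_of_nonneg_left hdeld hdel0]
  rcases h with h | ⟨hg, h5⟩
  · have h3 : 0 ≤ m * del := mul_nonneg hm0 hdel0
    nlinarith [mul_le_mul_of_nonneg_right h hy4]
  · have h6 : y ^ 2 * (k * y ^ 2) ≤ m * del := mul_le_mul hm h5 (by positivity) hm0
    nlinarith [mul_nonneg hg hy4]

theorem ca_X_le (hA : 0 < A) (hy : 1 ≤ y) :
    3 / 4 * (y ^ 2 * (y ^ 2 - 1) * ((3 + 8 * y / A) / (1 + 2 * y / A))) ≤ 3 * y ^ 4 := by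
  have h4 := ca_r_le hA hy
  have h5 : 0 ≤ y ^ 2 * (y ^ 2 - 1) := mul_nonneg (by positivity) (by nlinarith)
  nlinarith [mul_le_mul_of_nonneg_left h4 h5, sq_nonneg y]

theorem ca_X_le' (hA : 0 < A) (hy : 1 ≤ y) :
    3 / 4 * (y ^ 2 * (y ^ 2 - 1) * ((3 + 8 * y / A) / (1 + 2 * y / A))) ≤
      3 * (vP A y * psiP A y) := by
  have h4 := ca_v_ge0 hA hy
  have hψ := ca_psi_nonneg hA hy
  set r := (3 + 8 * y / A) / (1 + 2 * y / A)
  have h5 : 3 / 4 * (y ^ 2 * (y ^ 2 - 1) * r) =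
      3 * (y * r / (2 * (1 + 2 * y / A)) * psiP A y) := by
    have : 0 < 1 + 2 * y / A := by positivity
    unfold psiP; field_simp; ring
  rw [h5]
  gcongr

theorem ca_prof_end {Λ X k y v ψ : ℝ} (hk0 : 0 < k) (hk : k ≤ 1 / 18)
    (h1 : Λ ≤ X - k * y ^ 4 + 6 * y ^ 2) (hX3 : X ≤ 3 * y ^ 4) (hXv : X ≤ 3 * (v * ψ))
    (hv : 1 / 2 ≤ v) : Λ ≤ 3 * (v * ((1 - k / 6) * ψ + 12 / k)) := by
  have h7 : 6 * y ^ 2 - k / 2 * y ^ 4 ≤ 18 / k := by
    rw [le_div_iff₀ hk0]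
    nlinarith [sq_nonneg (k * y ^ 2 - 6)]
  have h8 : 18 / k ≤ 3 * (v * (12 / k)) := by
    have : 18 / k = 3 * (1 / 2 * (12 / k)) := by ring
    rw [this]; gcongr
  have h9 : (1 - k / 6) * X ≤ (1 - k / 6) * (3 * (v * ψ)) :=
    mul_le_mul_of_nonneg_left hXv (by linarith)
  nlinarith [mul_le_mul_of_nonneg_left hX3 hk0.le]

/-- The profile lemma. -/
theorem ca_profile {ε : ℝ} (hε : 0 < ε) :
    ∃ k c : ℝ, 0 < k ∧ k ≤ 1 ∧ 0 < c ∧ ∀ A y : ℝ, 2 ≤ A → 1 ≤ y →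
      (mP A y - caD A y) ^ 2 + (mP A y - psiP A y / (A / ε + pP A y)) ^ 2 -
        (mP A y - caD A y) * (mP A y - psiP A y / (A / ε + pP A y)) ≤
      3 * (vP A y * ((1 - k) * psiP A y + c)) := by
  obtain ⟨k1, hk0, hk18, hkε⟩ : ∃ k1 : ℝ, 0 < k1 ∧ k1 ≤ 1 / 18 ∧ k1 ≤ ε / (2 * (1 + ε)) :=
    ⟨min (1 / 18) (ε / (2 * (1 + ε))), lt_min (by norm_num) (by positivity), min_le_left _ _,
      min_le_right _ _⟩
  refine ⟨k1 / 6, 12 / k1, by positivity, by linarith, by positivity, fun A y hA hy => ?_⟩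
  have hA0 : 0 < A := by linarith
  have hp := ca_pP_nonneg hA0 hy
  have hψ := ca_psi_nonneg hA0 hy
  refine ca_prof_end hk0 hk18 ?_ (ca_X_le hA0 hy) (ca_X_le' hA0 hy) (ca_v_ge (by linarith) hy)
  refine ca_prof_aux (by positivity) (ca_psi_div_le hε hA0 hy) (ca_m_ge hA0 hy) hk0
    (ca_poly hy (ca_e_ge hA0 hy) (ca_e_le hA0 hy) (ca_r_ge hA0 hy) (ca_r_le hA0 hy)) ?_
  rcases le_total y A with h | h
  · left
    have hg := ca_g_ge hA0 hy h
    linarith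
  · right
    exact ⟨ca_g_nonneg (by linarith) hy, ca_del_ge hε hk0 hkε hA h⟩

end Vale.Agent.P250
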