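import Vale.Agent.P250.CurvErr
import Vale.Agent.P250.CurvProf

/-!
The algebraic curvature estimate.
-/

open Complex

noncomputable section

namespace Vale.Agent.P250

theorem ca_low1 {k v Z σ i V : ℝ} (hk0 : 0 < k) (hk : k ≤ 1) (hv : 0 ≤ v) (hZ : 0 ≤ Z)
    (hσ : σ ^ 2 ≤ v * Z) (hV : -(2 * (σ * i)) ≤ V) :
    k / 4 * V + k / 4 * v * i ^ 2 - (1 + k / 2) * Z ≤ V + 6 * (σ * i) + 4 * v * i ^ 2 := by
  have h4 : 0 ≤ 4 - k / 4 := by linarith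
  have h1 := ca_amgm (X := (4 - k / 4) * v * i ^ 2) (Y := (1 + k / 2) * Z)
    (Z := -((2 + k / 4) * (σ * i))) (by positivity) (by positivity) (by
      have h2 : (2 + k / 4) ^ 2 ≤ (4 - k / 4) * (1 + k / 2) := by nlinarith
      calc (-((2 + k / 4) * (σ * i))) ^ 2 = (2 + k / 4) ^ 2 * (σ ^ 2 * i ^ 2) := by ring
        _ ≤ ((4 - k / 4) * (1 + k / 2)) * (v * Z * i ^ 2) := by gcongr
        _ = _ := by ring)
  have h2 := mul_le_mul_of_nonneg_left hV (show 0 ≤ 1 - k / 4 by linarith)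
  nlinarith

theorem ca_low2 {c C' B ψ y p a b X Z : ℝ} (hc : 0 < c) (hB : B ^ 2 = ψ) (hψ : ψ ≤ 2 * y ^ 2 * p)
    (hp : 0 ≤ p) :
    C' * B * (a * b) * (X * b + Z * a) ≤
      c * y ^ 2 * (a ^ 2 * Z ^ 2 + b ^ 2 * X ^ 2) + C' ^ 2 / c * p * (a ^ 2 * b ^ 2) := by
  have h1 := ca_amgm (X := c * y ^ 2 * (a ^ 2 * Z ^ 2 + b ^ 2 * X ^ 2))
    (Y := C' ^ 2 / c * p * (a ^ 2 * b ^ 2)) (Z := C' * B * (a * b) * (X * b + Z * a) / 2)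
    (by positivity) (by positivity) (by
      have h2 : (X * b + Z * a) ^ 2 ≤ 2 * (a ^ 2 * Z ^ 2 + b ^ 2 * X ^ 2) := by
        nlinarith [sq_nonneg (X * b - Z * a)]
      calc (C' * B * (a * b) * (X * b + Z * a) / 2) ^ 2
          = C' ^ 2 * (a ^ 2 * b ^ 2) / 4 * (B ^ 2 * (X * b + Z * a) ^ 2) := by ring
        _ ≤ C' ^ 2 * (a ^ 2 * b ^ 2) / 4 *
            (2 * y ^ 2 * p * (2 * (a ^ 2 * Z ^ 2 + b ^ 2 * X ^ 2))) := by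
          rw [hB]; gcongr
        _ = _ := by field_simp; ring)
  linarith

theorem ca_low3 {κ C3 A p ψ : ℝ} (hκ : 0 < κ) (hA : 4 * C3 ^ 2 / κ ≤ A) (hψ : p ^ 2 ≤ 2 * ψ) :
    C3 * p ≤ κ / 2 * ψ + A / 4 := by
  have hA0 : 0 ≤ A := le_trans (by positivity) hA
  rw [div_le_iff₀ hκ] at hA
  have h1 := ca_amgm (X := κ * p ^ 2 / 4) (Y := A / 4) (Z := C3 * p / 2) (by positivity)
    (by positivity) (by nlinarith [mul_le_mul_of_nonneg_left hA (sq_nonneg p)])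
  nlinarith

/-- The scalar lower estimate. -/
theorem ca_low {k c ε L C1 C' A ψ p v y B a b X Z i Qω Qμ V σ K : ℝ} (hk0 : 0 < k) (hk : k ≤ 1)
    (hc : 0 < c) (hε : 0 < ε) (hA1 : 24 * c * L ^ 2 ≤ A)
    (hA2 : 4 * (C1 + C' ^ 2 / (k * ε / 64)) ^ 2 / (k * ε ^ 2 / 2) ≤ A)
    (hp : 0 ≤ p) (hv : 1 / 2 ≤ v) (hB : B ^ 2 = ψ) (hψ1 : p ^ 2 ≤ 2 * ψ)
    (hψ2 : ψ ≤ 2 * y ^ 2 * p) (hQω : a ^ 2 * b ^ 2 ≤ Qω) (hQ1 : ε ^ 2 * (a ^ 2 * b ^ 2) ≤ Qμ)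
    (hQ2 : Qμ ≤ 4 * L ^ 2 * (a ^ 2 * b ^ 2))
    (hV1 : y ^ 2 / 8 * (ε * (a ^ 2 * Z ^ 2 + b ^ 2 * X ^ 2)) ≤ V) (hV2 : -(2 * (σ * i)) ≤ V)
    (hσ : σ ^ 2 ≤ v * (((1 - k) * ψ + c) * Qμ))
    (hK : A * Qω + ψ * Qμ + V + 6 * (σ * i) + 4 * v * i ^ 2 -
      (C1 * p * (a ^ 2 * b ^ 2) + C' * B * (a * b) * (X * b + Z * a)) ≤ K) :
    (A / 2 + k * ε ^ 2 / 4 * ψ) * (a ^ 2 * b ^ 2) +
      k * ε / 64 * y ^ 2 * (a ^ 2 * Z ^ 2 + b ^ 2 * X ^ 2) + k / 8 * i ^ 2 ≤ K := by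
  have hψ0 : 0 ≤ ψ := by rw [← hB]; positivity
  have hA0 : 0 ≤ A := le_trans (by positivity) hA1
  have hQ0 : 0 ≤ Qμ := le_trans (by positivity) hQ1
  have hk1 : 0 ≤ 1 - k := by linarith
  have h1 := ca_low1 hk0 hk (by linarith) (by positivity) hσ hV2
  have h2 := ca_low2 (c := k * ε / 64) (C' := C') (a := a) (b := b) (X := X) (Z := Z)
    (by positivity) hB hψ2 hp
  have h3 := ca_low3 (κ := k * ε ^ 2 / 2) (by positivity) hA2 hψ1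
  set hh := a ^ 2 * b ^ 2
  set hw := a ^ 2 * Z ^ 2 + b ^ 2 * X ^ 2
  set C2 := C' ^ 2 / (k * ε / 64)
  have hh0 : 0 ≤ hh := by positivity
  have h4 := mul_le_mul_of_nonneg_right h3 hh0
  have h5 := mul_le_mul_of_nonneg_left hQω hA0
  have h6 : k / 2 * ψ * (ε ^ 2 * hh) ≤ k / 2 * ψ * Qμ := by gcongr
  have h7 : (1 + k / 2) * c * Qμ ≤ A / 4 * hh := by
    calc (1 + k / 2) * c * Qμ ≤ (3 / 2) * c * (4 * L ^ 2 * hh) := by gcongr; linarith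
      _ = 24 * c * L ^ 2 / 4 * hh := by ring
      _ ≤ _ := by gcongr
  have h8 := mul_le_mul_of_nonneg_left hV1 (show 0 ≤ k / 4 by positivity)
  have h9 : k / 4 * (1 / 2) * i ^ 2 ≤ k / 4 * v * i ^ 2 := by gcongr
  have h10 : 0 ≤ k ^ 2 * ψ * Qμ := by positivity
  nlinarith

/-- The scalar upper estimate. -/
theorem ca_up {L C1 C' A ψ p v m B a b X Z i Qω Qμ V σ K : ℝ} (hA : 0 ≤ A) (hC' : 0 ≤ C')
    (hv : v ≤ 2 * A) (hB : B ^ 2 = ψ) (hQω : Qω ≤ 4 * (a ^ 2 * b ^ 2))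
    (hQ2 : Qμ ≤ 4 * L ^ 2 * (a ^ 2 * b ^ 2))
    (hV1 : V ≤ m * (L * (a ^ 2 * Z ^ 2 + b ^ 2 * X ^ 2))) (hV2 : 2 * (σ * i) ≤ V)
    (hK : K ≤ A * Qω + ψ * Qμ + V + 6 * (σ * i) + 4 * v * i ^ 2 +
      (C1 * p * (a ^ 2 * b ^ 2) + C' * B * (a * b) * (X * b + Z * a))) :
    K ≤ (4 * A + C1 * p + (4 * L ^ 2 + C') * ψ) * (a ^ 2 * b ^ 2) +
      (4 * m * L + C') * (a ^ 2 * Z ^ 2 + b ^ 2 * X ^ 2) + 8 * A * i ^ 2 := by
  have hψ0 : 0 ≤ ψ := by rw [← hB]; positivity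
  have h1 : B * (a * b) * (X * b + Z * a) ≤
      ψ * (a ^ 2 * b ^ 2) + (a ^ 2 * Z ^ 2 + b ^ 2 * X ^ 2) := by
    rw [← hB]
    nlinarith [sq_nonneg (B * (a * b) - (X * b + Z * a)), sq_nonneg (X * b - Z * a),
      sq_nonneg (B * (a * b))]
  have h2 := mul_le_mul_of_nonneg_left h1 hC'
  have h3 := mul_le_mul_of_nonneg_left hQω hA
  have h4 := mul_le_mul_of_nonneg_left hQ2 hψ0
  have h5 := mul_le_mul_of_nonneg_right hv (sq_nonneg i)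
  nlinarith

theorem ca_cmp_low {α κ θ L A ψ p y hh hw i D : ℝ} (hα : 0 ≤ α) (hA : 1 ≤ A) (hL : 0 ≤ L)
    (h1 : α * (4 * A) ≤ 1) (h2 : α * (4 * L ^ 2) ≤ κ) (h3 : α * (A + 2 * L) ≤ θ)
    (hy : 1 ≤ y) (hψ : p ^ 2 ≤ 2 * ψ) (hpy : p ≤ y * (y + 1)) (hh0 : 0 ≤ hh) (hw0 : 0 ≤ hw)
    (hD : D ≤ (A + p * L) ^ 2 * hh + (A + p * L) * hw + i ^ 2) :
    α * D ≤ (A / 2 + κ * ψ) * hh + θ * y ^ 2 * hw + α * i ^ 2 := by
  have hψ0 : 0 ≤ ψ := by nlinarith [sq_nonneg p]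
  have h4 : α * (A + p * L) ^ 2 ≤ A / 2 + κ * ψ := by
    have h5 : (A + p * L) ^ 2 ≤ 2 * A ^ 2 + 4 * L ^ 2 * ψ := by
      nlinarith [sq_nonneg (A - p * L), mul_le_mul_of_nonneg_left hψ (sq_nonneg L)]
    have h6 := mul_le_mul_of_nonneg_left h5 hα
    have h7 := mul_le_mul_of_nonneg_right h1 (show 0 ≤ A by linarith)
    have h8 := mul_le_mul_of_nonneg_right h2 hψ0
    nlinarith
  have h9 : α * (A + p * L) ≤ θ * y ^ 2 := by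
    have y2 : 1 ≤ y ^ 2 := by nlinarith
    have h5 : A + p * L ≤ (A + 2 * L) * y ^ 2 := by
      have h6 : p ≤ 2 * y ^ 2 := by nlinarith
      nlinarith [mul_le_mul_of_nonneg_right h6 hL]
    have h6 := mul_le_mul_of_nonneg_left h5 hα
    have h7 := mul_le_mul_of_nonneg_right h3 (sq_nonneg y)
    nlinarith
  have h10 := mul_le_mul_of_nonneg_left hD hα
  have h11 := mul_le_mul_of_nonneg_right h4 hh0
  have h12 := mul_le_mul_of_nonneg_right h9 hw0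
  nlinarith

theorem ca_cmp_up {ε C1 C2 C' L A ψ p y m hh hw i D β : ℝ} (hε : 0 < ε) (hA : 1 ≤ A) (hL : 0 ≤ L)
    (hC1 : 0 ≤ C1) (hC2 : 0 ≤ C2) (hC' : 0 ≤ C') (hp : 0 ≤ p) (hψ : ψ ≤ 2 * y ^ 2 * p)
    (hy : y ^ 2 ≤ 1 + A * p) (hm : m ≤ 1 + 2 * A * p) (hh0 : 0 ≤ hh) (hw0 : 0 ≤ hw)
    (h1 : 4 + C1 / ε + C2 * (1 + (1 + 2 * A) / ε ^ 2) ≤ β)
    (h2 : 4 * L * (1 + 2 * A / ε) + C' ≤ β) (h3 : 8 * A ≤ β)
    (hD : (A + p * ε) ^ 2 * hh + (A + p * ε) * hw + i ^ 2 ≤ D) :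
    (4 * A + C1 * p + C2 * ψ) * hh + (4 * m * L + C') * hw + 8 * A * i ^ 2 ≤ β * D := by
  have hβ : 0 ≤ β := by linarith
  set g := A + p * ε with hg
  have hpe : 0 ≤ p * ε := by positivity
  have hg1 : 1 ≤ g := by linarith
  have hgA : A ≤ g := by linarith
  have hgg : g ≤ g ^ 2 := by nlinarith
  have hpg : p ≤ g / ε := by rw [le_div_iff₀ hε]; linarith
  have h4 : 4 * A + C1 * p + C2 * ψ ≤ β * g ^ 2 := by
    have h5 : C1 * p ≤ C1 / ε * g ^ 2 := by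
      calc C1 * p ≤ C1 * (g ^ 2 / ε) := by gcongr; exact le_trans hpg (by gcongr)
        _ = _ := by ring
    have h6 : ψ ≤ (1 + (1 + 2 * A) / ε ^ 2) * g ^ 2 := by
      have h7 : ψ ≤ 1 + (1 + 2 * A) * p ^ 2 := by
        nlinarith [mul_le_mul_of_nonneg_right hy hp, sq_nonneg (p - 1)]
      have h8 : p ^ 2 ≤ g ^ 2 / ε ^ 2 := by rw [← div_pow]; gcongr
      have h9 : (1 + 2 * A) * p ^ 2 ≤ (1 + 2 * A) * (g ^ 2 / ε ^ 2) := by gcongr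
      have e : (1 + (1 + 2 * A) / ε ^ 2) * g ^ 2 = g ^ 2 + (1 + 2 * A) * (g ^ 2 / ε ^ 2) := by
        ring
      rw [e]; linarith
    have h7 := mul_le_mul_of_nonneg_left h6 hC2
    have h8 := mul_le_mul_of_nonneg_right h1 (sq_nonneg g)
    nlinarith
  have h5 : 4 * m * L + C' ≤ β * g := by
    have h6 : m ≤ (1 + 2 * A / ε) * g := by
      have h7 : 2 * A * p ≤ 2 * A * (g / ε) := by gcongr
      have e : (1 + 2 * A / ε) * g = g + 2 * A * (g / ε) := by ring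
      rw [e]; linarith
    have h7 := mul_le_mul_of_nonneg_right h6 hL
    have h8 := mul_le_mul_of_nonneg_right h2 (show 0 ≤ g by linarith)
    have h9 := mul_le_mul_of_nonneg_left hg1 hC'
    nlinarith
  have h6 := mul_le_mul_of_nonneg_left hD hβ
  have h7 := mul_le_mul_of_nonneg_right h4 hh0
  have h8 := mul_le_mul_of_nonneg_right h5 hw0
  have h9 := mul_le_mul_of_nonneg_right h3 (sq_nonneg i)
  nlinarith

theorem ca_gram {A y : ℝ} {ω μ : Cn 3 → Cn 3 → ℂ} (ℓ : Cn 3 → ℂ) (x z : Cn 3) :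
    (hM A y ω μ ℓ x x).re * (hM A y ω μ ℓ z z).re - (hM A y ω μ ℓ x z).re ^ 2 =
      caW (caG A y ω μ) x z + caV (caG A y ω μ) ℓ x z + (ℓ x * starRingEnd ℂ (ℓ z)).im ^ 2 := by
  simp only [ca_hM_eq, caW, caV, add_re, mul_re, mul_im, conj_re, conj_im, normSq_apply]
  ring

theorem curv_alg (ε L C : ℝ) (hε : 0 < ε) (hL : ε ≤ L) (hC : 0 ≤ C) :
    ∃ A a b : ℝ, 1 ≤ A ∧ 0 < a ∧ a ≤ b ∧ ∀ (y : ℝ) (ω μ : Cn 3 → Cn 3 → ℂ) (ℓ : Cn 3 → ℂ) (β : ℂ)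
      (T3 : Cn 3 → Cn 3 → Cn 3 → ℂ) (T4 : Cn 3 → Cn 3 → Cn 3 → Cn 3 → ℂ)
      (Γ : Cn 3 → Cn 3 → Cn 3), PtData ε L C A y ω μ ℓ β T3 T4 Γ →
      ∀ x z : Cn 3, (ω x z).re = 0 →
        a * ((hM A y ω μ ℓ x x).re * (hM A y ω μ ℓ z z).re - (hM A y ω μ ℓ x z).re ^ 2) ≤
          (curvT A y ω μ ℓ β T3 T4 Γ x z x z).re - (curvT A y ω μ ℓ β T3 T4 Γ x x z z).re ∧
        (curvT A y ω μ ℓ β T3 T4 Γ x z x z).re - (curvT A y ω μ ℓ β T3 T4 Γ x x z z).re ≤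
          b * ((hM A y ω μ ℓ x x).re * (hM A y ω μ ℓ z z).re - (hM A y ω μ ℓ x z).re ^ 2) := by
  obtain ⟨k, c, hk0, hk, hc, hprof⟩ := ca_profile hε
  have hL0 : 0 < L := by linarith
  obtain ⟨C1, hC1⟩ : ∃ C1, C1 = 2 * (C + C ^ 2 / ε) := ⟨_, rfl⟩
  obtain ⟨C', hC'⟩ : ∃ C', C' = 4 * (C * (1 + L / ε)) := ⟨_, rfl⟩
  have hC10 : 0 ≤ C1 := by rw [hC1]; positivity
  have hC'0 : 0 ≤ C' := by rw [hC']; positivity
  obtain ⟨A, hA2, hAL, hA3, hA4⟩ : ∃ A : ℝ, 2 ≤ A ∧ 30 * L ≤ A ∧ 24 * c * L ^ 2 ≤ A ∧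
      4 * (C1 + C' ^ 2 / (k * ε / 64)) ^ 2 / (k * ε ^ 2 / 2) ≤ A :=
    ⟨max (max 2 (30 * L)) (max (24 * c * L ^ 2)
        (4 * (C1 + C' ^ 2 / (k * ε / 64)) ^ 2 / (k * ε ^ 2 / 2))),
      le_max_of_le_left (le_max_left _ _), le_max_of_le_left (le_max_right _ _),
      le_max_of_le_right (le_max_left _ _), le_max_of_le_right (le_max_right _ _)⟩
  have hA0 : 0 < A := by linarith
  have hA1 : 1 ≤ A := by linarith
  obtain ⟨α, hα0, hα1, hα2, hα3, hα4⟩ : ∃ α : ℝ, 0 < α ∧ α * (4 * A) ≤ 1 ∧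
      α * (4 * L ^ 2) ≤ k * ε ^ 2 / 4 ∧ α * (A + 2 * L) ≤ k * ε / 64 ∧ α ≤ k / 8 := by
    refine ⟨min (min (1 / (4 * A)) (k * ε ^ 2 / 4 / (4 * L ^ 2)))
      (min (k * ε / 64 / (A + 2 * L)) (k / 8)), by positivity, ?_, ?_, ?_, ?_⟩
    · rw [← le_div_iff₀ (by positivity)]; exact min_le_of_left_le (min_le_left _ _)
    · rw [← le_div_iff₀ (by positivity)]; exact min_le_of_left_le (min_le_right _ _)
    · rw [← le_div_iff₀ (by positivity)]; exact min_le_of_right_le (min_le_left _ _)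
    · exact min_le_of_right_le (min_le_right _ _)
  obtain ⟨b, hb0, hb1, hb2, hb3⟩ : ∃ b : ℝ, α ≤ b ∧
      4 + C1 / ε + (4 * L ^ 2 + C') * (1 + (1 + 2 * A) / ε ^ 2) ≤ b ∧
      4 * L * (1 + 2 * A / ε) + C' ≤ b ∧ 8 * A ≤ b :=
    ⟨max (max α (4 + C1 / ε + (4 * L ^ 2 + C') * (1 + (1 + 2 * A) / ε ^ 2)))
        (max (4 * L * (1 + 2 * A / ε) + C') (8 * A)),
      le_max_of_le_left (le_max_left _ _), le_max_of_le_left (le_max_right _ _),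
      le_max_of_le_right (le_max_left _ _), le_max_of_le_right (le_max_right _ _)⟩
  refine ⟨A, α, b, hA1, hα0, hb0, fun y ω μ ℓ β T3 T4 Γ D x z h0 => ?_⟩
  have hy := D.hy
  obtain ⟨M, hM', hlo, hhi, hE⟩ := D.ca_decomp hε hL hC hA0
  replace hE := abs_le.1 (hE x z)
  rw [← hC1, ← hC'] at hE
  have hμ0 := D.ca_μ_nonneg hε
  have hp := ca_pP_nonneg hA0 hy
  have hψ := ca_psi_nonneg hA0 hy
  have hG := ca_G_HF (A := A) (y := y) D.hω D.hμ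
  -- bounds on the forms
  have hlo1 : ∀ u, y ^ 2 / 8 * (μ u u).re ≤ 1 * (M u u).re := fun u => by
    have := mul_le_mul_of_nonneg_right (ca_lo_ge hL0 hA1 hAL hy) (hμ0 u)
    linarith [hlo u]
  have hlo2 : ∀ u, (mP A y - caD A y) * (μ u u).re ≤ (M u u).re := fun u => by
    have := mul_le_mul_of_nonneg_right (ca_psi_div_le hL0 hA0 hy) (hμ0 u)
    linarith [hlo u]
  have hM0 : ∀ u, 0 ≤ (M u u).re := fun u => by
    have := mul_nonneg (show 0 ≤ y ^ 2 / 8 by positivity) (hμ0 u)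
    linarith [hlo1 u]
  have hhi1 : ∀ u, 1 * (M u u).re ≤ mP A y * (μ u u).re := fun u => by
    have := mul_nonneg (show 0 ≤ psiP A y / (A / ε + pP A y) by positivity) (hμ0 u)
    linarith [hhi u]
  have hGlo : ∀ u, (A + pP A y * ε) * (ω u u).re ≤ (caG A y ω μ u u).re := fun u => by
    have := mul_le_mul_of_nonneg_left (D.μ_ge u) hp
    rw [ca_G_re]; linarith
  have hGhi : ∀ u, 1 * (caG A y ω μ u u).re ≤ (A + pP A y * L) * (ω u u).re := fun u => by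
    have := mul_le_mul_of_nonneg_left (D.μ_le u) hp
    rw [ca_G_re]; linarith
  obtain ⟨a, ha⟩ : ∃ a, a = √(ω x x).re := ⟨_, rfl⟩
  obtain ⟨b', hb'⟩ : ∃ b', b' = √(ω z z).re := ⟨_, rfl⟩
  have ea : (ω x x).re = a ^ 2 := by rw [ha, Real.sq_sqrt (D.ω_nonneg x)]
  have eb : (ω z z).re = b' ^ 2 := by rw [hb', Real.sq_sqrt (D.ω_nonneg z)]
  rw [← ha, ← hb', ea, eb] at hE
  have eW : caW ω x z = a ^ 2 * b' ^ 2 := by rw [caW, h0, ea, eb]; ring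
  have eV : caV ω ℓ x z = a ^ 2 * ‖ℓ z‖ ^ 2 + b' ^ 2 * ‖ℓ x‖ ^ 2 := by
    rw [caV, h0, ea, eb, normSq_eq_norm_sq, normSq_eq_norm_sq]; ring
  have hQω1 : a ^ 2 * b' ^ 2 ≤ caW ω x z + 3 * (ω x z).im ^ 2 := by
    rw [eW]; linarith [sq_nonneg (ω x z).im]
  have hQω2 : caW ω x z + 3 * (ω x z).im ^ 2 ≤ 4 * (a ^ 2 * b' ^ 2) := by
    have := D.hω.ca_W_nonneg D.ω_nonneg x z
    rw [eW] at this ⊢; linarith
  have hQμ1 : ε ^ 2 * (a ^ 2 * b' ^ 2) ≤ caW μ x z + 3 * (μ x z).im ^ 2 := by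
    have := D.hμ.ca_W_ge D.hω D.ω_nonneg hε.le D.μ_ge x z h0
    rw [ea, eb] at this
    linarith [sq_nonneg (μ x z).im]
  have hQμ2 : caW μ x z + 3 * (μ x z).im ^ 2 ≤ 4 * L ^ 2 * (a ^ 2 * b' ^ 2) := by
    have h1 := D.hμ.ca_W_nonneg hμ0 x z
    have h2 := HF.ca_W_le μ x z
    have h3 : (μ x x).re * (μ z z).re ≤ (L * a ^ 2) * (L * b' ^ 2) := by
      apply mul_le_mul _ _ (hμ0 z) (by positivity)
      · rw [← ea]; exact D.μ_le x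
      · rw [← eb]; exact D.μ_le z
    linarith
  have hVμ1 : ε * caV ω ℓ x z ≤ 1 * caV μ ℓ x z :=
    D.hω.ca_V_mono D.hμ (fun u => by rw [one_mul]; exact D.μ_ge u) ℓ x z
  have hVμ2 : 1 * caV μ ℓ x z ≤ L * caV ω ℓ x z :=
    D.hμ.ca_V_mono D.hω (fun u => by rw [one_mul]; exact D.μ_le u) ℓ x z
  rw [eV, one_mul] at hVμ1 hVμ2
  have hh0 : 0 ≤ a ^ 2 * b' ^ 2 := by positivity
  have hw0 : 0 ≤ a ^ 2 * ‖ℓ z‖ ^ 2 + b' ^ 2 * ‖ℓ x‖ ^ 2 := by positivity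
  rw [ca_gram]
  constructor
  · have hV1 : y ^ 2 / 8 * (ε * (a ^ 2 * ‖ℓ z‖ ^ 2 + b' ^ 2 * ‖ℓ x‖ ^ 2)) ≤ caV M ℓ x z := by
      have h1 := D.hμ.ca_V_mono hM' hlo1 ℓ x z
      have h2 := mul_le_mul_of_nonneg_left hVμ1 (show 0 ≤ y ^ 2 / 8 by positivity)
      linarith
    have hσ : (M x z).im ^ 2 ≤
        vP A y * (((1 - k) * psiP A y + c) * (caW μ x z + 3 * (μ x z).im ^ 2)) := by
      have h1 := HF.ca_im_sq_le hM' D.hμ hμ0 hlo2 hhi x z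
      have h2 := mul_le_mul_of_nonneg_right (hprof A y hA2 hy)
        (le_trans (by positivity) hQμ1)
      linarith
    have h1 := ca_low hk0 hk hc hε hA3 hA4 hp (ca_v_ge hA1 hy) D.hβ (ca_psi_ge hA1 hy)
      (ca_psi_le hA0 hy) hQω1 hQμ1 hQμ2 hV1 (hM'.ca_V_im_ge hM0 ℓ x z) hσ
      (K := (curvT A y ω μ ℓ β T3 T4 Γ x z x z).re - (curvT A y ω μ ℓ β T3 T4 Γ x x z z).re)
      (by linarith [hE.1])
    have hD : caW (caG A y ω μ) x z + caV (caG A y ω μ) ℓ x z +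
        (ℓ x * starRingEnd ℂ (ℓ z)).im ^ 2 ≤
        (A + pP A y * L) ^ 2 * (a ^ 2 * b' ^ 2) +
          (A + pP A y * L) * (a ^ 2 * ‖ℓ z‖ ^ 2 + b' ^ 2 * ‖ℓ x‖ ^ 2) +
          (ℓ x * starRingEnd ℂ (ℓ z)).im ^ 2 := by
      have h2 := HF.ca_W_le (caG A y ω μ) x z
      have h3 := hG.ca_V_mono D.hω hGhi ℓ x z
      have h4 : (caG A y ω μ x x).re * (caG A y ω μ z z).re ≤
          ((A + pP A y * L) * a ^ 2) * ((A + pP A y * L) * b' ^ 2) := by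
        apply mul_le_mul _ _ (le_trans (mul_nonneg (by positivity) (D.ω_nonneg z)) (hGlo z))
          (by positivity)
        · rw [← ea]; linarith [hGhi x]
        · rw [← eb]; linarith [hGhi z]
      rw [eV] at h3
      linarith
    have h2 := ca_cmp_low hα0.le hA1 hL0.le hα1 hα2 hα3 hy (ca_psi_ge hA1 hy) (ca_p_le hA1 hy)
      hh0 hw0 hD
    have h3 := mul_le_mul_of_nonneg_right hα4 (sq_nonneg (ℓ x * starRingEnd ℂ (ℓ z)).im)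
    linarith
  · have hV1 : caV M ℓ x z ≤ mP A y * (L * (a ^ 2 * ‖ℓ z‖ ^ 2 + b' ^ 2 * ‖ℓ x‖ ^ 2)) := by
      have h1 := hM'.ca_V_mono D.hμ hhi1 ℓ x z
      have h2 := mul_le_mul_of_nonneg_left hVμ2 (le_trans (sq_nonneg y) (ca_m_ge hA0 hy))
      linarith
    have h1 := ca_up hA0.le hC'0 (ca_v_le hA0 hy) D.hβ hQω2 hQμ2 hV1 (hM'.ca_V_im_le hM0 ℓ x z)
      (K := (curvT A y ω μ ℓ β T3 T4 Γ x z x z).re - (curvT A y ω μ ℓ β T3 T4 Γ x x z z).re)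
      (C1 := C1) (p := pP A y) (by linarith [hE.2])
    have hD : (A + pP A y * ε) ^ 2 * (a ^ 2 * b' ^ 2) +
          (A + pP A y * ε) * (a ^ 2 * ‖ℓ z‖ ^ 2 + b' ^ 2 * ‖ℓ x‖ ^ 2) +
          (ℓ x * starRingEnd ℂ (ℓ z)).im ^ 2 ≤
        caW (caG A y ω μ) x z + caV (caG A y ω μ) ℓ x z +
          (ℓ x * starRingEnd ℂ (ℓ z)).im ^ 2 := by
      have h2 := hG.ca_W_ge D.hω D.ω_nonneg (by positivity) hGlo x z h0
      have h3 := D.hω.ca_V_mono hG (c := A + pP A y * ε) (c' := 1)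
        (fun u => by rw [one_mul]; exact hGlo u) ℓ x z
      rw [eV] at h3
      rw [ea, eb] at h2
      linarith
    have h2 := ca_cmp_up hε hA1 hL0.le hC10 (by positivity) hC'0 hp (ca_psi_le hA0 hy)
      (ca_sq_le hA0 hy) (ca_m_le hA0 hy) hh0 hw0 hb1 hb2 hb3 hD
    linarith

end Vale.Agent.P250
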