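import Vale.Agent.P250.CurvHF

/-!
Decomposition of the algebraic curvature tensor into a main part and error terms.
-/

open Complex

noncomputable section

namespace Vale.Agent.P250

theorem ca_pP_nonneg {A y : ℝ} (hA : 0 < A) (hy : 1 ≤ y) : 0 ≤ pP A y := by
  unfold pP
  have : 0 ≤ y - 1 := by linarith
  have : 0 ≤ (y + 1) / A := by positivity
  positivity

theorem ca_psi_nonneg {A y : ℝ} (hA : 0 < A) (hy : 1 ≤ y) : 0 ≤ psiP A y := by
  unfold psiP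
  have : 0 ≤ y ^ 2 - 1 := by nlinarith
  have : 0 ≤ 2 * y / A := by positivity
  positivity

/-- The horizontal part of the metric. -/
def caG (A y : ℝ) (ω μ : Cn 3 → Cn 3 → ℂ) (a b : Cn 3) : ℂ := A * ω a b + pP A y * μ a b

theorem ca_G_HF {A y : ℝ} {ω μ : Cn 3 → Cn 3 → ℂ} (hω : HF ω) (hμ : HF μ) : HF (caG A y ω μ) where
  add a b c := by simp only [caG, hω.add, hμ.add]; ring
  smul t a c := by simp only [caG, hω.smul, hμ.smul]; ring
  conj a b := by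
    simp only [caG, map_add, map_mul, conj_ofReal]
    rw [← hω.conj, ← hμ.conj]

theorem ca_G_re (A y : ℝ) (ω μ : Cn 3 → Cn 3 → ℂ) (a : Cn 3) :
    (caG A y ω μ a a).re = A * (ω a a).re + pP A y * (μ a a).re := by
  simp [caG]

theorem ca_hM_eq (A y : ℝ) (ω μ : Cn 3 → Cn 3 → ℂ) (ℓ : Cn 3 → ℂ) (a b : Cn 3) :
    hM A y ω μ ℓ a b = caG A y ω μ a b + ℓ a * starRingEnd ℂ (ℓ b) := rfl

theorem ca_hM_re (A y : ℝ) (ω μ : Cn 3 → Cn 3 → ℂ) (ℓ : Cn 3 → ℂ) (a : Cn 3) :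
    (hM A y ω μ ℓ a a).re = A * (ω a a).re + pP A y * (μ a a).re + normSq (ℓ a) := by
  rw [ca_hM_eq, add_re, ca_G_re, mul_conj, ofReal_re]

namespace PtData

variable {ε L C A y : ℝ} {ω μ : Cn 3 → Cn 3 → ℂ} {ℓ : Cn 3 → ℂ} {β : ℂ}
    {T3 : Cn 3 → Cn 3 → Cn 3 → ℂ} {T4 : Cn 3 → Cn 3 → Cn 3 → Cn 3 → ℂ}
    {Γ : Cn 3 → Cn 3 → Cn 3}

theorem ca_h_HF (D : PtData ε L C A y ω μ ℓ β T3 T4 Γ) : HF (hM A y ω μ ℓ) where
  add a b c := by simp only [hM, D.hω.add, D.hμ.add, D.ℓ_add]; ring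
  smul t a c := by simp only [hM, D.hω.smul, D.hμ.smul, D.ℓ_smul]; ring
  conj a b := by
    simp only [hM, map_add, map_mul, conj_ofReal, conj_conj]
    rw [← D.hω.conj, ← D.hμ.conj]; ring

theorem ca_μ_nonneg (D : PtData ε L C A y ω μ ℓ β T3 T4 Γ) (hε : 0 < ε) (a : Cn 3) :
    0 ≤ (μ a a).re :=
  le_trans (mul_nonneg hε.le (D.ω_nonneg a)) (D.μ_ge a)

theorem ca_μ_norm (D : PtData ε L C A y ω μ ℓ β T3 T4 Γ) (hε : 0 < ε) (hL : ε ≤ L) (a b : Cn 3) :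
    ‖μ a b‖ ≤ L * √(ω a a).re * √(ω b b).re := by
  have hL0 : 0 ≤ L := by linarith
  have h1 : ∀ a, √(μ a a).re ≤ √L * √(ω a a).re := fun a => by
    rw [← Real.sqrt_mul hL0]; exact Real.sqrt_le_sqrt (D.μ_le a)
  calc ‖μ a b‖ ≤ √(μ a a).re * √(μ b b).re := D.hμ.ca_norm_le (D.ca_μ_nonneg hε) a b
    _ ≤ (√L * √(ω a a).re) * (√L * √(ω b b).re) := by gcongr <;> apply h1
    _ = (√L * √L) * √(ω a a).re * √(ω b b).re := by ring
    _ = _ := by rw [Real.mul_self_sqrt hL0]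

theorem ca_ℓ_sub (D : PtData ε L C A y ω μ ℓ β T3 T4 Γ) (a b : Cn 3) : ℓ (a - b) = ℓ a - ℓ b := by
  have := D.ℓ_add (a - b) b
  rw [sub_add_cancel] at this
  rw [this]; ring

/-- The vectors that represent `β μ(a, ·)`. -/
theorem ca_exists_δ (D : PtData ε L C A y ω μ ℓ β T3 T4 Γ) (hε : 0 < ε) :
    ∃ δ : Cn 3 → Cn 3, ∀ a b, hM A y ω μ ℓ (δ a) b = β * μ a b := by
  obtain ⟨e, he, he0⟩ := D.vert
  have hω0 : (ω e e).re = 0 := by rw [he0, zero_re]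
  have hμ0 : (μ e e).re = 0 := by
    have h1 := D.μ_le e
    have h2 := D.ca_μ_nonneg hε e
    rw [hω0, mul_zero] at h1
    linarith
  refine ⟨fun a => (ℓ e)⁻¹ • Γ a e, fun a b => ?_⟩
  have hT : T3 a e b = 0 := by
    have := D.T3_le a e b
    rw [hω0, Real.sqrt_zero, mul_zero, zero_mul] at this
    exact norm_le_zero_iff.1 this
  rw [D.ca_h_HF.smul, D.hΓ, hT, D.hμ.ca_zero_left (D.ca_μ_nonneg hε) hμ0]
  field_simp
  ring

theorem ca_N_upper (D : PtData ε L C A y ω μ ℓ β T3 T4 Γ) (hε : 0 < ε) (hL : ε ≤ L) (hA : 0 < A)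
    {δ : Cn 3 → Cn 3} (hδ : ∀ a b, hM A y ω μ ℓ (δ a) b = β * μ a b) (a : Cn 3) :
    (hM A y ω μ ℓ (δ a) (δ a)).re ≤ psiP A y / (A / L + pP A y) * (μ a a).re := by
  have hL0 : 0 < L := by linarith
  have hp := ca_pP_nonneg hA D.hy
  have hq : 0 < A / L + pP A y := by positivity
  set N := (hM A y ω μ ℓ (δ a) (δ a)).re with hN
  set u := (μ (δ a) (δ a)).re with hu
  have hu0 : 0 ≤ u := D.ca_μ_nonneg hε _
  have hm0 := D.ca_μ_nonneg hε a
  have h1 : (A / L + pP A y) * u ≤ N := by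
    rw [hN, ca_hM_re]
    have h2 := D.μ_le (δ a)
    have h3 : A / L * u ≤ A * (ω (δ a) (δ a)).re := by
      rw [div_mul_eq_mul_div, div_le_iff₀ hL0]; nlinarith
    nlinarith [normSq_nonneg (ℓ (δ a))]
  have hN0 : 0 ≤ N := le_trans (by positivity) h1
  have h2 : N ^ 2 ≤ psiP A y * ((μ a a).re * u) := by
    have h3 : N ≤ ‖β‖ * ‖μ a (δ a)‖ := by
      rw [hN, hδ, ← norm_mul]; exact re_le_norm _
    have h4 : ‖μ a (δ a)‖ ^ 2 ≤ (μ a a).re * u := by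
      rw [← normSq_eq_norm_sq, normSq_apply]
      have := D.hμ.ca_cs (D.ca_μ_nonneg hε) a (δ a)
      nlinarith
    calc N ^ 2 ≤ (‖β‖ * ‖μ a (δ a)‖) ^ 2 := by gcongr
      _ = psiP A y * ‖μ a (δ a)‖ ^ 2 := by rw [mul_pow, D.hβ]
      _ ≤ _ := by
        have := ca_psi_nonneg hA D.hy
        gcongr
  rw [div_mul_eq_mul_div, le_div_iff₀ hq]
  have hψ := ca_psi_nonneg hA D.hy
  rcases hN0.eq_or_lt with h0 | h0
  · rw [← h0, zero_mul]; positivity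
  · have h5 : N ^ 2 * (A / L + pP A y) ≤ psiP A y * (μ a a).re * N := by
      calc N ^ 2 * (A / L + pP A y) ≤ psiP A y * ((μ a a).re * u) * (A / L + pP A y) := by gcongr
        _ = psiP A y * (μ a a).re * ((A / L + pP A y) * u) := by ring
        _ ≤ _ := by gcongr
    by_contra hc
    push Not at hc
    nlinarith

theorem ca_h_nonneg (D : PtData ε L C A y ω μ ℓ β T3 T4 Γ) (hε : 0 < ε) (hA : 0 < A) (a : Cn 3) :
    0 ≤ (hM A y ω μ ℓ a a).re := by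
  rw [ca_hM_re]
  have := ca_pP_nonneg hA D.hy
  have := D.ω_nonneg a
  have := D.ca_μ_nonneg hε a
  have := normSq_nonneg (ℓ a)
  positivity

theorem ca_N_lower (D : PtData ε L C A y ω μ ℓ β T3 T4 Γ) (hε : 0 < ε) (hA : 0 < A)
    {δ : Cn 3 → Cn 3} (hδ : ∀ a b, hM A y ω μ ℓ (δ a) b = β * μ a b) (a : Cn 3) :
    psiP A y / (A / ε + pP A y) * (μ a a).re ≤ (hM A y ω μ ℓ (δ a) (δ a)).re := by
  obtain ⟨e, he, he0⟩ := D.vert
  have hω0 : (ω e e).re = 0 := by rw [he0, zero_re]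
  have hμ0 : (μ e e).re = 0 := by
    have h1 := D.μ_le e
    have h2 := D.ca_μ_nonneg hε e
    rw [hω0, mul_zero] at h1
    linarith
  have hp := ca_pP_nonneg hA D.hy
  have hq : 0 < A / ε + pP A y := by positivity
  set b := a - (ℓ a / ℓ e) • e with hb
  have hℓ : ℓ b = 0 := by
    rw [hb, D.ca_ℓ_sub, D.ℓ_smul]; field_simp; ring
  have hμab : μ a b = μ a a := by
    rw [hb, D.hμ.ca_sub_right, D.hμ.ca_smul_right,
      D.hμ.ca_zero_right (D.ca_μ_nonneg hε) hμ0]; ring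
  have hμb : μ b b = μ a a := by
    rw [← hμab]
    conv_lhs => rw [show μ b b = μ (a - (ℓ a / ℓ e) • e) b from rfl]
    rw [D.hμ.ca_sub, D.hμ.smul, D.hμ.ca_zero_left (D.ca_μ_nonneg hε) hμ0]; ring
  have hm0 := D.ca_μ_nonneg hε a
  have h1 : (hM A y ω μ ℓ b b).re ≤ (A / ε + pP A y) * (μ a a).re := by
    rw [ca_hM_re, hℓ, ← hμb, map_zero, add_zero, add_mul]
    have h2 := D.μ_ge b
    have h3 : A * (ω b b).re ≤ A / ε * (μ b b).re := by
      rw [div_mul_eq_mul_div, le_div_iff₀ hε]; nlinarith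
    linarith
  have h2 := D.ca_h_HF.ca_cs (D.ca_h_nonneg hε hA) (δ a) b
  have h3 : (hM A y ω μ ℓ (δ a) b).re ^ 2 + (hM A y ω μ ℓ (δ a) b).im ^ 2 =
      psiP A y * (μ a a).re ^ 2 := by
    rw [hδ, hμab, ← D.hβ, ← normSq_eq_norm_sq, normSq_apply, mul_re, mul_im, D.hμ.ca_im]; ring
  rw [h3] at h2
  set N := (hM A y ω μ ℓ (δ a) (δ a)).re with hN
  have hN0 : 0 ≤ N := D.ca_h_nonneg hε hA _
  have h4 : psiP A y * (μ a a).re ^ 2 ≤ N * ((A / ε + pP A y) * (μ a a).re) :=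
    le_trans h2 (by gcongr)
  rw [div_mul_eq_mul_div, div_le_iff₀ hq]
  rcases hm0.eq_or_lt with h0 | h0
  · rw [← h0, mul_zero]; positivity
  · by_contra hc
    push Not at hc
    nlinarith

theorem ca_S_le (D : PtData ε L C A y ω μ ℓ β T3 T4 Γ) (hε : 0 < ε) (hC : 0 ≤ C) (hA : 0 < A)
    {a c S : Cn 3} (hS : ∀ b, hM A y ω μ ℓ S b = pP A y * T3 a c b) :
    √(ω S S).re ≤ C / ε * √(ω a a).re * √(ω c c).re := by
  have hp := ca_pP_nonneg hA D.hy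
  set s := √(ω S S).re with hs
  have hs0 : 0 ≤ s := Real.sqrt_nonneg _
  have hs2 : s ^ 2 = (ω S S).re := Real.sq_sqrt (D.ω_nonneg S)
  set K := C * √(ω a a).re * √(ω c c).re with hK
  have hK0 : 0 ≤ K := by positivity
  have h1 : (A + pP A y * ε) * s ^ 2 ≤ pP A y * (K * s) := by
    have h2 : (hM A y ω μ ℓ S S).re ≤ pP A y * (K * s) := by
      rw [hS]
      calc (pP A y * T3 a c S).re ≤ ‖(pP A y : ℂ) * T3 a c S‖ := re_le_norm _
        _ = pP A y * ‖T3 a c S‖ := by rw [norm_mul, norm_real, Real.norm_of_nonneg hp]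
        _ ≤ _ := by gcongr; exact D.T3_le a c S
    rw [ca_hM_re] at h2
    have h3 := D.μ_ge S
    rw [hs2]
    nlinarith [normSq_nonneg (ℓ S), mul_le_mul_of_nonneg_left h3 hp]
  have h4 : C / ε * √(ω a a).re * √(ω c c).re = K / ε := by rw [hK]; ring
  rw [h4, le_div_iff₀ hε]
  rcases hs0.eq_or_lt with h0 | h0
  · rw [← h0, zero_mul]; exact hK0
  · by_contra hc
    push Not at hc
    have h5 : pP A y * (K * s) ≤ pP A y * (s * ε * s) := by gcongr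
    nlinarith [mul_pos hA (pow_pos h0 2)]

end PtData

end Vale.Agent.P250
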