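import Vale.Agent.P250.CurvDec

/-!
The main part and the error terms of the algebraic curvature tensor.
-/

open Complex

noncomputable section

namespace Vale.Agent.P250

/-- The main part of the curvature tensor. -/
def caMain (A y : ℝ) (ω μ M : Cn 3 → Cn 3 → ℂ) (ℓ : Cn 3 → ℂ) (a c b d : Cn 3) : ℂ :=
  A * (ω a b * ω c d + ω a d * ω c b) + psiP A y * (μ a b * μ c d + μ a d * μ c b) +
    (M a b * ℓ c * starRingEnd ℂ (ℓ d) + M a d * ℓ c * starRingEnd ℂ (ℓ b) +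
      M c b * ℓ a * starRingEnd ℂ (ℓ d) + M c d * ℓ a * starRingEnd ℂ (ℓ b)) +
    2 * vP A y * (ℓ a * ℓ c * starRingEnd ℂ (ℓ b) * starRingEnd ℂ (ℓ d))

theorem ca_main_diff {A y : ℝ} {ω μ M : Cn 3 → Cn 3 → ℂ} (hω : HF ω) (hμ : HF μ) (hM : HF M)
    (ℓ : Cn 3 → ℂ) (x z : Cn 3) :
    (caMain A y ω μ M ℓ x z x z).re - (caMain A y ω μ M ℓ x x z z).re =
      A * (caW ω x z + 3 * (ω x z).im ^ 2) + psiP A y * (caW μ x z + 3 * (μ x z).im ^ 2) +
        caV M ℓ x z + 6 * ((M x z).im * (ℓ x * starRingEnd ℂ (ℓ z)).im) +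
        4 * vP A y * (ℓ x * starRingEnd ℂ (ℓ z)).im ^ 2 := by
  simp only [caMain, caW, caV, add_re, mul_re, mul_im, add_im, ofReal_re, ofReal_im, conj_re,
    conj_im, hω.ca_im, hμ.ca_im, hM.ca_im, hω.ca_re_swap x z, hω.ca_im_swap x z,
    hμ.ca_re_swap x z, hμ.ca_im_swap x z, hM.ca_re_swap x z, hM.ca_im_swap x z, normSq_apply,
    re_ofNat, im_ofNat]
  ring

namespace PtData

variable {ε L C A y : ℝ} {ω μ : Cn 3 → Cn 3 → ℂ} {ℓ : Cn 3 → ℂ} {β : ℂ}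
    {T3 : Cn 3 → Cn 3 → Cn 3 → ℂ} {T4 : Cn 3 → Cn 3 → Cn 3 → Cn 3 → ℂ}
    {Γ : Cn 3 → Cn 3 → Cn 3}

theorem ca_err (D : PtData ε L C A y ω μ ℓ β T3 T4 Γ) (hε : 0 < ε) (hL : ε ≤ L) (hC : 0 ≤ C)
    (hA : 0 < A) {δ : Cn 3 → Cn 3} (hδ : ∀ a b, hM A y ω μ ℓ (δ a) b = β * μ a b)
    (a c b d : Cn 3) :
    ‖curvT A y ω μ ℓ β T3 T4 Γ a c b d -
        caMain A y ω μ (fun u v => mP A y * μ u v - hM A y ω μ ℓ (δ u) (δ v)) ℓ a c b d‖ ≤
      (C + C ^ 2 / ε) * pP A y * (√(ω a a).re * √(ω c c).re * √(ω b b).re * √(ω d d).re) +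
        C * (1 + L / ε) * ‖β‖ *
          (‖ℓ b‖ * √(ω a a).re * √(ω c c).re * √(ω d d).re +
            ‖ℓ d‖ * √(ω a a).re * √(ω c c).re * √(ω b b).re +
            ‖ℓ a‖ * √(ω b b).re * √(ω d d).re * √(ω c c).re +
            ‖ℓ c‖ * √(ω b b).re * √(ω d d).re * √(ω a a).re) := by
  have hp := ca_pP_nonneg hA D.hy
  have hL0 : 0 ≤ L := by linarith
  have H := D.ca_h_HF
  set h := hM A y ω μ ℓ with hh
  set S : Cn 3 → Cn 3 → Cn 3 := fun a c => Γ a c - ℓ a • δ c - ℓ c • δ a with hSdef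
  have hS : ∀ a c b, h (S a c) b = pP A y * T3 a c b := by
    intro a c b
    simp only [hSdef]
    rw [H.ca_sub, H.ca_sub, H.smul, H.smul, hδ, hδ, hh, D.hΓ]; ring
  have hΓ : ∀ a c, Γ a c = S a c + ℓ a • δ c + ℓ c • δ a := by
    intro a c; simp only [hSdef]; abel
  have hSn : ∀ a c, √(ω (S a c) (S a c)).re ≤ C / ε * √(ω a a).re * √(ω c c).re :=
    fun a c => D.ca_S_le hε hC hA (hS a c)
  have hδS : ∀ a c b, ‖h (δ b) (S a c)‖ ≤
      ‖β‖ * (L * √(ω b b).re * (C / ε * √(ω a a).re * √(ω c c).re)) := by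
    intro a c b
    rw [hδ, norm_mul]
    gcongr
    refine le_trans (D.ca_μ_norm hε hL _ _) ?_
    gcongr
    exact hSn a c
  have hSδ : ∀ a c b, ‖h (S a c) (δ b)‖ ≤
      ‖β‖ * (L * √(ω b b).re * (C / ε * √(ω a a).re * √(ω c c).re)) := by
    intro a c b
    rw [H.conj (δ b) (S a c), RCLike.norm_conj]
    exact hδS a c b
  have hSS : ‖h (S a c) (S b d)‖ ≤
      pP A y * (C * √(ω a a).re * √(ω c c).re * (C / ε * √(ω b b).re * √(ω d d).re)) := by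
    rw [hS, norm_mul, norm_real, Real.norm_of_nonneg hp]
    gcongr
    refine le_trans (D.T3_le _ _ _) ?_
    gcongr
    exact hSn b d
  have e : curvT A y ω μ ℓ β T3 T4 Γ a c b d -
      caMain A y ω μ (fun u v => mP A y * μ u v - h (δ u) (δ v)) ℓ a c b d =
      pP A y * T4 a c b d + starRingEnd ℂ β * starRingEnd ℂ (ℓ b) * T3 a c d +
        starRingEnd ℂ β * starRingEnd ℂ (ℓ d) * T3 a c b +
        β * ℓ a * starRingEnd ℂ (T3 b d c) + β * ℓ c * starRingEnd ℂ (T3 b d a) -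
        h (S a c) (S b d) - starRingEnd ℂ (ℓ b) * h (S a c) (δ d) -
        starRingEnd ℂ (ℓ d) * h (S a c) (δ b) - ℓ a * h (δ c) (S b d) - ℓ c * h (δ a) (S b d) := by
    simp only [curvT, caMain]
    rw [← hh, hΓ a c, hΓ b d]
    simp only [H.add, H.smul, H.ca_add_right, H.ca_smul_right]
    ring
  rw [e]
  have b1 : ‖(pP A y : ℂ) * T4 a c b d‖ ≤
      pP A y * (C * √(ω a a).re * √(ω c c).re * √(ω b b).re * √(ω d d).re) := by
    rw [norm_mul, norm_real, Real.norm_of_nonneg hp]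
    gcongr
    exact D.T4_le _ _ _ _
  have b2 : ∀ a c b d, ‖starRingEnd ℂ β * starRingEnd ℂ (ℓ b) * T3 a c d‖ ≤
      ‖β‖ * ‖ℓ b‖ * (C * √(ω a a).re * √(ω c c).re * √(ω d d).re) := by
    intro a c b d
    rw [norm_mul, norm_mul, RCLike.norm_conj, RCLike.norm_conj]
    gcongr
    exact D.T3_le _ _ _
  have b3 : ∀ a c b d, ‖β * ℓ a * starRingEnd ℂ (T3 b d c)‖ ≤
      ‖β‖ * ‖ℓ a‖ * (C * √(ω b b).re * √(ω d d).re * √(ω c c).re) := by
    intro a c b d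
    rw [norm_mul, norm_mul, RCLike.norm_conj]
    gcongr
    exact D.T3_le _ _ _
  have b4 : ∀ b d, ‖starRingEnd ℂ (ℓ b) * h (S a c) (δ d)‖ ≤
      ‖ℓ b‖ * (‖β‖ * (L * √(ω d d).re * (C / ε * √(ω a a).re * √(ω c c).re))) := by
    intro b d
    rw [norm_mul, RCLike.norm_conj]
    gcongr
    exact hSδ _ _ _
  have b5 : ∀ a c, ‖ℓ a * h (δ c) (S b d)‖ ≤
      ‖ℓ a‖ * (‖β‖ * (L * √(ω c c).re * (C / ε * √(ω b b).re * √(ω d d).re))) := by
    intro a c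
    rw [norm_mul]
    gcongr
    exact hδS _ _ _
  refine le_trans (norm_sub_le_of_le (norm_sub_le_of_le (norm_sub_le_of_le (norm_sub_le_of_le
    (norm_sub_le_of_le (norm_add_le_of_le (norm_add_le_of_le (norm_add_le_of_le
    (norm_add_le_of_le b1 (b2 a c b d)) (b2 a c d b)) (b3 a c b d)) (b3 c a b d)) hSS)
    (b4 b d)) (b4 d b)) (b5 a c)) (b5 c a)) (le_of_eq ?_)
  ring

/-- The decomposition of the real sectional curvature numerator. -/
theorem ca_decomp (D : PtData ε L C A y ω μ ℓ β T3 T4 Γ) (hε : 0 < ε) (hL : ε ≤ L) (hC : 0 ≤ C)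
    (hA : 0 < A) :
    ∃ M : Cn 3 → Cn 3 → ℂ, HF M ∧
      (∀ u, (mP A y - psiP A y / (A / L + pP A y)) * (μ u u).re ≤ (M u u).re) ∧
      (∀ u, (M u u).re ≤ (mP A y - psiP A y / (A / ε + pP A y)) * (μ u u).re) ∧
      ∀ x z : Cn 3, |(curvT A y ω μ ℓ β T3 T4 Γ x z x z).re - (curvT A y ω μ ℓ β T3 T4 Γ x x z z).re -
        (A * (caW ω x z + 3 * (ω x z).im ^ 2) + psiP A y * (caW μ x z + 3 * (μ x z).im ^ 2) +
          caV M ℓ x z + 6 * ((M x z).im * (ℓ x * starRingEnd ℂ (ℓ z)).im) +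
          4 * vP A y * (ℓ x * starRingEnd ℂ (ℓ z)).im ^ 2)| ≤
        2 * (C + C ^ 2 / ε) * pP A y * ((ω x x).re * (ω z z).re) +
          4 * (C * (1 + L / ε)) * ‖β‖ * (√(ω x x).re * √(ω z z).re) *
            (‖ℓ x‖ * √(ω z z).re + ‖ℓ z‖ * √(ω x x).re) := by
  obtain ⟨δ, hδ⟩ := D.ca_exists_δ hε
  have H := D.ca_h_HF
  set M : Cn 3 → Cn 3 → ℂ := fun u v => mP A y * μ u v - hM A y ω μ ℓ (δ u) (δ v) with hMdef
  have hM' : HF M := by
    refine ⟨fun a b c => ?_, fun t a c => ?_, fun a b => ?_⟩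
    · simp only [hMdef, hδ, D.hμ.add]; ring
    · simp only [hMdef, hδ, D.hμ.smul]; ring
    · simp only [hMdef, map_sub, map_mul, conj_ofReal]
      rw [← D.hμ.conj, ← H.conj]
  have hre : ∀ u, (M u u).re = mP A y * (μ u u).re - (hM A y ω μ ℓ (δ u) (δ u)).re := by
    intro u; simp [hMdef]
  refine ⟨M, hM', fun u => ?_, fun u => ?_, fun x z => ?_⟩
  · have := D.ca_N_upper hε hL hA hδ u
    rw [hre]; linarith
  · have := D.ca_N_lower hε hA hδ u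
    rw [hre]; linarith
  · rw [← ca_main_diff D.hω D.hμ hM']
    have h1 := D.ca_err hε hL hC hA hδ x z x z
    have h2 := D.ca_err hε hL hC hA hδ x x z z
    have h3 := le_trans (abs_re_le_norm _) h1
    have h4 := le_trans (abs_re_le_norm _) h2
    rw [sub_re] at h3 h4
    have ea : (ω x x).re = √(ω x x).re * √(ω x x).re := (Real.mul_self_sqrt (D.ω_nonneg x)).symm
    have eb : (ω z z).re = √(ω z z).re * √(ω z z).re := (Real.mul_self_sqrt (D.ω_nonneg z)).symm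
    set a := √(ω x x).re
    set b := √(ω z z).re
    rw [ea, eb]
    rw [abs_le] at h3 h4 ⊢
    constructor <;> nlinarith [h3.1, h3.2, h4.1, h4.2]

end PtData

end Vale.Agent.P250
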