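import Vale.Agent.P250.AlgDefs

/-!
Elementary facts on Hermitian forms used in the algebraic curvature estimate.
-/

open Complex

noncomputable section

namespace Vale.Agent.P250

/-- The Gram determinant of the real part of a Hermitian form. -/
def caW (B : Cn 3 → Cn 3 → ℂ) (x z : Cn 3) : ℝ := (B x x).re * (B z z).re - (B x z).re ^ 2

/-- The mixed term between a Hermitian form and the rank one form of `ℓ`. -/
def caV (B : Cn 3 → Cn 3 → ℂ) (ℓ : Cn 3 → ℂ) (x z : Cn 3) : ℝ :=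
  (B x x).re * normSq (ℓ z) + (B z z).re * normSq (ℓ x) -
    2 * (B x z).re * (ℓ x * starRingEnd ℂ (ℓ z)).re

theorem ca_amgm {X Y Z : ℝ} (hX : 0 ≤ X) (hY : 0 ≤ Y) (h : Z ^ 2 ≤ X * Y) : 2 * Z ≤ X + Y := by
  have h1 : (2 * Z) ^ 2 ≤ (X + Y) ^ 2 := by nlinarith [sq_nonneg (X - Y)]
  exact le_trans (le_abs_self _) (abs_le_of_sq_le_sq' h1 (by positivity) |> fun h => abs_le.2 h)

namespace HF

variable {B : Cn 3 → Cn 3 → ℂ}

theorem ca_add_right (h : HF B) (a b c : Cn 3) : B a (b + c) = B a b + B a c := by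
  rw [h.conj (b + c) a, h.add, map_add, ← h.conj, ← h.conj]

theorem ca_smul_right (h : HF B) (t : ℂ) (a b : Cn 3) :
    B a (t • b) = starRingEnd ℂ t * B a b := by
  rw [h.conj (t • b) a, h.smul, map_mul, ← h.conj]

theorem ca_sub (h : HF B) (a b c : Cn 3) : B (a - b) c = B a c - B b c := by
  have := h.add (a - b) b c
  rw [sub_add_cancel] at this
  rw [this]; ring

theorem ca_sub_right (h : HF B) (a b c : Cn 3) : B a (b - c) = B a b - B a c := by
  have := h.ca_add_right a (b - c) c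
  rw [sub_add_cancel] at this
  rw [this]; ring

theorem ca_im (h : HF B) (a : Cn 3) : (B a a).im = 0 := by
  have := congrArg Complex.im (h.conj a a)
  simp only [conj_im] at this
  linarith

theorem ca_re_swap (h : HF B) (a b : Cn 3) : (B b a).re = (B a b).re := by
  rw [h.conj a b, conj_re]

theorem ca_im_swap (h : HF B) (a b : Cn 3) : (B b a).im = -(B a b).im := by
  rw [h.conj a b, conj_im]

theorem ca_quad (h : HF B) (s t : ℂ) (x z : Cn 3) :
    (B (s • x + t • z) (s • x + t • z)).re =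
      (s.re ^ 2 + s.im ^ 2) * (B x x).re + (t.re ^ 2 + t.im ^ 2) * (B z z).re +
        2 * ((s.re * t.re + s.im * t.im) * (B x z).re -
          (s.im * t.re - s.re * t.im) * (B x z).im) := by
  simp only [h.add, h.smul, h.ca_add_right, h.ca_smul_right, add_re, mul_re, mul_im, conj_re,
    conj_im, h.ca_im, h.ca_re_swap x z, h.ca_im_swap x z, add_im]
  ring

theorem ca_cs (h : HF B) (hp : ∀ a, 0 ≤ (B a a).re) (x z : Cn 3) :
    (B x z).re ^ 2 + (B x z).im ^ 2 ≤ (B x x).re * (B z z).re := by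
  set n := (B x z).re ^ 2 + (B x z).im ^ 2 with hn
  have hn0 : 0 ≤ n := by positivity
  have key : ∀ l : ℝ, 0 ≤ (n * (B x x).re) * (l * l) + (2 * n) * l + (B z z).re := by
    intro l
    have := hp ((⟨l * (B x z).re, -(l * (B x z).im)⟩ : ℂ) • x + (1 : ℂ) • z)
    rw [h.ca_quad] at this
    simp only [one_re, one_im] at this
    rw [hn]; nlinarith [this]
  have hd := discrim_le_zero key
  rw [discrim] at hd
  rcases hn0.eq_or_lt with h0 | h0
  · rw [← h0]; exact mul_nonneg (hp x) (hp z)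
  · by_contra hc
    push Not at hc
    nlinarith

theorem ca_norm_le (h : HF B) (hp : ∀ a, 0 ≤ (B a a).re) (x z : Cn 3) :
    ‖B x z‖ ≤ √(B x x).re * √(B z z).re := by
  rw [← Real.sqrt_mul (hp x)]
  apply Real.le_sqrt_of_sq_le
  rw [← normSq_eq_norm_sq, normSq_apply]
  have := h.ca_cs hp x z
  nlinarith

theorem ca_zero_left (h : HF B) (hp : ∀ a, 0 ≤ (B a a).re) {e : Cn 3} (he : (B e e).re = 0)
    (b : Cn 3) : B e b = 0 := by
  have := h.ca_norm_le hp e b
  rw [he, Real.sqrt_zero, zero_mul] at this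
  exact norm_le_zero_iff.1 this

theorem ca_zero_right (h : HF B) (hp : ∀ a, 0 ≤ (B a a).re) {e : Cn 3} (he : (B e e).re = 0)
    (b : Cn 3) : B b e = 0 := by
  rw [h.conj e b, h.ca_zero_left hp he, map_zero]

theorem ca_W_nonneg (h : HF B) (hp : ∀ a, 0 ≤ (B a a).re) (x z : Cn 3) :
    (B x z).im ^ 2 ≤ caW B x z := by
  have := h.ca_cs hp x z
  unfold caW; linarith

theorem ca_W_le (B : Cn 3 → Cn 3 → ℂ) (x z : Cn 3) : caW B x z ≤ (B x x).re * (B z z).re := by
  unfold caW; nlinarith [sq_nonneg (B x z).re]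

/-- Monotonicity of the Gram determinant against a form for which `x` and `z` are orthogonal. -/
theorem ca_W_ge (h : HF B) {ω : Cn 3 → Cn 3 → ℂ} (hω : HF ω) (hp : ∀ a, 0 ≤ (ω a a).re) {c : ℝ}
    (hc : 0 ≤ c) (hle : ∀ a, c * (ω a a).re ≤ (B a a).re) (x z : Cn 3) (h0 : (ω x z).re = 0) :
    c ^ 2 * ((ω x x).re * (ω z z).re) ≤ caW B x z := by
  have key : ∀ l : ℝ, 0 ≤ (B x x).re * (l * l) + (2 * (B x z).re) * l +
      ((B z z).re - c * (ω z z).re) := by
    intro l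
    have := hle ((l : ℂ) • x + (1 : ℂ) • z)
    rw [h.ca_quad, hω.ca_quad] at this
    simp only [one_re, one_im, ofReal_re, ofReal_im, h0] at this
    have h2 : 0 ≤ c * (l ^ 2 * (ω x x).re) := mul_nonneg hc (mul_nonneg (sq_nonneg _) (hp x))
    nlinarith [this]
  have hd := discrim_le_zero key
  rw [discrim] at hd
  have h1 := hle x
  have h2 : 0 ≤ c * (ω z z).re := mul_nonneg hc (hp z)
  unfold caW
  nlinarith [mul_le_mul_of_nonneg_right h1 h2]

theorem ca_V_eq (h : HF B) (ℓ : Cn 3 → ℂ) (x z : Cn 3) :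
    caV B ℓ x z =
      (B ((((ℓ z).re : ℝ) : ℂ) • x + ((-(ℓ x).re : ℝ) : ℂ) • z)
        ((((ℓ z).re : ℝ) : ℂ) • x + ((-(ℓ x).re : ℝ) : ℂ) • z)).re +
      (B ((((ℓ z).im : ℝ) : ℂ) • x + ((-(ℓ x).im : ℝ) : ℂ) • z)
        ((((ℓ z).im : ℝ) : ℂ) • x + ((-(ℓ x).im : ℝ) : ℂ) • z)).re := by
  rw [h.ca_quad, h.ca_quad]
  simp only [caV, ofReal_re, ofReal_im, normSq_apply, mul_re, conj_re, conj_im]
  ring

theorem ca_V_mono (h : HF B) {B' : Cn 3 → Cn 3 → ℂ} (h' : HF B') {c c' : ℝ}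
    (hle : ∀ a, c * (B a a).re ≤ c' * (B' a a).re) (ℓ : Cn 3 → ℂ) (x z : Cn 3) :
    c * caV B ℓ x z ≤ c' * caV B' ℓ x z := by
  rw [h.ca_V_eq, h'.ca_V_eq, mul_add, mul_add]
  exact add_le_add (hle _) (hle _)

theorem ca_V_im_le (h : HF B) (hp : ∀ a, 0 ≤ (B a a).re) (ℓ : Cn 3 → ℂ) (x z : Cn 3) :
    2 * ((B x z).im * (ℓ x * starRingEnd ℂ (ℓ z)).im) ≤ caV B ℓ x z := by
  have := hp (ℓ z • x + (-ℓ x) • z)
  rw [h.ca_quad] at this
  simp only [caV, normSq_apply, mul_re, mul_im, conj_re, conj_im, neg_re, neg_im] at this ⊢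
  nlinarith [this]

theorem ca_V_im_ge (h : HF B) (hp : ∀ a, 0 ≤ (B a a).re) (ℓ : Cn 3 → ℂ) (x z : Cn 3) :
    -(2 * ((B x z).im * (ℓ x * starRingEnd ℂ (ℓ z)).im)) ≤ caV B ℓ x z := by
  have := hp (starRingEnd ℂ (ℓ z) • x + (-starRingEnd ℂ (ℓ x)) • z)
  rw [h.ca_quad] at this
  simp only [caV, normSq_apply, mul_re, mul_im, conj_re, conj_im, neg_re, neg_im] at this ⊢
  nlinarith [this]

/-- The key bound for the imaginary part of a form squeezed between two multiples of `μ`. -/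
theorem ca_im_sq_le {M μ : Cn 3 → Cn 3 → ℂ} (hM : HF M) (hμ : HF μ) (hp : ∀ a, 0 ≤ (μ a a).re)
    {lo hi : ℝ} (hlo : ∀ a, lo * (μ a a).re ≤ (M a a).re) (hhi : ∀ a, (M a a).re ≤ hi * (μ a a).re)
    (x z : Cn 3) :
    3 * (M x z).im ^ 2 ≤ (lo ^ 2 + hi ^ 2 - lo * hi) * (caW μ x z + 3 * (μ x z).im ^ 2) := by
  set J := (M x z).im - (lo + hi) / 2 * (μ x z).im with hJ
  set H := (hi - lo) / 2 with hH
  have key : ∀ s l : ℝ, 0 ≤ (H * (μ x x).re) * (l * l) + (-2 * J) * l +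
      H * (s ^ 2 * (μ x x).re + 2 * s * (μ x z).re + (μ z z).re) := by
    intro s l
    have h1 := hhi ((⟨l, s⟩ : ℂ) • x + I • z)
    have h2 := hlo ((⟨-l, s⟩ : ℂ) • x + I • z)
    rw [hM.ca_quad, hμ.ca_quad] at h1 h2
    simp only [I_re, I_im] at h1 h2
    rw [hJ, hH]
    nlinarith [h1, h2]
  have hW := hμ.ca_W_nonneg hp x z
  have hW0 : 0 ≤ caW μ x z := le_trans (sq_nonneg _) hW
  have hJ2 : J ^ 2 ≤ H ^ 2 * caW μ x z := by
    rcases (hp x).eq_or_lt with h0 | h0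
    · have hd := discrim_le_zero (key 0)
      rw [discrim, ← h0] at hd
      nlinarith [mul_nonneg (sq_nonneg H) hW0]
    · have hd := discrim_le_zero (key (-(μ x z).re / (μ x x).re))
      rw [discrim] at hd
      have e : (μ x x).re * ((-(μ x z).re / (μ x x).re) ^ 2 * (μ x x).re +
          2 * (-(μ x z).re / (μ x x).re) * (μ x z).re + (μ z z).re) = caW μ x z := by
        unfold caW; field_simp; ring
      rw [← e]; nlinarith [hd]
  have hM' : (M x z).im = (lo + hi) / 2 * (μ x z).im + J := by rw [hJ]; ring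
  have hL : lo ^ 2 + hi ^ 2 - lo * hi = ((lo + hi) / 2) ^ 2 + 3 * H ^ 2 := by rw [hH]; ring
  rw [hM', hL]
  set m := (lo + hi) / 2
  set σ := (μ x z).im
  set W := caW μ x z
  have h3 := ca_amgm (X := m ^ 2 * W / 3) (Y := 3 * H ^ 2 * σ ^ 2) (Z := m * σ * J)
    (by positivity) (by positivity)
    (by nlinarith [mul_le_mul_of_nonneg_left hJ2 (sq_nonneg (m * σ))])
  nlinarith [h3, hJ2]

end HF

end Vale.Agent.P250
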