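import Vale.Agent.P250.Defs

/-!
The ring of germs of smooth complex functions at a point of `ℂ³`, with its derivations.
-/

open scoped ContDiff Topology
open Filter Complex

noncomputable section

namespace Vale.Agent.P250

/-- The subring of germs of smooth functions. -/
def SmG (x : Cn 3) : Subring (Germ (𝓝 x) ℂ) where
  carrier := {φ | ∃ f : Cn 3 → ℂ, ContDiffAt ℝ ∞ f x ∧ φ = (f : Germ (𝓝 x) ℂ)}
  mul_mem' := by
    rintro _ _ ⟨f, hf, rfl⟩ ⟨g, hg, rfl⟩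
    exact ⟨f * g, hf.mul hg, rfl⟩
  one_mem' := ⟨1, contDiffAt_const, rfl⟩
  add_mem' := by
    rintro _ _ ⟨f, hf, rfl⟩ ⟨g, hg, rfl⟩
    exact ⟨f + g, hf.add hg, rfl⟩
  zero_mem' := ⟨0, contDiffAt_const, rfl⟩
  neg_mem' := by
    rintro _ ⟨f, hf, rfl⟩
    exact ⟨-f, hf.neg, rfl⟩

/-- The ring of smooth germs. -/
abbrev Gm (x : Cn 3) := ↥(SmG x)

namespace Gm

variable {x : Cn 3}

/-- The germ of a smooth function. -/
def mk (f : Cn 3 → ℂ) (hf : ContDiffAt ℝ ∞ f x) : Gm x := ⟨(f : Germ (𝓝 x) ℂ), f, hf, rfl⟩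

theorem ind (φ : Gm x) : ∃ f hf, φ = mk f hf := by
  obtain ⟨_, f, hf, rfl⟩ := φ
  exact ⟨f, hf, rfl⟩

theorem mk_eq {f g : Cn 3 → ℂ} {hf : ContDiffAt ℝ ∞ f x} {hg : ContDiffAt ℝ ∞ g x}
    (h : f =ᶠ[𝓝 x] g) : mk f hf = mk g hg :=
  Subtype.ext (Germ.coe_eq.2 h)

theorem mk_add {f g : Cn 3 → ℂ} (hf : ContDiffAt ℝ ∞ f x) (hg : ContDiffAt ℝ ∞ g x) :
    mk f hf + mk g hg = mk (fun y => f y + g y) (hf.add hg) := rfl

theorem mk_sub {f g : Cn 3 → ℂ} (hf : ContDiffAt ℝ ∞ f x) (hg : ContDiffAt ℝ ∞ g x) :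
    mk f hf - mk g hg = mk (fun y => f y - g y) (hf.sub hg) := rfl

theorem mk_mul {f g : Cn 3 → ℂ} (hf : ContDiffAt ℝ ∞ f x) (hg : ContDiffAt ℝ ∞ g x) :
    mk f hf * mk g hg = mk (fun y => f y * g y) (hf.mul hg) := rfl

theorem mk_neg {f : Cn 3 → ℂ} (hf : ContDiffAt ℝ ∞ f x) :
    - mk f hf = mk (fun y => - f y) hf.neg := rfl

theorem mk_one : (1 : Gm x) = mk (fun _ => 1) contDiffAt_const := rfl

theorem mk_zero : (0 : Gm x) = mk (fun _ => 0) contDiffAt_const := rfl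

/-- The value of a germ at the base point. -/
def val : Gm x →+* ℂ := (Germ.valueRingHom).comp (SmG x).subtype

theorem val_mk (f : Cn 3 → ℂ) (hf : ContDiffAt ℝ ∞ f x) : val (mk f hf) = f x := rfl

/-- Constant germs. -/
def C : ℂ →+* Gm x where
  toFun c := mk (fun _ => c) contDiffAt_const
  map_one' := rfl
  map_mul' _ _ := rfl
  map_zero' := rfl
  map_add' _ _ := rfl

theorem C_eq (c : ℂ) : (C c : Gm x) = mk (fun _ => c) contDiffAt_const := rfl

@[simp] theorem val_C (c : ℂ) : val (C c : Gm x) = c := rfl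

theorem smooth_fderiv {f : Cn 3 → ℂ} (hf : ContDiffAt ℝ ∞ f x) (v : Cn 3) :
    ContDiffAt ℝ ∞ (fun y => fderiv ℝ f y v) x :=
  (hf.fderiv_right (m := ∞) (by simp)).clm_apply contDiffAt_const

/-- The directional derivative of a germ. -/
def D (v : Cn 3) (φ : Gm x) : Gm x :=
  ⟨Germ.liftOn φ.1 (fun f => ((fun y => fderiv ℝ f y v : Cn 3 → ℂ) : Germ (𝓝 x) ℂ))
    (fun f g h => Germ.coe_eq.2 ((h.fderiv (𝕜 := ℝ)).mono fun y hy => by simp only [hy])), by
      obtain ⟨f, hf, rfl⟩ := ind φ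
      exact ⟨_, smooth_fderiv hf v, rfl⟩⟩

theorem D_mk (v : Cn 3) (f : Cn 3 → ℂ) (hf : ContDiffAt ℝ ∞ f x) :
    D v (mk f hf) = mk (fun y => fderiv ℝ f y v) (smooth_fderiv hf v) := rfl

theorem ev_diff {f : Cn 3 → ℂ} (hf : ContDiffAt ℝ ∞ f x) :
    ∀ᶠ y in 𝓝 x, DifferentiableAt ℝ f y :=
  ((hf.of_le (m := 1) (by simp)).eventually (by simp)).mono fun _ h =>
    h.differentiableAt (by simp)

theorem D_add (v : Cn 3) (φ ψ : Gm x) : D v (φ + ψ) = D v φ + D v ψ := by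
  obtain ⟨f, hf, rfl⟩ := ind φ
  obtain ⟨g, hg, rfl⟩ := ind ψ
  rw [mk_add, D_mk, D_mk, D_mk, mk_add]
  apply mk_eq
  filter_upwards [ev_diff hf, ev_diff hg] with y h1 h2
  rw [fderiv_fun_add h1 h2]
  rfl

theorem D_mul (v : Cn 3) (φ ψ : Gm x) : D v (φ * ψ) = D v φ * ψ + φ * D v ψ := by
  obtain ⟨f, hf, rfl⟩ := ind φ
  obtain ⟨g, hg, rfl⟩ := ind ψ
  rw [mk_mul, D_mk, D_mk, D_mk, mk_mul, mk_mul, mk_add]
  apply mk_eq
  filter_upwards [ev_diff hf, ev_diff hg] with y h1 h2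
  rw [fderiv_fun_mul h1 h2]
  simp
  ring

theorem D_C (v : Cn 3) (c : ℂ) : D v (C c : Gm x) = 0 := by
  rw [C_eq, D_mk, mk_zero]
  apply mk_eq
  simp

theorem D_comm (u v : Cn 3) (φ : Gm x) : D u (D v φ) = D v (D u φ) := by
  obtain ⟨f, hf, rfl⟩ := ind φ
  rw [D_mk, D_mk, D_mk, D_mk]
  apply mk_eq
  filter_upwards [(hf.of_le (m := 2) (WithTop.coe_le_coe.2 (le_top : (2 : ℕ∞) ≤ ⊤))).eventually (by simp)] with y hy
  have h1 : DifferentiableAt ℝ (fderiv ℝ f) y :=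
    (hy.fderiv_right (m := 1) (by norm_num)).differentiableAt (by simp)
  have h2 := hy.isSymmSndFDerivAt (by simp)
  rw [fderiv_clm_apply h1 (differentiableAt_const _), fderiv_clm_apply h1
    (differentiableAt_const _)]
  simpa using h2 u v

theorem D_dir_add (u v : Cn 3) (φ : Gm x) : D (u + v) φ = D u φ + D v φ := by
  obtain ⟨f, hf, rfl⟩ := ind φ
  rw [D_mk, D_mk, D_mk, mk_add]
  apply mk_eq
  simp

theorem D_dir_smul (t : ℝ) (v : Cn 3) (φ : Gm x) : D ((t : ℂ) • v) φ = C t * D v φ := by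
  obtain ⟨f, hf, rfl⟩ := ind φ
  rw [D_mk, D_mk, C_eq, mk_mul]
  apply mk_eq
  refine Eventually.of_forall fun y => ?_
  have : (t : ℂ) • v = t • v := by
    ext i
    simp
  simp [this]

theorem smooth_conj {f : Cn 3 → ℂ} (hf : ContDiffAt ℝ ∞ f x) :
    ContDiffAt ℝ ∞ (fun y => starRingEnd ℂ (f y)) x :=
  (conjCLE.contDiff.contDiffAt).comp x hf

/-- The conjugate of a germ. -/
def cjF (φ : Gm x) : Gm x :=
  ⟨Germ.map (starRingEnd ℂ) φ.1, by
    obtain ⟨f, hf, rfl⟩ := ind φ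
    exact ⟨_, smooth_conj hf, rfl⟩⟩

/-- Conjugation as a ring homomorphism. -/
def cj : Gm x →+* Gm x where
  toFun := cjF
  map_one' := mk_eq (hf := smooth_conj contDiffAt_const) (hg := contDiffAt_const) (by simp)
  map_zero' := mk_eq (hf := smooth_conj contDiffAt_const) (hg := contDiffAt_const) (by simp)
  map_mul' φ ψ := by
    obtain ⟨f, hf, rfl⟩ := ind φ
    obtain ⟨g, hg, rfl⟩ := ind ψ
    exact mk_eq (hf := smooth_conj (hf.mul hg)) (hg := (smooth_conj hf).mul (smooth_conj hg))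
      (by simp)
  map_add' φ ψ := by
    obtain ⟨f, hf, rfl⟩ := ind φ
    obtain ⟨g, hg, rfl⟩ := ind ψ
    exact mk_eq (hf := smooth_conj (hf.add hg)) (hg := (smooth_conj hf).add (smooth_conj hg))
      (by simp)

theorem cj_mk (f : Cn 3 → ℂ) (hf : ContDiffAt ℝ ∞ f x) :
    cj (mk f hf) = mk (fun y => starRingEnd ℂ (f y)) (smooth_conj hf) := rfl

theorem val_cj (φ : Gm x) : val (cj φ) = starRingEnd ℂ (val φ) := by
  obtain ⟨f, hf, rfl⟩ := ind φ
  rfl

theorem cj_C (c : ℂ) : cj (C c : Gm x) = C (starRingEnd ℂ c) := rfl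

theorem cj_cj (φ : Gm x) : cj (cj φ) = φ := by
  obtain ⟨f, hf, rfl⟩ := ind φ
  rw [cj_mk, cj_mk]
  exact mk_eq (by simp)

theorem cj_D (v : Cn 3) (φ : Gm x) : cj (D v φ) = D v (cj φ) := by
  obtain ⟨f, hf, rfl⟩ := ind φ
  rw [D_mk, cj_mk, cj_mk, D_mk]
  apply mk_eq
  filter_upwards [ev_diff hf] with y hy
  have := (conjCLE.hasFDerivAt.comp y hy.hasFDerivAt).fderiv
  have h2 : (fun y => starRingEnd ℂ (f y)) = conjCLE ∘ f := rfl
  rw [h2, this]
  rfl

theorem cj_real {f : Cn 3 → ℝ} (hf : ContDiffAt ℝ ∞ (fun y => (f y : ℂ)) x) :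
    cj (mk _ hf) = mk _ hf := by
  rw [cj_mk]
  exact mk_eq (by simp)

theorem D_exp (v : Cn 3) {f : Cn 3 → ℂ} (hf : ContDiffAt ℝ ∞ f x) :
    D v (mk (fun y => exp (f y)) hf.cexp) = mk (fun y => exp (f y)) hf.cexp * D v (mk f hf) := by
  rw [D_mk, D_mk, mk_mul]
  apply mk_eq
  filter_upwards [ev_diff hf] with y hy
  rw [hy.hasFDerivAt.cexp.fderiv]
  simp

theorem D_zero (v : Cn 3) : D v (0 : Gm x) = 0 := by simpa using D_C (x := x) v 0

theorem D_one (v : Cn 3) : D v (1 : Gm x) = 0 := by simpa using D_C (x := x) v 1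

theorem D_neg (v : Cn 3) (φ : Gm x) : D v (-φ) = - D v φ := by
  have := D_add v φ (-φ)
  rw [add_neg_cancel, D_zero] at this
  linear_combination -this

theorem D_sub (v : Cn 3) (φ ψ : Gm x) : D v (φ - ψ) = D v φ - D v ψ := by
  rw [sub_eq_add_neg, D_add, D_neg, sub_eq_add_neg]

theorem D_dir_neg (v : Cn 3) (φ : Gm x) : D (-v) φ = - D v φ := by
  simpa using D_dir_smul (-1) v φ

/-- The holomorphic derivative `∂_v`. -/
def dh (v : Cn 3) (φ : Gm x) : Gm x := C (1 / 2) * (D v φ - C I * D (I • v) φ)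

/-- The antiholomorphic derivative `∂̄_v`. -/
def da (v : Cn 3) (φ : Gm x) : Gm x := C (1 / 2) * (D v φ + C I * D (I • v) φ)

theorem C_half : (C (1 / 2) : Gm x) * 2 = 1 := by
  rw [← map_ofNat (C : ℂ →+* Gm x) 2, ← map_mul]
  norm_num

theorem C_I : (C I : Gm x) * C I = -1 := by
  rw [← map_mul, I_mul_I]
  simp

theorem D_eq (v : Cn 3) (φ : Gm x) : D v φ = dh v φ + da v φ := by
  rw [dh, da]
  linear_combination (-D v φ) * C_half

theorem D_I_eq (v : Cn 3) (φ : Gm x) : D (I • v) φ = C I * (dh v φ - da v φ) := by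
  rw [dh, da]
  linear_combination (-D (I • v) φ) * C_half + (2 * C (1 / 2) * D (I • v) φ) * C_I

theorem dh_add (v : Cn 3) (φ ψ : Gm x) : dh v (φ + ψ) = dh v φ + dh v ψ := by
  simp only [dh, D_add]
  ring

theorem da_add (v : Cn 3) (φ ψ : Gm x) : da v (φ + ψ) = da v φ + da v ψ := by
  simp only [da, D_add]
  ring

theorem dh_sub (v : Cn 3) (φ ψ : Gm x) : dh v (φ - ψ) = dh v φ - dh v ψ := by
  simp only [dh, D_sub]
  ring

theorem da_sub (v : Cn 3) (φ ψ : Gm x) : da v (φ - ψ) = da v φ - da v ψ := by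
  simp only [da, D_sub]
  ring

theorem dh_neg (v : Cn 3) (φ : Gm x) : dh v (-φ) = - dh v φ := by
  simp only [dh, D_neg]
  ring

theorem da_neg (v : Cn 3) (φ : Gm x) : da v (-φ) = - da v φ := by
  simp only [da, D_neg]
  ring

theorem dh_mul (v : Cn 3) (φ ψ : Gm x) : dh v (φ * ψ) = dh v φ * ψ + φ * dh v ψ := by
  simp only [dh, D_mul]
  ring

theorem da_mul (v : Cn 3) (φ ψ : Gm x) : da v (φ * ψ) = da v φ * ψ + φ * da v ψ := by
  simp only [da, D_mul]
  ring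

theorem dh_C (v : Cn 3) (c : ℂ) : dh v (C c : Gm x) = 0 := by simp [dh, D_C]

theorem da_C (v : Cn 3) (c : ℂ) : da v (C c : Gm x) = 0 := by simp [da, D_C]

theorem dh_zero (v : Cn 3) : dh v (0 : Gm x) = 0 := by simp [dh, D_zero]

theorem da_zero (v : Cn 3) : da v (0 : Gm x) = 0 := by simp [da, D_zero]

theorem dh_one (v : Cn 3) : dh v (1 : Gm x) = 0 := by simp [dh, D_one]

theorem da_one (v : Cn 3) : da v (1 : Gm x) = 0 := by simp [da, D_one]

theorem dh_dh (u v : Cn 3) (φ : Gm x) : dh u (dh v φ) = dh v (dh u φ) := by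
  simp only [dh, D_mul, D_sub, D_C, D_comm u, D_comm (I • u)]
  ring

theorem da_da (u v : Cn 3) (φ : Gm x) : da u (da v φ) = da v (da u φ) := by
  simp only [da, D_mul, D_add, D_C, D_comm u, D_comm (I • u)]
  ring

theorem da_dh (u v : Cn 3) (φ : Gm x) : da u (dh v φ) = dh v (da u φ) := by
  simp only [da, dh, D_mul, D_add, D_sub, D_C, D_comm u, D_comm (I • u)]
  ring

theorem dh_dir_add (u v : Cn 3) (φ : Gm x) : dh (u + v) φ = dh u φ + dh v φ := by
  simp only [dh, smul_add, D_dir_add]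
  ring

theorem da_dir_add (u v : Cn 3) (φ : Gm x) : da (u + v) φ = da u φ + da v φ := by
  simp only [da, smul_add, D_dir_add]
  ring

theorem D_dir_csmul (t : ℂ) (v : Cn 3) (φ : Gm x) :
    D (t • v) φ = C t.re * D v φ + C t.im * D (I • v) φ := by
  have : t • v = (t.re : ℂ) • v + (t.im : ℂ) • (I • v) := by
    rw [smul_smul, ← add_smul, re_add_im]
  rw [this, D_dir_add, D_dir_smul, D_dir_smul]

theorem dh_dir_smul (t : ℂ) (v : Cn 3) (φ : Gm x) : dh (t • v) φ = C t * dh v φ := by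
  have h : (C t : Gm x) = C t.re + C t.im * C I := by rw [← map_mul, ← map_add, re_add_im]
  rw [dh, dh, smul_smul, D_dir_csmul t, D_dir_csmul (I * t), h]
  simp only [mul_re, I_re, zero_mul, I_im, one_mul, zero_sub, mul_im, zero_add, ofReal_neg,
    map_neg]
  linear_combination (C (1 / 2) * C t.im * D (I • v) φ) * C_I

theorem da_dir_smul (t : ℂ) (v : Cn 3) (φ : Gm x) :
    da (t • v) φ = C (starRingEnd ℂ t) * da v φ := by
  have h : (C (starRingEnd ℂ t) : Gm x) = C t.re - C t.im * C I := by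
    rw [← map_mul, ← map_sub]
    congr 1
    apply Complex.ext <;> simp
  rw [da, da, smul_smul, D_dir_csmul t, D_dir_csmul (I * t), h]
  simp only [mul_re, I_re, zero_mul, I_im, one_mul, zero_sub, mul_im, zero_add, ofReal_neg,
    map_neg]
  linear_combination (C (1 / 2) * C t.im * D (I • v) φ) * C_I

theorem cj_dh (v : Cn 3) (φ : Gm x) : cj (dh v φ) = da v (cj φ) := by
  simp only [dh, da, map_mul, map_sub, cj_C, cj_D, conj_I, map_neg, map_div₀, map_one, map_ofNat]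
  ring

theorem cj_da (v : Cn 3) (φ : Gm x) : cj (da v φ) = dh v (cj φ) := by
  simp only [dh, da, map_mul, map_add, cj_C, cj_D, conj_I, map_neg, map_div₀, map_one, map_ofNat]
  ring

theorem smooth_coord (i : Fin 3) : ContDiffAt ℝ ∞ (fun y : Cn 3 => y i) x :=
  (contDiff_apply ℝ ℂ i).contDiffAt

/-- The coordinate functions. -/
def X (i : Fin 3) : Gm x := mk (fun y => y i) (smooth_coord i)

theorem D_X (v : Cn 3) (i : Fin 3) : D v (X i : Gm x) = C (v i) := by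
  rw [X, D_mk, C_eq]
  apply mk_eq
  refine Eventually.of_forall fun y => ?_
  have : fderiv ℝ (fun y : Cn 3 => y i) y = ContinuousLinearMap.proj (R := ℝ) i :=
    (ContinuousLinearMap.proj (R := ℝ) (φ := fun _ : Fin 3 => ℂ) i).fderiv
  simp [this]

theorem dh_X (v : Cn 3) (i : Fin 3) : dh v (X i : Gm x) = C (v i) := by
  rw [dh, D_X, D_X, Pi.smul_apply, smul_eq_mul, map_mul]
  linear_combination C (v i) * C_half - C (1 / 2) * C (v i) * C_I

theorem da_X (v : Cn 3) (i : Fin 3) : da v (X i : Gm x) = 0 := by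
  rw [da, D_X, D_X, Pi.smul_apply, smul_eq_mul, map_mul]
  linear_combination C (1 / 2) * C (v i) * C_I

theorem dh_cjX (v : Cn 3) (i : Fin 3) : dh v (cj (X i) : Gm x) = 0 := by
  rw [← cj_da, da_X, map_zero]

theorem da_cjX (v : Cn 3) (i : Fin 3) : da v (cj (X i) : Gm x) = C (starRingEnd ℂ (v i)) := by
  rw [← cj_dh, dh_X, cj_C]

theorem val_X (i : Fin 3) : val (X i : Gm x) = x i := rfl

end Gm

end Vale.Agent.P250
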