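import Vale.Agent.P250.Riem
import Vale.Agent.P250.AlgDefs

/-!
The jets of the potential of the metric on the disc bundle, computed in the ring of germs.
-/

open scoped ContDiff Topology
open Filter Complex

noncomputable section

namespace Vale.Agent.P250

open Gm

variable {x : Cn 3}

/-- The vertical unit vector. -/
def e2 : Cn 3 := Pi.single 2 1

/-- The vertical component of a vector with respect to the Chern connection. -/
def Dd (ψ : Gm x) (a : Cn 3) : Gm x := C (a 2) + X 2 * dh a ψ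

/-- The conjugate of the vertical component. -/
def Db (ψ : Gm x) (b : Cn 3) : Gm x := C (starRingEnd ℂ (b 2)) + cj (X 2) * da b ψ

/-- The hypotheses on the germs that enter the potential. -/
structure JetHyp (A : ℝ) (s ψ e p P0 P1 P2 φ : Gm x) : Prop where
  rs : cj s = s
  rψ : cj ψ = ψ
  rφ : cj φ = φ
  re : cj e = e
  rp : cj p = p
  r0 : cj P0 = P0
  r1 : cj P1 = P1
  hs : ∀ a c, dh c (dh a s) = dh a s * dh c s
  vs : dh e2 s = 0
  vψ : dh e2 ψ = 0
  he : ∀ a, dh a e = e * dh a ψ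
  hp : ∀ a, dh a p = P0 * (cj (X 2) * e * Dd ψ a)
  h0 : ∀ a, dh a P0 = P1 * (cj (X 2) * e * Dd ψ a)
  h1 : ∀ a, dh a P1 = P2 * (cj (X 2) * e * Dd ψ a)
  hφ : ∀ a b, dh a (da b φ) =
    C A * dh a (da b s) + p * dh a (da b ψ) + P0 * e * Dd ψ a * Db ψ b

/-- The covariant third derivative. -/
def T3f (s ψ : Gm x) (a c b : Cn 3) : ℂ :=
  S3 ψ a c b - val (dh c s) * hh ψ a b - val (dh a s) * hh ψ c b

/-- The covariant fourth derivative. -/
def T4f (s ψ : Gm x) (a c b d : Cn 3) : ℂ :=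
  S4 ψ a c b d - val (da d s) * S3 ψ a c b - val (da b s) * S3 ψ a c d -
    val (dh c s) * starRingEnd ℂ (S3 ψ b d a) - val (dh a s) * starRingEnd ℂ (S3 ψ b d c) +
    (val (dh c s) * val (da d s) * hh ψ a b + val (dh c s) * val (da b s) * hh ψ a d +
      val (dh a s) * val (da d s) * hh ψ c b + val (dh a s) * val (da b s) * hh ψ c d)

/-- The vertical correction of the connection. -/
def lamf (s ψ e P0 P1 : Gm x) (a c : Cn 3) : ℂ :=
  val P1 * val e / val P0 * starRingEnd ℂ (x 2) * val (Dd ψ a) * val (Dd ψ c) +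
    val (dh c ψ) * val (Dd ψ a) + c 2 * val (dh a ψ) + x 2 * val (dh c (dh a ψ)) -
    val (dh c s) * val (Dd ψ a) - val (dh a s) * val (Dd ψ c)

/-- The approximate connection. -/
def Qf (s ψ e P0 P1 : Gm x) (a c : Cn 3) : Cn 3 :=
  val (dh c s) • a + val (dh a s) • c + lamf s ψ e P0 P1 a c • e2

theorem S3_add (φ : Gm x) (a c b b' : Cn 3) : S3 φ a c (b + b') = S3 φ a c b + S3 φ a c b' := by
  simp [S3, da_dir_add, dh_add]

theorem S3_smul (φ : Gm x) (a c : Cn 3) (t : ℂ) (b : Cn 3) :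
    S3 φ a c (t • b) = starRingEnd ℂ t * S3 φ a c b := by
  simp only [S3, da_dir_smul, dh_mul, dh_C, zero_mul, zero_add, map_mul, val_C]

theorem S3_symm (φ : Gm x) (a c b : Cn 3) : S3 φ a c b = S3 φ c a b := by
  rw [S3, S3, dh_dh]

theorem S3_conj {φ : Gm x} (hφ : cj φ = φ) (a b d : Cn 3) :
    starRingEnd ℂ (S3 φ b d a) = val (da d (dh a (da b φ))) := by
  rw [S3, ← val_cj, cj_dh, cj_dh, cj_da, hφ, da_dh b a]

theorem cj_Dd {ψ : Gm x} (hψ : cj ψ = ψ) (a : Cn 3) : cj (Dd ψ a) = Db ψ a := by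
  rw [Dd, Db, map_add, map_mul, cj_C, cj_dh, hψ]

theorem val_Db {ψ : Gm x} (hψ : cj ψ = ψ) (a : Cn 3) :
    val (Db ψ a) = starRingEnd ℂ (val (Dd ψ a)) := by rw [← val_cj, cj_Dd hψ]

theorem Dd_add (ψ : Gm x) (a b : Cn 3) : Dd ψ (a + b) = Dd ψ a + Dd ψ b := by
  simp only [Dd, dh_dir_add, Pi.add_apply, map_add]
  ring

theorem Dd_smul (ψ : Gm x) (t : ℂ) (a : Cn 3) : Dd ψ (t • a) = C t * Dd ψ a := by
  simp only [Dd, dh_dir_smul, Pi.smul_apply, smul_eq_mul, map_mul]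
  ring

theorem dh_Dd (ψ : Gm x) (a c : Cn 3) :
    dh c (Dd ψ a) = C (c 2) * dh a ψ + X 2 * dh c (dh a ψ) := by
  simp only [Dd, dh_add, dh_mul, dh_C, dh_X, zero_add]

theorem da_Dd (ψ : Gm x) (a b : Cn 3) : da b (Dd ψ a) = X 2 * dh a (da b ψ) := by
  simp only [Dd, da_add, da_mul, da_C, da_X, zero_add, zero_mul, da_dh]

theorem dh_Db (ψ : Gm x) (b c : Cn 3) : dh c (Db ψ b) = cj (X 2) * dh c (da b ψ) := by
  simp only [Db, dh_add, dh_mul, dh_C, dh_cjX, zero_add, zero_mul]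

theorem da_Db (ψ : Gm x) (b d : Cn 3) :
    da d (Db ψ b) = C (starRingEnd ℂ (d 2)) * da b ψ + cj (X 2) * da d (da b ψ) := by
  simp only [Db, da_add, da_mul, da_C, da_cjX, zero_add]

namespace JetHyp

variable {A : ℝ} {s ψ e p P0 P1 P2 φ : Gm x} (H : JetHyp A s ψ e p P0 P1 P2 φ)
include H

theorem hs' (b d : Cn 3) : da d (da b s) = da b s * da d s := by
  have := congrArg cj (H.hs b d)
  rwa [cj_dh, cj_dh, map_mul, cj_dh, cj_dh, H.rs] at this

theorem he' (a : Cn 3) : da a e = e * da a ψ := by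
  have := congrArg cj (H.he a)
  rwa [cj_dh, map_mul, cj_dh, H.re, H.rψ] at this

theorem hp' (a : Cn 3) : da a p = P0 * (X 2 * e * Db ψ a) := by
  have := congrArg cj (H.hp a)
  rwa [cj_dh, map_mul, map_mul, map_mul, cj_cj, cj_Dd H.rψ, H.re, H.rp, H.r0] at this

theorem h0' (a : Cn 3) : da a P0 = P1 * (X 2 * e * Db ψ a) := by
  have := congrArg cj (H.h0 a)
  rwa [cj_dh, map_mul, map_mul, map_mul, cj_cj, cj_Dd H.rψ, H.re, H.r1, H.r0] at this

theorem h1' (hr : cj P2 = P2) (a : Cn 3) : da a P1 = P2 * (X 2 * e * Db ψ a) := by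
  have := congrArg cj (H.h1 a)
  rwa [cj_dh, map_mul, map_mul, map_mul, cj_cj, cj_Dd H.rψ, H.re, H.r1, hr] at this

theorem s3 (a c b : Cn 3) :
    dh c (dh a (da b s)) = dh c s * dh a (da b s) + dh a s * dh c (da b s) := by
  rw [← da_dh, ← da_dh, H.hs, da_mul, da_dh, da_dh]
  ring

theorem s3' (a b d : Cn 3) :
    dh a (da d (da b s)) = da d s * dh a (da b s) + da b s * dh a (da d s) := by
  rw [H.hs', dh_mul]
  ring

theorem Dd_e2 : Dd ψ e2 = 1 := by
  rw [Dd, H.vψ]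
  simp [e2]

theorem vs' : da e2 s = 0 := by
  have := congrArg cj H.vs
  rwa [cj_dh, H.rs, map_zero] at this

theorem vψ' : da e2 ψ = 0 := by
  have := congrArg cj H.vψ
  rwa [cj_dh, H.rψ, map_zero] at this

theorem Db_e2 : Db ψ e2 = 1 := by
  rw [Db, H.vψ']
  simp [e2]

theorem hh_s_e2 (b : Cn 3) : dh e2 (da b s) = 0 := by rw [← da_dh, H.vs, da_zero]

theorem hh_ψ_e2 (b : Cn 3) : dh e2 (da b ψ) = 0 := by rw [← da_dh, H.vψ, da_zero]

theorem hh_eq (a b : Cn 3) : hh φ a b = A * hh s a b + val p * hh ψ a b +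
    val P0 * val e * val (Dd ψ a) * val (Db ψ b) := by
  simp only [hh, H.hφ, map_add, map_mul, val_C]

theorem S3_eq (a c b : Cn 3) : S3 φ a c b =
    A * (val (dh c s) * hh s a b + val (dh a s) * hh s c b) + val p * S3 ψ a c b +
    val P0 * val e * starRingEnd ℂ (x 2) * (val (Dd ψ c) * hh ψ a b + val (Dd ψ a) * hh ψ c b) +
    (val P1 * val e * val e * starRingEnd ℂ (x 2) * val (Dd ψ a) * val (Dd ψ c) +
      val P0 * val e * (val (dh c ψ) * val (Dd ψ a) + c 2 * val (dh a ψ) +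
        x 2 * val (dh c (dh a ψ)))) * val (Db ψ b) := by
  simp only [S3, hh, H.hφ, dh_add, dh_mul, dh_C, H.s3, H.hp, H.h0, H.he, dh_Dd, dh_Db, map_add,
    map_mul, val_C, val_X, val_cj, map_zero]
  ring

theorem shift (h0 : val P0 ≠ 0) (a c b : Cn 3) : S3 φ a c b - hh φ (Qf s ψ e P0 P1 a c) b =
    val p * T3f s ψ a c b + val P0 * val e * starRingEnd ℂ (x 2) *
      (val (Dd ψ a) * hh ψ c b + val (Dd ψ c) * hh ψ a b) := by
  have h1 : hh φ e2 b = val P0 * val e * val (Db ψ b) := by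
    rw [H.hh_eq, H.Dd_e2]
    simp [hh, H.hh_s_e2, H.hh_ψ_e2]
  rw [Qf, hh_add, hh_add, hh_smul, hh_smul, hh_smul, h1, H.hh_eq, H.hh_eq, H.S3_eq, T3f, lamf]
  field_simp
  ring

theorem curv_id (hr : cj P2 = P2) (h0 : val P0 ≠ 0) (a c b d : Cn 3) :
    S4 φ a c b d - starRingEnd ℂ (S3 φ b d (Qf s ψ e P0 P1 a c)) -
      (val p * T3f s ψ a c (Qf s ψ e P0 P1 b d) + val P0 * val e * starRingEnd ℂ (x 2) *
        (val (Dd ψ a) * hh ψ c (Qf s ψ e P0 P1 b d) + val (Dd ψ c) * hh ψ a (Qf s ψ e P0 P1 b d))) =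
    A * (hh s a b * hh s c d + hh s a d * hh s c b) +
    x 2 * starRingEnd ℂ (x 2) * val e * val P0 * (hh ψ a b * hh ψ c d + hh ψ a d * hh ψ c b) +
    (val P0 + x 2 * starRingEnd ℂ (x 2) * val e * val P1) * val e *
      (hh ψ a b * val (Dd ψ c) * val (Db ψ d) + hh ψ a d * val (Dd ψ c) * val (Db ψ b) +
        hh ψ c b * val (Dd ψ a) * val (Db ψ d) + hh ψ c d * val (Dd ψ a) * val (Db ψ b)) +
    (val P1 * val P0 + x 2 * starRingEnd ℂ (x 2) * val e * (val P2 * val P0 - val P1 ^ 2)) /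
      val P0 * val e ^ 2 * (val (Dd ψ a) * val (Dd ψ c) * val (Db ψ b) * val (Db ψ d)) +
    val p * T4f s ψ a c b d +
    val P0 * val e * x 2 * (val (Db ψ b) * T3f s ψ a c d + val (Db ψ d) * T3f s ψ a c b) +
    val P0 * val e * starRingEnd ℂ (x 2) * (val (Dd ψ a) * starRingEnd ℂ (T3f s ψ b d c) +
      val (Dd ψ c) * starRingEnd ℂ (T3f s ψ b d a)) := by
  have z1 : ∀ u, hh ψ u e2 = 0 := fun u => by simp [hh, H.vψ', dh_zero]
  have z2 : ∀ u v, S3 ψ u v e2 = 0 := fun u v => by simp [S3, H.vψ', dh_zero]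
  have c1 : ∀ u, starRingEnd ℂ (val (dh u s)) = val (da u s) := fun u => by
    rw [← val_cj, cj_dh, H.rs]
  have c2 : ∀ u v, starRingEnd ℂ (hh ψ u v) = hh ψ v u := fun u v => (hh_conj H.rψ u v).symm
  have k1 : ∀ u, T3f s ψ a c (Qf s ψ e P0 P1 b d) = u → u =
      val (da d s) * T3f s ψ a c b + val (da b s) * T3f s ψ a c d := by
    rintro _ rfl
    simp only [T3f, Qf, S3_add, S3_smul, hh_add', hh_smul', z1, z2, c1]
    ring
  have k2 : ∀ u, hh ψ u (Qf s ψ e P0 P1 b d) =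
      val (da d s) * hh ψ u b + val (da b s) * hh ψ u d := by
    intro u
    simp only [Qf, hh_add', hh_smul', z1, c1]
    ring
  have k3 : starRingEnd ℂ (S3 φ b d (Qf s ψ e P0 P1 a c)) =
      val (dh c s) * val (da d (dh a (da b φ))) + val (dh a s) * val (da d (dh c (da b φ))) +
        lamf s ψ e P0 P1 a c * val (da d (dh e2 (da b φ))) := by
    simp only [Qf, S3_add, S3_smul, map_add, map_mul, conj_conj, S3_conj H.rφ]
  rw [k1 _ rfl, k2, k2, k3]
  simp only [T4f, T3f, map_sub, map_mul, c1, c2, S3_conj H.rψ]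
  simp only [S4, S3, hh, lamf, H.hφ, H.Dd_e2, H.hh_s_e2, H.hh_ψ_e2, dh_add, dh_mul, dh_C, H.s3,
    H.hp, H.h0, H.he, dh_Dd, dh_Db, da_add, da_mul, da_C, H.hp', H.h0', H.h1' hr, H.he', da_Dd,
    da_Db, da_X, da_cjX, da_dh, H.hs', da_one, da_zero, map_add, map_mul, val_C, val_X,
    val_cj, map_zero, map_one]
  have e1 : val (Db ψ d) = starRingEnd ℂ (d 2) + starRingEnd ℂ (x 2) * val (da d ψ) := by
    simp [Db, val_cj, val_X]
  have e2' : starRingEnd ℂ (d 2) = val (Db ψ d) - starRingEnd ℂ (x 2) * val (da d ψ) := by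
    rw [e1]
    ring
  have e3 : c 2 = val (Dd ψ c) - x 2 * val (dh c ψ) := by
    simp [Dd, val_X]
  rw [e2', e3]
  field_simp
  ring

end JetHyp

end Vale.Agent.P250
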