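import Vale.Agent.P250.Jets

/-!
Sectional curvature of a Kähler metric given by a potential.
-/

open scoped ContDiff Topology
open Filter Complex

noncomputable section

namespace Vale.Agent.P250

open Gm

variable {x : Cn 3}

theorem S4_swap (φ : Gm x) (a c b d : Cn 3) : S4 φ a c b d = S4 φ a c d b := by
  simp only [S4, da_dh, da_da d b]

theorem S4_conj {φ : Gm x} (hφ : cj φ = φ) (a c b d : Cn 3) :
    starRingEnd ℂ (S4 φ a c b d) = S4 φ b d a c := by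
  rw [S4, S4, ← val_cj, cj_da, cj_dh, cj_dh, cj_da, hφ]
  simp only [da_dh, da_da c a]

theorem S4_add2 (φ : Gm x) (a c c' b d : Cn 3) (t : ℝ) :
    S4 φ a (c + (t : ℂ) • c') b d = S4 φ a c b d + t * S4 φ a c' b d := by
  simp only [S4, dh_dir_add, dh_dir_smul, da_add, da_mul, da_C, map_add, map_mul, val_C, zero_mul,
    zero_add]

theorem S4_add4 (φ : Gm x) (a c b d d' : Cn 3) (t : ℝ) :
    S4 φ a c b (d + (t : ℂ) • d') = S4 φ a c b d + t * S4 φ a c b d' := by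
  simp only [S4, da_dir_add, da_dir_smul, map_add, map_mul, val_C, conj_ofReal]

theorem S3_add2 (φ : Gm x) (a c c' b : Cn 3) (t : ℝ) :
    S3 φ a (c + (t : ℂ) • c') b = S3 φ a c b + t * S3 φ a c' b := by
  simp only [S3, dh_dir_add, dh_dir_smul, map_add, map_mul, val_C]

/-- The curvature form. -/
def KK (φ : Gm x) (Γ : Cn 3 → Cn 3 → Cn 3) (a c b d : Cn 3) : ℂ :=
  S4 φ a c b d - hh φ (Γ a c) (Γ b d)

/-- The Gram determinant. -/
def WW (φ : Gm x) (u v : Cn 3) : ℝ := (hh φ u u).re * (hh φ v v).re - (hh φ u v).re ^ 2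

section

variable {φ : Gm x} {Γ : Cn 3 → Cn 3 → Cn 3} (hφ : cj φ = φ)
  (hpos : ∀ u, u ≠ 0 → 0 < (hh φ u u).re) (hΓ : ∀ a c w, hh φ (Γ a c) w = S3 φ a c w)
include hpos

theorem hh_inj {a b : Cn 3} (h : ∀ w, hh φ a w = hh φ b w) : a = b := by
  by_contra hne
  have h1 := hpos _ (sub_ne_zero.2 hne)
  have h2 : a - b = a + (-1 : ℂ) • b := by simp [sub_eq_add_neg]
  have h3 : hh φ (a - b) (a - b) = 0 := by
    nth_rewrite 1 [h2]
    rw [hh_add, hh_smul, h]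
    ring
  simp [h3] at h1

include hΓ

theorem gam_symm (a c : Cn 3) : Γ a c = Γ c a :=
  hh_inj hpos fun w => by rw [hΓ, hΓ, S3_symm]

theorem gam_add (a c c' : Cn 3) (t : ℝ) : Γ a (c + (t : ℂ) • c') = Γ a c + (t : ℂ) • Γ a c' :=
  hh_inj hpos fun w => by rw [hΓ, hh_add, hh_smul, hΓ, hΓ, S3_add2]

include hφ

theorem KK_shift (u v : Cn 3) (t : ℝ) :
    (KK φ Γ u (v + (t : ℂ) • u) u (v + (t : ℂ) • u)).re -
      (KK φ Γ u u (v + (t : ℂ) • u) (v + (t : ℂ) • u)).re =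
    (KK φ Γ u v u v).re - (KK φ Γ u u v v).re := by
  have g1 := gam_add hpos hΓ u v u t
  have g2 : Γ (v + (t : ℂ) • u) (v + (t : ℂ) • u) =
      Γ v v + (t : ℂ) • Γ u v + (t : ℂ) • (Γ u v + (t : ℂ) • Γ u u) := by
    rw [gam_add hpos hΓ, gam_symm hpos hΓ _ v, gam_symm hpos hΓ _ u, gam_add hpos hΓ, g1,
      gam_symm hpos hΓ v u]
  have s1 : S4 φ u u (v + (t : ℂ) • u) (v + (t : ℂ) • u) =
      S4 φ u u v v + t * S4 φ u u u v + t * (S4 φ u u u v + t * S4 φ u u u u) := by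
    rw [S4_add4, S4_swap _ _ _ _ v, S4_swap _ _ _ _ u, S4_add4, S4_add4, S4_swap _ _ _ v u]
  have s2 : (S4 φ u v u u).re = (S4 φ u u u v).re := by rw [← S4_conj hφ, conj_re]
  have s3 : (hh φ (Γ u v) (Γ u u)).re = (hh φ (Γ u u) (Γ u v)).re := by
    rw [hh_conj hφ, conj_re]
  simp only [KK, g1, g2, s1, S4_add2, S4_add4, hh_add, hh_add', hh_smul, hh_smul', conj_ofReal,
    sub_re, add_re, re_ofReal_mul, s2, s3]
  ring

end

theorem WW_shift {φ : Gm x} (hφ : cj φ = φ) (u v : Cn 3) (t : ℝ) :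
    WW φ u (v + (t : ℂ) • u) = WW φ u v := by
  have s3 : (hh φ v u).re = (hh φ u v).re := by rw [hh_conj hφ, conj_re]
  simp only [WW, hh_add, hh_add', hh_smul, hh_smul', conj_ofReal, add_re, re_ofReal_mul, s3]
  ring

theorem WW_pos {φ : Gm x} (hφ : cj φ = φ) (hpos : ∀ u, u ≠ 0 → 0 < (hh φ u u).re) {u v : Cn 3}
    (h : LinearIndependent ℝ ![u, v]) : 0 < WW φ u v := by
  rw [LinearIndependent.pair_iff] at h
  have hu : u ≠ 0 := fun hu => by simpa using (h 1 0 (by simp [hu])).1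
  have h1 := hpos u hu
  set t : ℝ := - (hh φ u v).re / (hh φ u u).re with ht
  have hv : v + (t : ℂ) • u ≠ 0 := by
    intro hv
    have := (h t 1 (by rw [one_smul, add_comm, ← hv]; rfl)).2
    simp at this
  have h2 := hpos _ hv
  have h3 : (hh φ u (v + (t : ℂ) • u)).re = 0 := by
    simp only [hh_add', hh_smul', conj_ofReal, add_re, re_ofReal_mul, ht]
    field_simp
    ring
  rw [← WW_shift hφ u v t, WW, h3]
  simpa using mul_pos h1 h2

theorem sectional_eq {Φ : Cn 3 → ℝ} {U : Set (Cn 3)} (hU : IsOpen U) (hx : x ∈ U)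
    (hΦ : ContDiffOn ℝ ∞ Φ U) (hpos : ∀ x ∈ U, ∀ u, u ≠ 0 → 0 < kmet Φ x u u) (u v : Cn 3) :
    sectional (kmet Φ) x u v = - (1 / 4) *
      (((KK (rmk Φ (hΦ.contDiffAt (hU.mem_nhds hx))) (christoffel (kmet Φ) x) u v u v).re -
        (KK (rmk Φ (hΦ.contDiffAt (hU.mem_nhds hx))) (christoffel (kmet Φ) x) u u v v).re) /
        WW (rmk Φ (hΦ.contDiffAt (hU.mem_nhds hx))) u v) := by
  have hΦx := hΦ.contDiffAt (hU.mem_nhds hx)
  rw [sectional, rm_kahler hU hx hΦ hpos, kmet_eq hΦx, kmet_eq hΦx, kmet_eq hΦx, KK, KK, WW]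
  have : ∀ a b c d : ℝ, -4 * a / (4 * b * (4 * c) - (4 * d) ^ 2) =
      - (1 / 4) * (a / (b * c - d ^ 2)) := by
    intro a b c d
    rw [show 4 * b * (4 * c) - (4 * d) ^ 2 = 16 * (b * c - d ^ 2) by ring]
    by_cases h : b * c - d ^ 2 = 0
    · simp [h]
    · field_simp
      ring
  exact this _ _ _ _

theorem kmet_isKahler {Φ : Cn 3 → ℝ} {U : Set (Cn 3)} (hU : IsOpen U)
    (hΦ : ContDiffOn ℝ ∞ Φ U) (hpos : ∀ x ∈ U, ∀ u, u ≠ 0 → 0 < kmet Φ x u u) :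
    IsKahler U (kmet Φ) where
  smooth y hy := (kmet_smooth (hΦ.contDiffAt (hU.mem_nhds hy))).contDiffWithinAt
  symm y hy a b := by
    rw [kmet_eq (hΦ.contDiffAt (hU.mem_nhds hy)), kmet_eq (hΦ.contDiffAt (hU.mem_nhds hy)),
      hh_conj (cj_rmk _ _) a b, conj_re]
  pos := hpos
  herm y hy a b := by
    rw [kmet_eq (hΦ.contDiffAt (hU.mem_nhds hy)), kmet_eq (hΦ.contDiffAt (hU.mem_nhds hy)),
      hh_smul, hh_smul', ← mul_assoc, mul_conj]
    simp
  closed y hy := kmet_closed (hΦ.contDiffAt (hU.mem_nhds hy))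

end Vale.Agent.P250
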