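import Vale.Agent.P250.Sieg

/-!
One level of wells: the lattice, the local form of the level function and its jets.
-/

open scoped ContDiff Topology
open Filter Complex

noncomputable section

namespace Vale.Agent.P250

open Gm

/-- The nearest point of the square lattice of mesh `6 σ`. -/
def lat (σ : ℝ) (z : ℂ) : ℂ :=
  ⟨6 * σ * round (z.re / (6 * σ)), 6 * σ * round (z.im / (6 * σ))⟩

theorem round_near {σ : ℝ} (hσ : 0 < σ) (r : ℝ) : |r - 6 * σ * round (r / (6 * σ))| ≤ 3 * σ := by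
  have h := abs_sub_round (r / (6 * σ))
  have e : r - 6 * σ * round (r / (6 * σ)) = 6 * σ * (r / (6 * σ) - round (r / (6 * σ))) := by
    field_simp
  rw [e, abs_mul, abs_of_pos (by positivity : 0 < 6 * σ)]
  nlinarith

theorem round_far {σ : ℝ} (hσ : 0 < σ) (r : ℝ) (m : ℤ) (h : m ≠ round (r / (6 * σ))) :
    3 * σ ≤ |r - 6 * σ * m| := by
  have h1 := round_near hσ r
  have h2 : (1 : ℝ) ≤ |(round (r / (6 * σ)) : ℝ) - m| := by
    have : (1 : ℤ) ≤ |round (r / (6 * σ)) - m| := Int.one_le_abs (sub_ne_zero.2 h.symm)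
    exact_mod_cast this
  have h3 : |6 * σ * (round (r / (6 * σ)) : ℝ) - 6 * σ * m| ≤
      |r - 6 * σ * round (r / (6 * σ))| + |r - 6 * σ * m| := by
    rw [abs_sub_comm r (6 * σ * round (r / (6 * σ)))]
    exact abs_sub_le _ _ _
  rw [← mul_sub, abs_mul, abs_of_pos (by positivity : 0 < 6 * σ)] at h3
  nlinarith

theorem lat_near {σ : ℝ} (hσ : 0 < σ) (z : ℂ) : ‖z - lat σ z‖ ≤ 5 * σ := by
  have h1 := round_near hσ z.re
  have h2 := round_near hσ z.im
  apply le_of_sq_le_sq _ (by positivity) |>.trans le_rfl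
  rw [Complex.sq_norm, normSq_apply]
  simp only [lat, sub_re, sub_im]
  rw [abs_le] at h1 h2
  nlinarith

theorem lat_far {σ : ℝ} (hσ : 0 < σ) {z z' : ℂ} (h : lat σ z' ≠ lat σ z) :
    3 * σ ≤ ‖z - lat σ z'‖ := by
  by_cases h1 : round (z'.re / (6 * σ)) = round (z.re / (6 * σ))
  · have h2 : round (z'.im / (6 * σ)) ≠ round (z.im / (6 * σ)) := by
      intro h2
      exact h (by simp only [lat, h1, h2])
    exact (round_far hσ _ _ h2).trans (abs_im_le_norm (z - lat σ z'))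
  · exact (round_far hσ _ _ h1).trans (abs_re_le_norm (z - lat σ z'))

/-- The normalized coordinate of the well at the lattice point `a`. -/
def wn (σ : ℝ) (a z w : ℂ) : ℂ := wa a z w / (σ ^ 2 : ℝ)

theorem wn_im (σ : ℝ) (a z w : ℂ) : (wn σ a z w).im = (rho z w + ‖z - a‖ ^ 2) / σ ^ 2 := by
  rw [wn, div_ofReal_im, wa_im]

theorem wn_far {σ : ℝ} (hσ : 0 < σ) {a z w : ℂ} (h : 6 * σ ^ 2 ≤ rho z w + ‖z - a‖ ^ 2) :
    6 ≤ (wn σ a z w).im := by
  rw [wn_im, le_div_iff₀ (by positivity)]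
  exact h

/-- The function of one level. -/
def lev (u : ℂ → ℝ) (σ : ℝ) (z w : ℂ) : ℝ := u (wn σ (lat σ z) z w)

theorem lev_local {u : ℂ → ℝ} (hu : ∀ W : ℂ, 6 ≤ W.im → u W = 0) {σ : ℝ} (hσ : 0 < σ)
    {x : Cn 3} (hx : 0 < rho3 x) :
    (fun y : Cn 3 => lev u σ (y 0) (y 1)) =ᶠ[𝓝 x] fun y => u (wn σ (lat σ (x 0)) (y 0) (y 1)) := by
  have h1 : ∀ᶠ y in 𝓝 x, 0 < rho3 y :=
    rho3_smooth.continuous.continuousAt.eventually (lt_mem_nhds hx)
  have h2 : ∀ᶠ y : Cn 3 in 𝓝 x, ‖y 0 - x 0‖ < σ / 2 := by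
    have : ContinuousAt (fun y : Cn 3 => ‖y 0 - x 0‖) x :=
      ((continuous_apply 0).sub continuous_const).norm.continuousAt
    exact this.eventually (gt_mem_nhds (by simpa using hσ))
  filter_upwards [h1, h2] with y hy1 hy2
  by_cases h : lat σ (y 0) = lat σ (x 0)
  · rw [lev, h]
  · have a1 := lat_far hσ h
    have a2 := lat_far hσ (Ne.symm h)
    have a3 : 5 / 2 * σ ≤ ‖y 0 - lat σ (y 0)‖ := by
      have := norm_sub_le_norm_sub_add_norm_sub (x 0) (y 0) (lat σ (y 0))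
      rw [norm_sub_rev (x 0) (y 0)] at this
      linarith
    have hy3 : 0 < rho (y 0) (y 1) := hy1
    rw [lev, hu _ (wn_far hσ (by nlinarith)), hu _ (wn_far hσ (by nlinarith))]

/-- The holomorphic Wirtinger derivative on `ℂ`. -/
def pW (G : ℂ → ℂ) (W : ℂ) : ℂ := 1 / 2 * (fderiv ℝ G W 1 - I * fderiv ℝ G W I)

/-- The antiholomorphic Wirtinger derivative on `ℂ`. -/
def qW (G : ℂ → ℂ) (W : ℂ) : ℂ := 1 / 2 * (fderiv ℝ G W 1 + I * fderiv ℝ G W I)

theorem fderiv_eq_pq (G : ℂ → ℂ) (W c : ℂ) :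
    fderiv ℝ G W c = c * pW G W + starRingEnd ℂ c * qW G W := by
  have h : c = c.re • (1 : ℂ) + c.im • I := by simp
  have h2 : starRingEnd ℂ c = c.re - c.im * I := by
    apply Complex.ext <;> simp
  have h3 : fderiv ℝ G W c = c.re * fderiv ℝ G W 1 + c.im * fderiv ℝ G W I := by
    conv_lhs => rw [h, map_add, map_smul, map_smul]
    simp
  rw [h3, h2, pW, qW]
  linear_combination (1 / 2 * (fderiv ℝ G W 1 - I * fderiv ℝ G W I)) * (re_add_im c) +
    (c.im * fderiv ℝ G W I) * I_mul_I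

/-- Smooth periodic functions that vanish high in the upper half plane. -/
structure Per (G : ℂ → ℂ) : Prop where
  smooth : ContDiff ℝ ∞ G
  per : ∀ W, G (W + 2 * Real.pi) = G W
  zero : ∀ W : ℂ, 6 < W.im → G W = 0

theorem Per.dir {G : ℂ → ℂ} (h : Per G) (c : ℂ) : Per (fun W => fderiv ℝ G W c) where
  smooth := (h.smooth.fderiv_right (m := ∞) (by simp)).clm_apply contDiff_const
  per W := by
    have : (fun W => G (W + 2 * Real.pi)) = G := funext h.per
    rw [← fderiv_comp_add_right, this]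
  zero W hW := by
    have : G =ᶠ[𝓝 W] fun _ => 0 := by
      filter_upwards [continuous_im.continuousAt.eventually (lt_mem_nhds hW)] with X hX
      exact h.zero X hX
    rw [this.fderiv_eq]
    simp

theorem Per.p {G : ℂ → ℂ} (h : Per G) : Per (pW G) where
  smooth := contDiff_const.mul ((h.dir 1).smooth.sub (contDiff_const.mul (h.dir I).smooth))
  per W := by simp only [pW, (h.dir 1).per W, (h.dir I).per W]
  zero W hW := by simp only [pW, (h.dir 1).zero W hW, (h.dir I).zero W hW]; ring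

theorem Per.q {G : ℂ → ℂ} (h : Per G) : Per (qW G) where
  smooth := contDiff_const.mul ((h.dir 1).smooth.add (contDiff_const.mul (h.dir I).smooth))
  per W := by simp only [qW, (h.dir 1).per W, (h.dir I).per W]
  zero W hW := by simp only [qW, (h.dir 1).zero W hW, (h.dir I).zero W hW]; ring

theorem Per.bdd {G : ℂ → ℂ} (h : Per G) : ∃ M, 0 ≤ M ∧ ∀ W : ℂ, 0 ≤ W.im → ‖G W‖ ≤ M := by
  obtain ⟨M, hM⟩ := (isCompact_closedBall (0 : ℂ) 20).exists_bound_of_continuousOn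
    h.smooth.continuous.continuousOn
  refine ⟨max M 0, le_max_right _ _, fun W hW => ?_⟩
  by_cases h6 : 6 < W.im
  · simp [h.zero W h6]
  have hp : Function.Periodic G (2 * Real.pi) := h.per
  have h2 : (0 : ℝ) < 2 * Real.pi := by positivity
  have e := hp.sub_zsmul_eq (x := W) ⌊W.re / (2 * Real.pi)⌋
  rw [← e]
  refine (hM _ ?_).trans (le_max_left _ _)
  rw [mem_closedBall_zero_iff]
  refine (norm_le_abs_re_add_abs_im _).trans ?_
  have a1 := Int.floor_le (W.re / (2 * Real.pi))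
  have a2 := Int.lt_floor_add_one (W.re / (2 * Real.pi))
  rw [le_div_iff₀ h2] at a1
  rw [div_lt_iff₀ h2] at a2
  have a3 := Real.pi_lt_four
  simp only [zsmul_eq_mul, sub_re, mul_re, intCast_re, re_ofNat, ofReal_re, im_ofNat, ofReal_im,
    mul_zero, sub_zero, intCast_im, mul_im, zero_mul, add_zero, sub_im]
  rw [abs_of_nonneg (by linarith), abs_of_nonneg hW]
  linarith

/-- The differential of the normalized coordinate. -/
def al (σ : ℝ) (a : ℂ) (v : Cn 3) : ℂ := (v 1 - 2 * I * starRingEnd ℂ a * v 0) / (σ ^ 2 : ℝ)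

theorem wn_hasFDerivAt (σ : ℝ) (a : ℂ) (y : Cn 3) : ∃ L : Cn 3 →L[ℝ] ℂ,
    HasFDerivAt (fun y : Cn 3 => wn σ a (y 0) (y 1)) L y ∧ ∀ v, L v = al σ a v := by
  have h0 := (ContinuousLinearMap.proj (R := ℝ) (φ := fun _ : Fin 3 => ℂ) 0).hasFDerivAt (x := y)
  have h1 := (ContinuousLinearMap.proj (R := ℝ) (φ := fun _ : Fin 3 => ℂ) 1).hasFDerivAt (x := y)
  refine ⟨_, ((h1.sub (h0.const_mul (2 * I * starRingEnd ℂ a))).add_const
    (I * (‖a‖ ^ 2 : ℝ))).mul_const ((σ ^ 2 : ℝ) : ℂ)⁻¹, fun v => ?_⟩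
  simp [al]
  ring

theorem wn_smooth (σ : ℝ) (a : ℂ) : ContDiff ℝ ∞ (fun y : Cn 3 => wn σ a (y 0) (y 1)) :=
  (((contDiff_apply ℝ ℂ (1 : Fin 3)).sub (contDiff_const.mul
    (contDiff_apply ℝ ℂ (0 : Fin 3)))).add contDiff_const).div_const _

/-- The germ of a function of the normalized coordinate. -/
def cG (x : Cn 3) (σ : ℝ) (a : ℂ) (G : ℂ → ℂ) (hG : Per G) : Gm x :=
  mk (fun y => G (wn σ a (y 0) (y 1))) (hG.smooth.comp (wn_smooth σ a)).contDiffAt

variable {x : Cn 3} {σ : ℝ} {a : ℂ} {G : ℂ → ℂ}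

theorem D_cG (hG : Per G) (v : Cn 3) : D v (cG x σ a G hG) =
    C (al σ a v) * cG x σ a _ hG.p + C (starRingEnd ℂ (al σ a v)) * cG x σ a _ hG.q := by
  rw [cG, D_mk, cG, cG, C_eq, C_eq, mk_mul, mk_mul, mk_add]
  apply mk_eq
  refine Eventually.of_forall fun y => ?_
  obtain ⟨L, hL, e⟩ := wn_hasFDerivAt σ a y
  have := ((hG.smooth.differentiable (by simp) _).hasFDerivAt.comp y hL).fderiv
  have h2 : (fun y : Cn 3 => G (wn σ a (y 0) (y 1))) = G ∘ fun y => wn σ a (y 0) (y 1) := rfl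
  simp only [h2, this, ContinuousLinearMap.comp_apply, e, fderiv_eq_pq]

theorem al_I (v : Cn 3) : al σ a (I • v) = I * al σ a v := by
  simp only [al, Pi.smul_apply, smul_eq_mul]
  ring

theorem dh_cG (hG : Per G) (v : Cn 3) :
    dh v (cG x σ a G hG) = C (al σ a v) * cG x σ a _ hG.p := by
  rw [dh, D_cG, D_cG, al_I]
  simp only [map_mul, conj_I, map_neg]
  linear_combination (C (al σ a v) * cG x σ a _ hG.p) * C_half + C (1 / 2) *
    (C (starRingEnd ℂ (al σ a v)) * cG x σ a _ hG.q - C (al σ a v) * cG x σ a _ hG.p) * C_I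

theorem da_cG (hG : Per G) (v : Cn 3) :
    da v (cG x σ a G hG) = C (starRingEnd ℂ (al σ a v)) * cG x σ a _ hG.q := by
  rw [da, D_cG, D_cG, al_I]
  simp only [map_mul, conj_I, map_neg]
  linear_combination (C (starRingEnd ℂ (al σ a v)) * cG x σ a _ hG.q) * C_half + C (1 / 2) *
    (C (al σ a v) * cG x σ a _ hG.p - C (starRingEnd ℂ (al σ a v)) * cG x σ a _ hG.q) * C_I

theorem val_cG (hG : Per G) : val (cG x σ a G hG) = G (wn σ a (x 0) (x 1)) := rfl

theorem hh_cG (hG : Per G) (u v : Cn 3) : hh (cG x σ a G hG) u v =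
    al σ a u * starRingEnd ℂ (al σ a v) * pW (qW G) (wn σ a (x 0) (x 1)) := by
  simp only [hh, da_cG, dh_mul, dh_C, dh_cG, zero_mul, zero_add, map_mul, val_C, val_cG]
  ring

theorem S3_cG (hG : Per G) (u c v : Cn 3) : S3 (cG x σ a G hG) u c v =
    al σ a u * al σ a c * starRingEnd ℂ (al σ a v) * pW (pW (qW G)) (wn σ a (x 0) (x 1)) := by
  simp only [S3, da_cG, dh_mul, dh_C, dh_cG, zero_mul, zero_add, map_mul, val_C, val_cG]
  ring

theorem S4_cG (hG : Per G) (u c v d : Cn 3) : S4 (cG x σ a G hG) u c v d =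
    al σ a u * al σ a c * starRingEnd ℂ (al σ a v) * starRingEnd ℂ (al σ a d) *
      qW (pW (pW (qW G))) (wn σ a (x 0) (x 1)) := by
  simp only [S4, da_cG, dh_mul, dh_C, dh_cG, da_mul, da_C, zero_mul, zero_add, map_mul, val_C,
    val_cG]
  ring

theorem al_le (hσ : 0 < σ) (hx : 0 < rho3 x) (h6 : (wn σ a (x 0) (x 1)).im ≤ 6) (v : Cn 3) :
    rho3 x ≤ 6 * σ ^ 2 ∧ ‖al σ a v‖ ≤ 10 * (√(rho3 x) / σ) * √(hh (sG hx) v v).re := by
  rw [wn_im, div_le_iff₀ (by positivity)] at h6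
  change rho3 x + _ ≤ _ at h6
  have h1 : rho3 x ≤ 6 * σ ^ 2 := by nlinarith [sq_nonneg ‖x 0 - a‖]
  refine ⟨h1, ?_⟩
  have e : al σ a v = 2 * I * (starRingEnd ℂ (x 0 - a) * v 0 - rho3 x * val (dh v (sG hx))) /
      (σ ^ 2 : ℝ) := by
    rw [al, a1_eq hx v, map_sub]
    ring
  have h2 : ‖x 0 - a‖ ≤ 5 / 2 * σ := by
    apply le_of_sq_le_sq _ (by positivity) |>.trans le_rfl
    nlinarith
  have h3 : √(rho3 x) ≤ 5 / 2 * σ := by
    apply Real.sqrt_le_iff.2
    constructor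
    · positivity
    · nlinarith
  have h4 := a0_le hx v
  have h5 := s_le hx v
  have h7 := Real.mul_self_sqrt hx.le
  have h8 : ‖starRingEnd ℂ (x 0 - a) * v 0 - rho3 x * val (dh v (sG hx))‖ ≤
      5 * σ * (√(rho3 x) * √(hh (sG hx) v v).re) := by
    refine (norm_sub_le _ _).trans ?_
    rw [norm_mul, norm_mul, norm_conj, norm_real, Real.norm_of_nonneg hx.le]
    have b1 := mul_le_mul h2 h4 (norm_nonneg _) (by positivity)
    have b2 := mul_le_mul h3 (mul_le_mul_of_nonneg_left h5 (Real.sqrt_nonneg (rho3 x)))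
      (by positivity) (by positivity)
    rw [← mul_assoc, h7] at b2
    linarith
  rw [e, norm_div, norm_mul, norm_mul, norm_I, norm_real, Real.norm_of_nonneg (by positivity),
    div_le_iff₀ (by positivity)]
  have : 10 * (√(rho3 x) / σ) * √(hh (sG hx) v v).re * σ ^ 2 =
      2 * (5 * σ * (√(rho3 x) * √(hh (sG hx) v v).re)) := by
    field_simp
    ring
  rw [this]
  simp only [Complex.norm_ofNat, mul_one]
  linarith

/-- The weight of a level at height `ρ`. -/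
def qn (ρ σ : ℝ) : ℝ := if ρ ≤ 6 * σ ^ 2 then ρ / σ ^ 2 else 0

theorem qn_nonneg {ρ : ℝ} (h : 0 ≤ ρ) (σ : ℝ) : 0 ≤ qn ρ σ := by
  unfold qn
  split_ifs <;> positivity

theorem level_bound (hσ : 0 < σ) (hx : 0 < rho3 x) (hG : Per G) {M : ℝ} (hM0 : 0 ≤ M)
    (hM : ∀ W : ℂ, 0 ≤ W.im → ‖G W‖ ≤ M) (u v : Cn 3) {t T : ℝ} (ht : 0 ≤ t) (hT : 0 ≤ T)
    (htT : (wn σ a (x 0) (x 1)).im ≤ 6 → t ≤ T) :
    ‖al σ a u‖ * ‖al σ a v‖ * t * ‖G (wn σ a (x 0) (x 1))‖ ≤
      100 * M * qn (rho3 x) σ * T * √(hh (sG hx) u u).re * √(hh (sG hx) v v).re := by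
  have hq := qn_nonneg hx.le σ
  by_cases h6 : (wn σ a (x 0) (x 1)).im ≤ 6
  · obtain ⟨h1, h2⟩ := al_le hσ hx h6 u
    obtain ⟨-, h3⟩ := al_le hσ hx h6 v
    have h4 : ‖G (wn σ a (x 0) (x 1))‖ ≤ M := hM _ (by
      rw [wn_im]
      have : 0 < rho (x 0) (x 1) := hx
      positivity)
    have h5 := mul_le_mul (mul_le_mul (mul_le_mul h2 h3 (norm_nonneg _) (by positivity))
      (htT h6) ht (by positivity)) h4 (norm_nonneg _) (by positivity)
    refine h5.trans (le_of_eq ?_)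
    rw [qn, if_pos h1]
    have := Real.mul_self_sqrt hx.le
    field_simp
    linear_combination 100 * √(hh (sG hx) u u).re * √(hh (sG hx) v v).re * T * M * this
  · rw [hG.zero _ (not_le.1 h6), norm_zero, mul_zero]
    positivity

theorem al_le' (hσ : 0 < σ) (hx : 0 < rho3 x) (h6 : (wn σ a (x 0) (x 1)).im ≤ 6) (v : Cn 3) :
    ‖al σ a v‖ ≤ 25 * √(hh (sG hx) v v).re := by
  obtain ⟨h1, h2⟩ := al_le hσ hx h6 v
  have h3 : √(rho3 x) / σ ≤ 5 / 2 := by
    rw [div_le_iff₀ hσ]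
    apply Real.sqrt_le_iff.2
    constructor
    · positivity
    · nlinarith
  refine h2.trans (mul_le_mul_of_nonneg_right (by linarith) (Real.sqrt_nonneg _))

theorem sum_qn {ρ ν : ℝ} (hρ : 0 ≤ ρ) (h0 : 0 < ν) (h1 : ν ≤ 1 / 2) (N : ℕ) :
    ∑ n ∈ Finset.range N, qn ρ (ν ^ n) ≤ 12 := by
  have : ∑ n ∈ Finset.range N, qn ρ (ν ^ n) ≤ ρ / (ν ^ N) ^ 2 ∧
      ∑ n ∈ Finset.range N, qn ρ (ν ^ n) ≤ 12 := by
    induction N with
    | zero => simpa using hρ
    | succ N ih =>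
      have hp : 0 < (ν ^ N) ^ 2 := by positivity
      have h2 : 2 * (ρ / (ν ^ N) ^ 2) ≤ ρ / (ν ^ (N + 1)) ^ 2 := by
        rw [pow_succ ν, mul_pow, ← div_div, le_div_iff₀ (by positivity)]
        have : 0 ≤ ρ / (ν ^ N) ^ 2 := by positivity
        nlinarith [mul_le_mul_of_nonneg_left (by nlinarith : ν ^ 2 ≤ 1 / 2) this]
      rw [Finset.sum_range_succ, qn]
      split_ifs with h
      · have : ρ / (ν ^ N) ^ 2 ≤ 6 := by rwa [div_le_iff₀ hp]
        constructor <;> linarith [ih.1]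
      · have : 0 ≤ ρ / (ν ^ N) ^ 2 := by positivity
        constructor <;> linarith [ih.1, ih.2]
  exact this.2

theorem pq_re {u : ℂ → ℝ} (hu : ContDiff ℝ ∞ u) (W : ℂ) :
    (pW (qW (fun X => (u X : ℂ))) W).re = 1 / 4 * (fderiv ℝ (fun X => fderiv ℝ u X 1) W 1 +
      fderiv ℝ (fun X => fderiv ℝ u X I) W I) := by
  have h1 : ∀ (f : ℂ → ℝ), Differentiable ℝ f → ∀ X c,
      fderiv ℝ (fun X => (f X : ℂ)) X c = (fderiv ℝ f X c : ℝ) := by
    intro f hf X c
    have := (ofRealCLM.hasFDerivAt.comp X (hf X).hasFDerivAt).fderiv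
    have h2 : (fun y => (f y : ℂ)) = ofRealCLM ∘ f := rfl
    rw [h2, this]
    rfl
  have h2 : ∀ c, Differentiable ℝ (fun X => fderiv ℝ u X c) := fun c =>
    ((hu.fderiv_right (m := ∞) (by simp)).clm_apply contDiff_const).differentiable (by simp)
  have h3 : ∀ c, Differentiable ℝ (fun X => ((fderiv ℝ u X c : ℝ) : ℂ)) := fun c =>
    ofRealCLM.differentiable.comp (h2 c)
  have h4 : qW (fun X => (u X : ℂ)) =
      fun X => 1 / 2 * (((fderiv ℝ u X 1 : ℝ) : ℂ) + I * ((fderiv ℝ u X I : ℝ) : ℂ)) := by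
    ext X
    rw [qW, h1 u (hu.differentiable (by simp)), h1 u (hu.differentiable (by simp))]
  have h5 : ∀ c, fderiv ℝ (qW (fun X => (u X : ℂ))) W c =
      1 / 2 * (((fderiv ℝ (fun X => fderiv ℝ u X 1) W c : ℝ) : ℂ) +
        I * ((fderiv ℝ (fun X => fderiv ℝ u X I) W c : ℝ) : ℂ)) := by
    intro c
    rw [h4, ((((h3 1) W).hasFDerivAt.fun_add (((h3 I) W).hasFDerivAt.const_mul I)).const_mul
      (1 / 2 : ℂ)).fderiv, ← h1 _ (h2 1), ← h1 _ (h2 I)]
    simp [mul_add]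
  rw [pW, h5, h5]
  simp
  ring

end Vale.Agent.P250
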