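import Mathlib

/-!
A non-Jensen mean value inequality on level sets of the Siegel domain `Im w > |z|²`.
-/

noncomputable section

namespace Vale.Agent.P250

/-- The height function of the Siegel domain. -/
def rho (z w : ℂ) : ℝ := w.im - ‖z‖ ^ 2

/-- The coordinate `w` after the Heisenberg translation that moves `z = a` to `z = 0`. -/
def wa (a z w : ℂ) : ℂ := w - 2 * Complex.I * (starRingEnd ℂ a) * z + Complex.I * (‖a‖ ^ 2 : ℝ)

theorem wa_im (a z w : ℂ) : (wa a z w).im = rho z w + ‖z - a‖ ^ 2 := by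
  simp only [wa, rho, Complex.sq_norm, Complex.normSq_apply]
  simp
  ring

section Aux

open Metric Set Filter Complex MeasureTheory Real

theorem mv_avg {F : ℂ → ℂ} {r : ℝ} (hr : 0 < r) (hF : DifferentiableOn ℂ F (closedBall 0 r)) :
    circleAverage F 0 r = F 0 := by
  refine DiffContOnCl.circleAverage ?_
  rw [abs_of_pos hr]
  exact (hF.mono closure_ball_subset_closedBall).diffContOnCl

theorem mv_polar {G : ℂ → ℂ} {A : Set ℝ} (hA : MeasurableSet A) {R : ℝ} (hAR : A ⊆ Iio R)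
    (hG : ContinuousOn G (closedBall 0 R)) {φ : ℝ → ℂ}
    (h : ∀ s ∈ A, 0 < s → circleAverage G 0 s = φ s) :
    ∫ z in {z : ℂ | ‖z‖ ∈ A}, G z = ∫ s in Ioi 0 ∩ A, (2 * π * s) • φ s := by
  have hs : ∀ p : ℝ × ℝ, Complex.polarCoord.symm p = circleMap 0 p.1 p.2 := by
    intro p
    rw [Complex.polarCoord_symm_apply, circleMap, zero_add, Complex.exp_mul_I]
    push_cast
    rfl
  have hn : ∀ {s : ℝ}, 0 ≤ s → ∀ θ, ‖circleMap 0 s θ‖ = s := fun hs θ => by
    simpa using circleMap_mem_sphere 0 hs θ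
  have hm : MeasurableSet ((Ioi (0 : ℝ) ∩ A) ×ˢ Ioo (-π) π) :=
    (measurableSet_Ioi.inter hA).prod measurableSet_Ioo
  rw [← integral_indicator (s := {z : ℂ | ‖z‖ ∈ A}) (measurable_norm hA),
    ← Complex.integral_comp_polarCoord_symm]
  have e : ∫ p in polarCoord.target, p.1 •
      {z : ℂ | ‖z‖ ∈ A}.indicator G (Complex.polarCoord.symm p)
      = ∫ p in (Ioi (0 : ℝ) ∩ A) ×ˢ Ioo (-π) π, p.1 • G (circleMap 0 p.1 p.2) := by
    have hsub : (Ioi (0 : ℝ) ∩ A) ×ˢ Ioo (-π) π ⊆ polarCoord.target := fun p hp => ⟨hp.1.1, hp.2⟩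
    rw [← inter_eq_left.2 hsub, ← Measure.restrict_restrict hm, ← integral_indicator hm]
    refine setIntegral_congr_fun polarCoord.open_target.measurableSet fun p hp => ?_
    have hp1 : 0 < p.1 := hp.1
    simp only [hs]
    by_cases hab : p.1 ∈ A
    · rw [indicator_of_mem (show circleMap 0 p.1 p.2 ∈ {z : ℂ | ‖z‖ ∈ A} by
        simpa only [mem_ofPred_eq, hn hp1.le] using hab),
        indicator_of_mem (show p ∈ (Ioi (0 : ℝ) ∩ A) ×ˢ Ioo (-π) π from ⟨⟨hp1, hab⟩, hp.2⟩)]
    · rw [indicator_of_notMem, indicator_of_notMem (fun h => hab h.1.2), smul_zero]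
      simpa only [mem_ofPred_eq, hn hp1.le] using hab
  refine e.trans ?_
  rw [Measure.volume_eq_prod, setIntegral_prod]
  · refine setIntegral_congr_fun (measurableSet_Ioi.inter hA) fun s hs => ?_
    simp only
    rw [integral_smul, ← h s hs.2 hs.1, circleAverage_eq_integral_add (-π),
      intervalIntegral.integral_comp_add_right (fun θ => G (circleMap 0 s θ)), smul_smul,
      ← integral_Ioc_eq_integral_Ioo, ← intervalIntegral.integral_of_le (by linarith [pi_pos])]
    congr 2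
    · field_simp
    · ring
    · ring
  · rw [← Measure.volume_eq_prod]
    refine (ContinuousOn.integrableOn_compact
      ((isCompact_Icc (a := 0) (b := R)).prod (isCompact_Icc (a := -π) (b := π))) ?_).mono_set
      (prod_mono (fun s hs => ⟨le_of_lt hs.1, le_of_lt (hAR hs.2)⟩) Ioo_subset_Icc_self)
    refine continuousOn_fst.smul (hG.comp (Continuous.continuousOn ?_) fun p hp => ?_)
    · unfold circleMap
      fun_prop
    · rw [mem_closedBall_zero_iff, hn hp.1.1]
      exact hp.1.2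

theorem mv_disc {F : ℂ → ℂ} {W0 : ℂ} {r : ℝ} (hr : 0 < r)
    (hF : DifferentiableOn ℂ F (closedBall W0 r)) :
    ∫ W, (ball W0 r).indicator F W = (π * r ^ 2 : ℝ) • F W0 := by
  have hF' : DifferentiableOn ℂ (fun W => F (W0 + W)) (closedBall 0 r) :=
    hF.comp (by fun_prop) fun W hW => by simpa using hW
  rw [← integral_add_left_eq_self _ W0]
  have e : (fun W => (ball W0 r).indicator F (W0 + W))
      = {z : ℂ | ‖z‖ ∈ Iio r}.indicator fun W => F (W0 + W) := by
    funext W
    by_cases h : ‖W‖ < r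
    · rw [indicator_of_mem (by simpa using h), indicator_of_mem (by simpa using h)]
    · rw [indicator_of_notMem (by simpa using h), indicator_of_notMem (by simpa using h)]
  rw [e, integral_indicator (s := {z : ℂ | ‖z‖ ∈ Iio r}) (measurable_norm measurableSet_Iio),
    mv_polar measurableSet_Iio Subset.rfl hF'.continuousOn (φ := fun _ => F W0)
      (fun s hs hs0 => by
        rw [mv_avg hs0 (hF'.mono (closedBall_subset_closedBall (le_of_lt hs))), add_zero]),
    integral_smul_const, Ioi_inter_Iio, ← integral_Ioc_eq_integral_Ioo,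
    ← intervalIntegral.integral_of_le hr.le, intervalIntegral.integral_const_mul, integral_id]
  congr 1
  ring

/-- The point of the level set with coordinates `p`. -/
def mvW (h : ℝ) (p : ℂ × ℝ) : ℂ := p.2 + I * ((h + ‖p.1‖ ^ 2 : ℝ) : ℂ)

theorem mvW_cont (h : ℝ) : Continuous (mvW h) := by
  unfold mvW
  fun_prop

theorem mvW_im (h : ℝ) (p : ℂ × ℝ) : (mvW h p).im = h + ‖p.1‖ ^ 2 := by
  simp only [mvW, add_im, ofReal_im, mul_im, I_re, I_im, ofReal_re]
  ring

theorem mvW_rho (h : ℝ) (p : ℂ × ℝ) : rho p.1 (mvW h p) = h := by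
  rw [rho, mvW_im]
  ring

theorem mv_isOpen (h : ℝ) : IsOpen {p : ℂ × ℂ | h < rho p.1 p.2} :=
  isOpen_lt continuous_const (by unfold rho; fun_prop)

theorem mv_core {F : ℂ × ℂ → ℂ} {h : ℝ} (hh : 0 < h)
    (hF : DifferentiableOn ℂ F {p | h / 2 < rho p.1 p.2}) {W0 : ℂ} {r : ℝ} (hr : 0 < r)
    (h1 : h + r < W0.im) :
    IntegrableOn (fun p => F (p.1, mvW h p)) {p | ‖mvW h p - W0‖ < r} ∧
    ∫ p in {p | ‖mvW h p - W0‖ < r}, F (p.1, mvW h p) = (π ^ 2 * r ^ 2 : ℝ) • F (0, W0) := by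
  have hG : Continuous fun p : ℂ × ℝ => F (p.1, mvW h p) :=
    hF.continuousOn.comp_continuous (continuous_fst.prodMk (mvW_cont h)) fun p => by
      simp only [mem_ofPred_eq, mvW_rho]
      linarith
  have hT : MeasurableSet {p | ‖mvW h p - W0‖ < r} :=
    (isOpen_lt ((mvW_cont h).sub continuous_const).norm continuous_const).measurableSet
  set R := ‖W0‖ + r + 1 with hR
  have hb : ∀ p : ℂ × ℝ, ‖mvW h p - W0‖ < r → ‖p.1‖ < R ∧ |p.2| < R := by
    intro p hp
    have a1 : ‖mvW h p‖ < ‖W0‖ + r := by linarith [norm_sub_norm_le (mvW h p) W0]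
    have a2 := (le_abs_self _).trans (Complex.abs_im_le_norm (mvW h p))
    have a3 := Complex.abs_re_le_norm (mvW h p)
    rw [mvW_im] at a2
    have a4 : (mvW h p).re = p.2 := by simp [mvW, -ofReal_pow]
    rw [a4] at a3
    exact ⟨by nlinarith [sq_nonneg (‖p.1‖ - 1)], by linarith⟩
  have hI : IntegrableOn (fun p : ℂ × ℝ => F (p.1, mvW h p)) {p | ‖mvW h p - W0‖ < r} :=
    (hG.continuousOn.integrableOn_compact (isCompact_closedBall 0 R)).mono_set fun p hp => by
      rw [mem_closedBall_zero_iff, Prod.norm_def, max_le_iff]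
      exact ⟨(hb p hp).1.le, (hb p hp).2.le⟩
  refine ⟨hI, ?_⟩
  have hF0 : DifferentiableOn ℂ (fun W => F (0, W)) (closedBall W0 r) :=
    hF.comp (by fun_prop) fun W hW => by
      have a1 := (neg_le_abs _).trans (Complex.abs_im_le_norm (W - W0))
      have a2 := mem_closedBall_iff_norm.1 hW
      simp only [mem_ofPred_eq, rho, norm_zero, sub_im] at a1 ⊢
      linarith
  set g := (ball W0 r).indicator fun W => F (0, W) with hg
  have hgI : Integrable g := (integrable_indicator_iff measurableSet_ball).2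
    ((hF0.continuousOn.integrableOn_compact (isCompact_closedBall _ _)).mono_set
      ball_subset_closedBall)
  have key : ∀ τ : ℝ, ∫ z : ℂ, {p | ‖mvW h p - W0‖ < r}.indicator
      (fun p : ℂ × ℝ => F (p.1, mvW h p)) (z, τ) = π • ∫ y : ℝ, g (τ + y * I) := by
    intro τ
    set A : Set ℝ := {s | ‖(τ + I * ((h + s ^ 2 : ℝ) : ℂ)) - W0‖ < r} with hA
    have hAm : MeasurableSet A := (isOpen_lt (by fun_prop) continuous_const).measurableSet
    have e : (fun z : ℂ => {p | ‖mvW h p - W0‖ < r}.indicator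
        (fun p : ℂ × ℝ => F (p.1, mvW h p)) (z, τ))
        = {z : ℂ | ‖z‖ ∈ A}.indicator fun z => F (z, mvW h (z, τ)) := rfl
    rw [e, integral_indicator (s := {z : ℂ | ‖z‖ ∈ A}) (measurable_norm hAm), 
      mv_polar (G := fun z => F (z, mvW h (z, τ))) hAm (R := R)
      (φ := fun s => F (0, τ + I * ((h + s ^ 2 : ℝ) : ℂ))) (fun s hs => by
        have := (hb ((s : ℂ), τ) (by simpa [mvW, hA] using hs)).1
        simp only [Complex.norm_real, Real.norm_eq_abs] at this
        exact (le_abs_self s).trans_lt this)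
      (hG.comp (by fun_prop : Continuous fun z : ℂ => (z, τ))).continuousOn (fun s _ hs0 => by
        rw [← mv_avg (F := fun z => F (z, τ + I * ((h + s ^ 2 : ℝ) : ℂ))) hs0
          (hF.comp (by fun_prop) fun z hz => ?_)]
        · refine circleAverage_congr_sphere fun z hz => ?_
          rw [abs_of_pos hs0] at hz
          have : ‖z‖ = s := by simpa using hz
          simp only [mvW, this]
        · have a1 := mem_closedBall_zero_iff.1 hz
          have a2 := pow_le_pow_left₀ (norm_nonneg _) a1 2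
          simp only [mem_ofPred_eq, rho, add_im, ofReal_im, mul_im, I_re, I_im, ofReal_re]
          linarith)]
    rw [← setIntegral_indicator hAm, ← integral_add_left_eq_self (fun y : ℝ => g (τ + y * I)) h,
      ← setIntegral_eq_integral_of_forall_compl_eq_zero (s := Ioi 0)
        (f := fun y : ℝ => g (τ + ((h + y : ℝ) : ℂ) * I)) (fun y hy => ?_),
      ← integral_comp_rpow_Ioi_of_pos (g := fun y : ℝ => g (τ + ((h + y : ℝ) : ℂ) * I))
        (p := 2) two_pos, ← integral_smul]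
    · refine setIntegral_congr_fun measurableSet_Ioi fun s _ => ?_
      have e2 : (τ + ((h + s ^ (2 : ℝ) : ℝ) : ℂ) * I) = τ + I * ((h + s ^ 2 : ℝ) : ℂ) := by
        rw [Real.rpow_two, mul_comm]
      simp only [e2, hg]
      by_cases hs : s ∈ A
      · rw [indicator_of_mem hs, indicator_of_mem (mem_ball_iff_norm.2 hs), smul_smul]
        congr 1
        norm_num
        ring
      · rw [indicator_of_notMem hs, indicator_of_notMem (fun h' => hs (mem_ball_iff_norm.1 h'))]
        simp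
    · refine indicator_of_notMem (fun h' => hy ?_) _
      have a1 := (neg_le_abs _).trans (Complex.abs_im_le_norm (τ + ((h + y : ℝ) : ℂ) * I - W0))
      have a2 := mem_ball_iff_norm.1 h'
      simp only [sub_im, add_im, ofReal_im, mul_im, I_re, I_im, ofReal_re] at a1
      simp only [mem_Ioi]
      linarith
  rw [← integral_indicator hT, Measure.volume_eq_prod,
    integral_prod_symm _ ((integrable_indicator_iff hT).2 hI)]
  simp only [key]
  have hmp := Complex.volume_preserving_equiv_real_prod.symm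
  have e3 : ∫ τ : ℝ, ∫ y : ℝ, g (τ + y * I) = ∫ W, g W := by
    rw [← hmp.integral_comp measurableEquivRealProd.symm.measurableEmbedding,
      Measure.volume_eq_prod, integral_prod]
    · simp only [measurableEquivRealProd_symm_apply, Complex.mk_eq_add_mul_I]
    · exact (hmp.integrable_comp_emb measurableEquivRealProd.symm.measurableEmbedding).2 hgI
  rw [integral_smul, e3, hg, mv_disc hr hF0, smul_smul]
  congr 1
  ring

/-- The Heisenberg translation in the coordinates of the level set. -/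
def mvS (a : ℂ) : ℂ × ℝ ≃ₜ ℂ × ℝ where
  toFun p := (a + p.1, -(2 * (starRingEnd ℂ a * (a + p.1)).im) + p.2)
  invFun p := (-a + p.1, 2 * (starRingEnd ℂ a * p.1).im + p.2)
  left_inv p := by simp
  right_inv p := by simp
  continuous_toFun := by fun_prop
  continuous_invFun := by fun_prop

theorem mvS_mp (a : ℂ) : MeasurePreserving (mvS a) := by
  rw [Measure.volume_eq_prod]
  exact (measurePreserving_add_left volume a).skew_product
    (g := fun z t => -(2 * (starRingEnd ℂ a * (a + z)).im) + t)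
    (Continuous.measurable (by unfold Function.uncurry; fun_prop))
    (Eventually.of_forall fun z => map_add_left_eq_self _ _)

/-- The inverse of the Heisenberg translation in complex coordinates. -/
def mvP (a : ℂ) (p : ℂ × ℂ) : ℂ × ℂ :=
  (a + p.1, p.2 + 2 * I * starRingEnd ℂ a * (a + p.1) - I * ((‖a‖ ^ 2 : ℝ) : ℂ))

theorem mvP_wa (a : ℂ) (p : ℂ × ℂ) : wa a (mvP a p).1 (mvP a p).2 = p.2 := by
  simp only [wa, mvP]
  ring

theorem mvP_rho (a : ℂ) (p : ℂ × ℂ) : rho (mvP a p).1 (mvP a p).2 = rho p.1 p.2 := by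
  have := wa_im a (mvP a p).1 (mvP a p).2
  rw [mvP_wa] at this
  simp only [mvP, add_sub_cancel_left, rho] at this ⊢
  linarith

theorem mvP_W (h : ℝ) (a : ℂ) (p : ℂ × ℝ) :
    ((mvS a p).1, mvW h (mvS a p)) = mvP a (p.1, mvW h p) := by
  refine Prod.ext rfl ?_
  simp only [mvS, mvW, mvP, Homeomorph.homeomorph_mk_coe, Equiv.coe_fn_mk, Complex.sq_norm,
    Complex.normSq_apply]
  refine Complex.ext ?_ ?_ <;> simp <;> ring

theorem mvP_diff {f : ℂ × ℂ → ℂ} {h : ℝ} (hf : DifferentiableOn ℂ f {p | h < rho p.1 p.2})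
    (a : ℂ) : DifferentiableOn ℂ (fun p => f (mvP a p)) {p | h < rho p.1 p.2} :=
  hf.comp (by unfold mvP; fun_prop) fun p hp => by
    simp only [mem_ofPred_eq, mvP_rho]
    exact hp

theorem mv_torus {f : ℂ × ℂ → ℂ} {h : ℝ} (hh : 0 < h)
    (hf : DifferentiableOn ℂ f {p | h / 2 < rho p.1 p.2}) (a : ℂ) {W0 : ℂ} {r : ℝ} (hr : 0 < r)
    (h1 : h + r < W0.im) :
    IntegrableOn (fun p => f (p.1, mvW h p)) {p | ‖wa a p.1 (mvW h p) - W0‖ < r} ∧
    ∫ p in {p | ‖wa a p.1 (mvW h p) - W0‖ < r}, f (p.1, mvW h p)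
      = (π ^ 2 * r ^ 2 : ℝ) • f (mvP a (0, W0)) := by
  obtain ⟨c1, c2⟩ := mv_core hh (mvP_diff hf a) hr h1
  have e : mvS a ⁻¹' {p | ‖wa a p.1 (mvW h p) - W0‖ < r} = {p | ‖mvW h p - W0‖ < r} := by
    ext p
    have := mvP_wa a (p.1, mvW h p)
    rw [← mvP_W] at this
    simp only [mem_preimage, mem_ofPred_eq, this]
  rw [← (mvS_mp a).integrableOn_comp_preimage (mvS a).measurableEmbedding,
    ← (mvS_mp a).setIntegral_preimage_emb (mvS a).measurableEmbedding, e]
  simp only [Function.comp_def, mvP_W]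
  exact ⟨c1, c2⟩

end Aux

open Metric Set Filter Complex MeasureTheory Real in
/-- If the solid torus `|w_a - W1| < r2` of the level `ρ = h` lies in the solid torus
`|w_{z0} - w_{z0}(z0, w0)| < r1`, the value at `(z0, w0)` is bounded by a convex combination of a
bound on the large torus and a bound on the core circle of the small torus. -/
theorem mv_step (f : ℂ × ℂ → ℂ) (h : ℝ) (hh : 0 < h)
    (hf : DifferentiableOn ℂ f {p | h / 2 < rho p.1 p.2}) (z0 w0 a W1 : ℂ) (r1 r2 M1 M2 : ℝ)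
    (hr1 : 0 < r1) (hr2 : 0 < r2) (h1 : h + r1 < rho z0 w0) (h2 : h + r2 < W1.im)
    (hsub : ∀ z w, rho z w = h → ‖wa a z w - W1‖ < r2 → ‖wa z0 z w - wa z0 z0 w0‖ < r1)
    (hM1 : ∀ z w, rho z w = h → ‖wa z0 z w - wa z0 z0 w0‖ < r1 → ‖f (z, w)‖ ≤ M1)
    (hM2 : ∀ z w, rho z w = h → wa a z w = W1 → ‖f (z, w)‖ ≤ M2) :
    ‖f (z0, w0)‖ ≤ (1 - r2 ^ 2 / r1 ^ 2) * M1 + r2 ^ 2 / r1 ^ 2 * M2 := by
  have h1' : h + r1 < (wa z0 z0 w0).im := by
    rw [wa_im]
    simpa using h1
  obtain ⟨a1, a2⟩ := mv_torus hh hf z0 hr1 h1'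
  obtain ⟨-, b2⟩ := mv_torus hh hf a hr2 h2
  obtain ⟨c1, c2⟩ := mv_torus (f := fun _ => 1) hh (differentiableOn_const _) z0 hr1 h1'
  obtain ⟨-, d2⟩ := mv_torus (f := fun _ => 1) hh (differentiableOn_const _) a hr2 h2
  have eP : mvP z0 (0, wa z0 z0 w0) = (z0, w0) := by
    simp only [mvP, wa, add_zero, Prod.mk.injEq, true_and]
    ring
  rw [eP] at a2
  have hT : {p : ℂ × ℝ | ‖wa a p.1 (mvW h p) - W1‖ < r2}
      ⊆ {p : ℂ × ℝ | ‖wa z0 p.1 (mvW h p) - wa z0 z0 w0‖ < r1} :=
    fun p hp => hsub _ _ (mvW_rho h p) hp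
  have hT2 : MeasurableSet {p : ℂ × ℝ | ‖wa a p.1 (mvW h p) - W1‖ < r2} := by
    have hc : Continuous fun p : ℂ × ℝ => ‖wa a p.1 (mvW h p) - W1‖ := by
      unfold wa mvW
      fun_prop
    exact (isOpen_lt hc continuous_const).measurableSet
  have hM1' : ∀ p ∈ {p : ℂ × ℝ | ‖wa z0 p.1 (mvW h p) - wa z0 z0 w0‖ < r1},
      ‖f (p.1, mvW h p)‖ ≤ M1 := fun p hp => hM1 _ _ (mvW_rho h p) hp
  generalize {p : ℂ × ℝ | ‖wa z0 p.1 (mvW h p) - wa z0 z0 w0‖ < r1} = T1 at *
  generalize {p : ℂ × ℝ | ‖wa a p.1 (mvW h p) - W1‖ < r2} = T2 at *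
  have e1 := setIntegral_sdiff hT2 a1 hT
  have e2 := setIntegral_sdiff hT2 c1 hT
  have hfin : volume (T1 \ T2) < ⊤ := by
    have := (integrableOn_const_iff (C := (1 : ℂ))).1 (c1.mono_set (sdiff_subset (t := T2)))
    simpa using this
  rw [c2, d2, setIntegral_const, ← sub_smul] at e2
  have e3 : volume.real (T1 \ T2) = π ^ 2 * r1 ^ 2 - π ^ 2 * r2 ^ 2 := by
    simp only [Complex.real_smul, mul_one] at e2
    exact_mod_cast e2
  have e4 := norm_setIntegral_le_of_norm_le_const hfin (f := fun p => f (p.1, mvW h p)) (C := M1)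
    fun p hp => hM1' p hp.1
  have e5 : ‖f (mvP a (0, W1))‖ ≤ M2 := by
    have hσ : 0 < W1.im - h := by linarith
    have hs := Real.sqrt_pos.2 hσ
    have hs2 := Real.sq_sqrt hσ.le
    refine Complex.norm_le_of_forall_mem_frontier_norm_le (f := fun z => f (mvP a (z, W1)))
      (U := ball 0 √(W1.im - h)) isBounded_ball (DifferentiableOn.diffContOnCl ?_)
      (fun z hz => ?_) (subset_closure (mem_ball_self hs))
    · rw [closure_ball _ hs.ne']
      refine (mvP_diff hf a).comp (by fun_prop) fun z hz => ?_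
      have := pow_le_pow_left₀ (norm_nonneg _) (mem_closedBall_zero_iff.1 hz) 2
      simp only [mem_ofPred_eq, rho]
      linarith
    · rw [frontier_ball _ hs.ne'] at hz
      have hn : ‖z‖ = √(W1.im - h) := by simpa using hz
      refine hM2 _ _ ((mvP_rho a (z, W1)).trans ?_) (mvP_wa a (z, W1))
      rw [rho, hn, hs2]
      ring
  rw [e1, a2, b2, e3] at e4
  have e6 := norm_sub_norm_le ((π ^ 2 * r1 ^ 2 : ℝ) • f (z0, w0))
    ((π ^ 2 * r2 ^ 2 : ℝ) • f (mvP a (0, W1)))
  rw [norm_smul, norm_smul, Real.norm_of_nonneg (by positivity),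
    Real.norm_of_nonneg (by positivity)] at e6
  have e7 := mul_le_mul_of_nonneg_left e5 (show 0 ≤ π ^ 2 * r2 ^ 2 by positivity)
  refine le_of_mul_le_mul_left ?_ (show 0 < π ^ 2 * r1 ^ 2 by have := pi_pos; positivity)
  have e8 : π ^ 2 * r1 ^ 2 * ((1 - r2 ^ 2 / r1 ^ 2) * M1 + r2 ^ 2 / r1 ^ 2 * M2)
      = M1 * (π ^ 2 * r1 ^ 2 - π ^ 2 * r2 ^ 2) + π ^ 2 * r2 ^ 2 * M2 := by
    field_simp
  linarith

end Vale.Agent.P250
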