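import Mathlib

/-!
A smooth periodic function on `ℂ`, subharmonic in the upper half plane, vanishing for
`Im W ≥ 6`, bounded above by `7`, with arbitrarily deep wells at the points `i + 2 π k`.
-/

open scoped ContDiff

noncomputable section

namespace Vale.Agent.P250

section Aux

open Filter Real
open scoped Topology

/-- Second directional derivative. -/
def wlD (u : ℂ → ℝ) (W e : ℂ) : ℝ := fderiv ℝ (fun X => fderiv ℝ u X e) W e

theorem wl_app (u : ℂ → ℝ) {L : ℂ →L[ℝ] ℝ} {X : ℂ} (h : HasFDerivAt u L X) (e : ℂ) :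
    fderiv ℝ u X e = L e := by rw [h.fderiv]

theorem wlD_congr {u v : ℂ → ℝ} {W : ℂ} (h : u =ᶠ[𝓝 W] v) (e : ℂ) : wlD u W e = wlD v W e := by
  have : (fun X => fderiv ℝ u X e) =ᶠ[𝓝 W] fun X => fderiv ℝ v X e := by
    filter_upwards [h.fderiv (𝕜 := ℝ)] with X hX
    rw [hX]
  rw [wlD, wlD, this.fderiv_eq]

theorem wl_diff {a : ℂ → ℝ} (ha : ContDiff ℝ ∞ a) (e : ℂ) :
    Differentiable ℝ fun X => fderiv ℝ a X e :=
  ((ha.fderiv_right (m := 1) (by norm_cast)).clm_apply contDiff_const).differentiable one_ne_zero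

theorem wlD_comp {a : ℂ → ℝ} (ha : ContDiff ℝ ∞ a) {j j1 : ℝ → ℝ} {j2 : ℝ} {W : ℂ}
    (h1 : ∀ X, HasDerivAt j (j1 (a X)) (a X)) (h2 : HasDerivAt j1 j2 (a W)) (e : ℂ) :
    wlD (fun X => j (a X)) W e = j2 * fderiv ℝ a W e ^ 2 + j1 (a W) * wlD a W e := by
  have hd := ha.differentiable (by simp)
  have e1 : (fun X => fderiv ℝ (fun X => j (a X)) X e) = fun X => j1 (a X) * fderiv ℝ a X e := by
    funext X
    rw [wl_app (fun X => j (a X)) ((h1 X).comp_hasFDerivAt X (hd X).hasFDerivAt)]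
    simp
  rw [wlD, e1, wl_app (fun X => j1 (a X) * fderiv ℝ a X e)
    ((h2.comp_hasFDerivAt W (hd W).hasFDerivAt).mul (wl_diff ha e W).hasFDerivAt)]
  simp [wlD]
  ring

theorem wlD_affine {a : ℂ → ℝ} (ha : ContDiff ℝ ∞ a) (b c : ℝ) (W e : ℂ) :
    wlD (fun X => b * a X + c - X.im) W e = b * wlD a W e := by
  have hd := ha.differentiable (by simp)
  have e1 : (fun X => fderiv ℝ (fun X => b * a X + c - X.im) X e)
      = fun X => b * fderiv ℝ a X e - e.im := by
    funext X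
    rw [wl_app (fun X => b * a X + c - X.im)
      ((((hd X).hasFDerivAt.const_mul b).add_const c).fun_sub Complex.imCLM.hasFDerivAt)]
    simp
  rw [wlD, e1, (((wl_diff ha e W).hasFDerivAt.const_mul b).sub_const e.im).fderiv]
  simp [wlD]

/-- The regularised squared modulus of `1 - exp (i W + 1)`. -/
def wlN (k : ℝ) (W : ℂ) : ℝ := 1 - 2 * (exp (1 - W.im) * cos W.re) + exp (1 - W.im) ^ 2 + k ^ 2

theorem wlN_smooth (k : ℝ) : ContDiff ℝ ∞ (wlN k) := by
  have h1 : ContDiff ℝ ∞ fun W : ℂ => W.im := Complex.imCLM.contDiff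
  have h2 : ContDiff ℝ ∞ fun W : ℂ => W.re := Complex.reCLM.contDiff
  unfold wlN
  fun_prop

theorem wlN_ge (k : ℝ) (W : ℂ) : (1 - exp (1 - W.im)) ^ 2 + k ^ 2 ≤ wlN k W := by
  unfold wlN
  nlinarith [cos_le_one W.re, exp_pos (1 - W.im)]

theorem wlN_le (k : ℝ) (W : ℂ) : wlN k W ≤ (1 + exp (1 - W.im)) ^ 2 + k ^ 2 := by
  unfold wlN
  nlinarith [neg_one_le_cos W.re, exp_pos (1 - W.im)]

theorem wlN_pos {k : ℝ} (hk : 0 < k) (W : ℂ) : 0 < wlN k W :=
  lt_of_lt_of_le (by positivity) (wlN_ge k W)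

theorem wl_exp (X : ℂ) :
    HasFDerivAt (fun W : ℂ => exp (1 - W.im)) (exp (1 - X.im) • (-Complex.imCLM)) X :=
  (Complex.imCLM.hasFDerivAt.const_sub 1).exp

theorem wlN_fderiv (k : ℝ) (X e : ℂ) : fderiv ℝ (wlN k) X e
    = 2 * e.re * (exp (1 - X.im) * sin X.re)
      + 2 * e.im * (exp (1 - X.im) * cos X.re) - 2 * e.im * exp (1 - X.im) ^ 2 := by
  rw [wl_app (wlN k) (((((wl_exp X).fun_mul Complex.reCLM.hasFDerivAt.cos).const_mul 2).const_sub
    1).fun_add ((wl_exp X).pow 2) |>.add_const (k ^ 2))]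
  simp
  ring

theorem wlN_D (k : ℝ) (X : ℂ) :
    wlD (wlN k) X 1 + wlD (wlN k) X Complex.I = 4 * exp (1 - X.im) ^ 2 := by
  have h := fun e : ℂ => wl_app (fun X : ℂ => 2 * e.re * (exp (1 - X.im) * sin X.re)
      + 2 * e.im * (exp (1 - X.im) * cos X.re) - 2 * e.im * exp (1 - X.im) ^ 2)
    (((((wl_exp X).fun_mul Complex.reCLM.hasFDerivAt.sin).const_mul (2 * e.re)).fun_add
      (((wl_exp X).fun_mul Complex.reCLM.hasFDerivAt.cos).const_mul (2 * e.im))).fun_sub
      (((wl_exp X).pow 2).const_mul (2 * e.im))) e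
  simp only [wlD, wlN_fderiv]
  rw [h, h]
  simp
  ring

theorem wl_log {k : ℝ} (hk : 0 < k) (W : ℂ) :
    0 ≤ wlD (fun X => log (wlN k X)) W 1 + wlD (fun X => log (wlN k X)) W Complex.I := by
  have hN := wlN_pos hk W
  have h := fun e => wlD_comp (wlN_smooth k) (j := log) (j1 := fun x => x⁻¹) (W := W)
    (fun X => hasDerivAt_log (wlN_pos hk X).ne') (hasDerivAt_inv hN.ne') e
  rw [h, h, wlN_fderiv, wlN_fderiv]
  have h2 := wlN_D k W
  have h3 : wlN k W = 1 - 2 * (exp (1 - W.im) * cos W.re) + exp (1 - W.im) ^ 2 + k ^ 2 := rfl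
  have h4 := sin_sq_add_cos_sq W.re
  simp only [Complex.one_re, Complex.one_im, Complex.I_re, Complex.I_im]
  have e : -(wlN k W ^ 2)⁻¹ * (2 * 1 * (exp (1 - W.im) * sin W.re)
      + 2 * 0 * (exp (1 - W.im) * cos W.re) - 2 * 0 * exp (1 - W.im) ^ 2) ^ 2
      + (wlN k W)⁻¹ * wlD (wlN k) W 1 + (-(wlN k W ^ 2)⁻¹ * (2 * 0 * (exp (1 - W.im) * sin W.re)
      + 2 * 1 * (exp (1 - W.im) * cos W.re) - 2 * 1 * exp (1 - W.im) ^ 2) ^ 2
      + (wlN k W)⁻¹ * wlD (wlN k) W Complex.I)
      = 4 * exp (1 - W.im) ^ 2 * k ^ 2 / wlN k W ^ 2 := by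
    rw [eq_sub_of_add_eq h2]
    field_simp
    rw [h3]
    linear_combination (-(4 * exp (1 - W.im) ^ 2)) * h4
  rw [e]
  positivity

/-- A smooth convex approximation of the positive part. -/
def wlJ (x : ℝ) : ℝ := ∫ t in (0 : ℝ)..x, smoothTransition t

theorem wlJ_deriv (x : ℝ) : HasDerivAt wlJ (smoothTransition x) x :=
  (smoothTransition.continuous.integral_hasStrictDerivAt 0 x).hasDerivAt

theorem wlJ_smooth : ContDiff ℝ ∞ wlJ := by
  refine contDiff_infty_iff_deriv.2 ⟨fun x => (wlJ_deriv x).differentiableAt, ?_⟩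
  rw [show deriv wlJ = smoothTransition from funext fun x => (wlJ_deriv x).deriv]
  exact smoothTransition.contDiff

theorem wlJ_nonpos {x : ℝ} (hx : x ≤ 0) : wlJ x = 0 := by
  rw [wlJ, intervalIntegral.integral_congr (g := fun _ => 0) fun t ht => ?_]
  · simp
  · rw [Set.uIcc_of_ge hx] at ht
    exact smoothTransition.zero_of_nonpos ht.2

theorem wlJ_le {x : ℝ} (hx : 0 ≤ x) : wlJ x ≤ x := by
  have := intervalIntegral.integral_mono_on hx
    (smoothTransition.continuous.intervalIntegrable 0 x) (intervalIntegrable_const (c := 1))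
    (μ := MeasureTheory.volume) fun t _ => smoothTransition.le_one t
  simpa [wlJ] using this

theorem wlJ_one {x : ℝ} (hx : 1 ≤ x) : wlJ x = x - (1 - wlJ 1) := by
  rw [wlJ, ← intervalIntegral.integral_add_adjacent_intervals (b := 1)
    (smoothTransition.continuous.intervalIntegrable _ _)
    (smoothTransition.continuous.intervalIntegrable _ _),
    intervalIntegral.integral_congr (a := 1) (g := fun _ => 1) fun t ht => ?_]
  · simp [wlJ]
    ring
  · rw [Set.uIcc_of_le hx] at ht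
    exact smoothTransition.one_of_one_le ht.1

end Aux

open Filter Real Topology in
theorem exists_well (B : ℝ) : ∃ u : ℂ → ℝ, ContDiff ℝ ∞ u ∧
    (∀ W, u (W + 2 * Real.pi) = u W) ∧ (∀ W : ℂ, 6 ≤ W.im → u W = 0) ∧
    (∀ W : ℂ, 0 ≤ W.im → u W ≤ 7) ∧ (∀ k : ℤ, u (Complex.I + 2 * Real.pi * k) ≤ -B) ∧
    ∀ W : ℂ, 0 ≤ fderiv ℝ (fun X => fderiv ℝ u X 1) W 1 +
      fderiv ℝ (fun X => fderiv ℝ u X Complex.I) W Complex.I := by
  set k := exp (-(|B| + 4)) with hk
  have hk0 : 0 < k := exp_pos _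
  have hk1 : k ≤ 1 := exp_le_one_iff.2 (by linarith [abs_nonneg B])
  have hlog : ContDiff ℝ ∞ fun X => log (wlN k X) :=
    (wlN_smooth k).log fun X => (wlN_pos hk0 X).ne'
  set a : ℂ → ℝ := fun X => 1 / 2 * log (wlN k X) + 5 - X.im with ha
  have hac : ContDiff ℝ ∞ a :=
    ((contDiff_const.mul hlog).add contDiff_const).sub Complex.imCLM.contDiff
  have hLa : ∀ W, 0 ≤ wlD a W 1 + wlD a W Complex.I := fun W => by
    rw [ha, wlD_affine hlog, wlD_affine hlog]
    linarith [wl_log hk0 W]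
  have he1 := exp_one_lt_d9
  have he2 := exp_one_gt_d9
  have hv1 : ∀ W : ℂ, 2 ≤ W.im → -2 ≤ log (wlN k W) ∧ log (wlN k W) ≤ 2 := by
    intro W hW
    have h1 : exp (1 - W.im) ≤ exp (-1) := exp_le_exp.2 (by linarith)
    have h2 : exp (-1) * exp 1 = 1 := by rw [← exp_add]; simp
    have h3 : exp (-1) ≤ 1 / 2 := by nlinarith [exp_pos (-1)]
    have h4 := exp_pos (1 - W.im)
    have h5 : exp (-2) = exp (-1) ^ 2 := by rw [← exp_nat_mul]; norm_num
    have h6 : exp 2 = exp 1 ^ 2 := by rw [← exp_nat_mul]; norm_num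
    constructor
    · rw [le_log_iff_exp_le (wlN_pos hk0 W), h5]
      nlinarith [wlN_ge k W, exp_pos (-1)]
    · rw [log_le_iff_le_exp (wlN_pos hk0 W), h6]
      nlinarith [wlN_le k W]
  have hv2 : ∀ W : ℂ, 0 ≤ W.im → log (wlN k W) ≤ 4 := by
    intro W hW
    have h1 : exp (1 - W.im) ≤ exp 1 := exp_le_exp.2 (by linarith)
    have h4 := exp_pos (1 - W.im)
    have h6 : exp 4 = (exp 1 ^ 2) ^ 2 := by rw [← pow_mul, ← exp_nat_mul]; norm_num
    have h7 : 7 ≤ exp 1 ^ 2 := by nlinarith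
    rw [log_le_iff_le_exp (wlN_pos hk0 W), h6]
    nlinarith [wlN_le k W]
  have hc : 0 ≤ 1 - wlJ 1 := sub_nonneg.2 (wlJ_le zero_le_one)
  set u : ℂ → ℝ := fun W => if 5 / 2 < W.im then wlJ (a W) else a W - (1 - wlJ 1) with hu
  have hmid : ∀ W : ℂ, 2 < W.im → W.im < 3 → wlJ (a W) = a W - (1 - wlJ 1) := fun W h1 h2 =>
    wlJ_one (by
      have := (hv1 W h1.le).1
      simp only [ha]
      linarith)
  have hup : ∀ W : ℂ, 2 < W.im → u =ᶠ[𝓝 W] fun X => wlJ (a X) := fun W hW => by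
    filter_upwards [(isOpen_lt continuous_const Complex.continuous_im).mem_nhds hW] with X hX
    simp only [hu]
    split_ifs with h
    · rfl
    · exact (hmid X hX (by linarith)).symm
  have hlo : ∀ W : ℂ, W.im < 3 → u =ᶠ[𝓝 W] fun X => a X - (1 - wlJ 1) := fun W hW => by
    filter_upwards [(isOpen_lt Complex.continuous_im continuous_const).mem_nhds hW] with X hX
    simp only [hu]
    split_ifs with h
    · exact hmid X (by linarith) hX
    · rfl
  refine ⟨u, contDiff_iff_contDiffAt.2 fun W => ?_, fun W => ?_, fun W hW => ?_, fun W hW => ?_,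
    fun m => ?_, fun W => ?_⟩
  · rcases lt_or_ge 2 W.im with h | h
    · exact (wlJ_smooth.comp hac).contDiffAt.congr_of_eventuallyEq (hup W h)
    · exact (hac.sub contDiff_const).contDiffAt.congr_of_eventuallyEq (hlo W (by linarith))
  · simp [hu, ha, wlN]
  · rw [(hup W (by linarith)).eq_of_nhds]
    refine wlJ_nonpos ?_
    have := (hv1 W (by linarith)).2
    simp only [ha]
    linarith
  · have h1 : a W ≤ 7 := by
      have := hv2 W hW
      simp only [ha]
      linarith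
    simp only [hu]
    split_ifs
    · rcases le_total (a W) 0 with h | h
      · rw [wlJ_nonpos h]
        norm_num
      · exact (wlJ_le h).trans h1
    · linarith
  · have h1 : (Complex.I + 2 * Real.pi * m : ℂ).im = 1 := by simp
    have h2 : (Complex.I + 2 * Real.pi * m : ℂ).re = m * (2 * π) := by
      simp
      ring
    rw [(hlo _ (by rw [h1]; norm_num)).eq_of_nhds]
    simp only [ha, wlN, h1, h2, cos_int_mul_two_pi, sub_self, exp_zero]
    rw [show (1 : ℝ) - 2 * (1 * 1) + 1 ^ 2 + k ^ 2 = k ^ 2 by ring, log_pow, hk, log_exp]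
    push_cast
    linarith [le_abs_self B]
  · change 0 ≤ wlD u W 1 + wlD u W Complex.I
    rcases lt_or_ge 2 W.im with h | h
    · have hd : HasDerivAt smoothTransition (deriv smoothTransition (a W)) (a W) :=
        ((smoothTransition.contDiff (n := 1)).differentiable (by simp) _).hasDerivAt
      rw [wlD_congr (hup W h), wlD_congr (hup W h), wlD_comp hac (fun X => wlJ_deriv _) hd,
        wlD_comp hac (fun X => wlJ_deriv _) hd]
      have h1 : 0 ≤ deriv smoothTransition (a W) := smoothTransition.monotone.deriv_nonneg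
      have h2 := mul_nonneg (smoothTransition.nonneg (a W)) (hLa W)
      have h3 := mul_nonneg h1 (sq_nonneg (fderiv ℝ a W 1))
      have h4 := mul_nonneg h1 (sq_nonneg (fderiv ℝ a W Complex.I))
      linarith
    · have h1 := fun e => wlD_comp hac (j := fun x => x - (1 - wlJ 1)) (j1 := fun _ => 1) (W := W)
        (fun X => (hasDerivAt_id' _).sub_const _) (hasDerivAt_const _ _) e
      rw [wlD_congr (hlo W (by linarith)), wlD_congr (hlo W (by linarith)), h1, h1]
      linarith [hLa W]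

end Vale.Agent.P250
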