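import Vale.Agent.P250.PhiDef
import Vale.Agent.P250.Well

/-!
The weight has no holomorphic sections.
-/

open scoped ContDiff Topology
open Filter Complex

noncomputable section

namespace Vale.Agent.P250

theorem ns_lip {u : ℂ → ℝ} {B : ℝ} (hu : WellF u B) : ∃ M, 0 ≤ M ∧
    ∀ W W' : ℂ, 0 ≤ W.im → 0 ≤ W'.im → u W - u W' ≤ M * ‖W - W'‖ := by
  obtain ⟨M1, m1, k1⟩ := hu.toPer.p.bdd
  obtain ⟨M2, m2, k2⟩ := hu.toPer.q.bdd
  refine ⟨M1 + M2, by positivity, fun W W' h h' => ?_⟩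
  have := Convex.norm_image_sub_le_of_norm_fderiv_le (𝕜 := ℝ) (f := fun W => (u W : ℂ))
    (s := {W : ℂ | 0 ≤ W.im}) (C := M1 + M2)
    (fun X _ => hu.toPer.smooth.differentiable (by simp) X)
    (fun X hX => ContinuousLinearMap.opNorm_le_bound _ (by positivity) fun c => by
      rw [fderiv_eq_pq]
      refine (norm_add_le _ _).trans ?_
      rw [norm_mul, norm_mul, norm_conj]
      nlinarith [mul_le_mul_of_nonneg_left (k1 X hX) (norm_nonneg c),
        mul_le_mul_of_nonneg_left (k2 X hX) (norm_nonneg c)])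
    (convex_halfSpace_im_ge 0) h' h
  rw [← ofReal_sub, norm_real] at this
  exact (le_abs_self _).trans this

theorem ns_im {σ : ℝ} (a : ℂ) {z w : ℂ} (h : 0 < rho z w) : 0 ≤ (wn σ a z w).im := by
  rw [wn_im]; positivity

theorem ns_var {u : ℂ → ℝ} {B M : ℝ} (hu : WellF u B) (hM0 : 0 ≤ M)
    (hM : ∀ W W' : ℂ, 0 ≤ W.im → 0 ≤ W'.im → u W - u W' ≤ M * ‖W - W'‖) {s σ : ℝ} (hs : 0 < s)
    (h : 100 * s ≤ σ) {z w z0 w0 : ℂ} (hρ : 0 < rho z w) (hρ0 : 0 < rho z0 w0)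
    (h1 : ‖wa z0 z w - wa z0 z0 w0‖ ≤ 450 * s ^ 2) (h2 : ‖z - z0‖ ≤ 37 * s) :
    lev u σ z w - lev u σ z0 w0 ≤ 900 * M * (s / σ) := by
  have hσ : 0 < σ := by linarith
  have hD : ∀ b, ‖z0 - b‖ ≤ 6 * σ → u (wn σ b z w) - u (wn σ b z0 w0) ≤ 450 * M * (s / σ) := by
    intro b hb
    refine (hM _ _ (ns_im b hρ) (ns_im b hρ0)).trans ?_
    have e : wn σ b z w - wn σ b z0 w0 = (wa z0 z w - wa z0 z0 w0 +
        2 * I * starRingEnd ℂ (z0 - b) * (z - z0)) / (σ ^ 2 : ℝ) := by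
      simp only [wn, wa, map_sub]
      ring
    have k : ‖wa z0 z w - wa z0 z0 w0 + 2 * I * starRingEnd ℂ (z0 - b) * (z - z0)‖ ≤
        450 * (s / σ) * σ ^ 2 := by
      refine (norm_add_le _ _).trans ?_
      rw [norm_mul, norm_mul, norm_mul, norm_conj, norm_I, Complex.norm_ofNat,
        show 450 * (s / σ) * σ ^ 2 = 450 * (s * σ) by field_simp]
      nlinarith [mul_le_mul hb h2 (norm_nonneg _) (by positivity)]
    rw [e, norm_div, norm_real, Real.norm_of_nonneg (by positivity)]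
    have := mul_le_mul_of_nonneg_left ((div_le_iff₀ (by positivity)).2 k) hM0
    linarith
  have b1 := lat_near hσ z0
  have b2 : ‖z0 - lat σ z‖ ≤ 6 * σ := by
    have := norm_sub_le_norm_sub_add_norm_sub z0 z (lat σ z)
    rw [norm_sub_rev z0 z] at this
    linarith [lat_near hσ z]
  have d1 := hD _ (b1.trans (by linarith))
  have d2 := hD _ b2
  have d3 : 0 ≤ M * (s / σ) := by positivity
  unfold lev
  by_cases e : lat σ z = lat σ z0
  · rw [e]; linarith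
  · have a1 := lat_far hσ e
    have a2 := lat_far hσ (Ne.symm e)
    rw [hu.zero _ (wn_far hσ (z := z0) (by nlinarith))] at d2
    rw [hu.zero _ (wn_far hσ (z := z) (by nlinarith))] at d1
    linarith

theorem ns_geom {ν : ℝ} (h0 : 0 < ν) (h1 : ν ≤ 1 / 2) (n : ℕ) :
    ∑ m ∈ Finset.range n, ν ^ n / ν ^ m ≤ 2 * ν := by
  induction n with
  | zero => simp [h0.le]
  | succ n ih =>
    have e : ∑ m ∈ Finset.range n, ν ^ (n + 1) / ν ^ m =
        ν * ∑ m ∈ Finset.range n, ν ^ n / ν ^ m := by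
      rw [Finset.mul_sum]
      exact Finset.sum_congr rfl fun m _ => by ring
    rw [Finset.sum_range_succ, e, show ν ^ (n + 1) / ν ^ n = ν by field_simp; ring]
    nlinarith [mul_le_mul_of_nonneg_left ih h0.le]

theorem ns_sub {s : ℝ} (hs : 0 < s) {z0 w0 : ℂ} (hρ : rho z0 w0 = 900 * s ^ 2) :
    ∃ (z' : ℂ) (k : ℤ), ∀ z w, 0 < rho z w →
      ‖wa (lat s z') z w - (s ^ 2 : ℝ) * (I + 2 * Real.pi * k)‖ < s ^ 2 / 2 →
      ‖wa z0 z w - wa z0 z0 w0‖ < 450 * s ^ 2 := by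
  have hn := lat_near hs (z0 + (30 * s : ℝ))
  refine ⟨z0 + (30 * s : ℝ), ?_⟩
  generalize lat s (z0 + (30 * s : ℝ)) = a at hn ⊢
  have h30 : ‖((30 * s : ℝ) : ℂ)‖ = 30 * s := by
    rw [norm_real, Real.norm_of_nonneg (by positivity)]
  have a1 : ‖a - z0‖ ≤ 35 * s := by
    have := norm_sub_le ((30 * s : ℝ) : ℂ) (z0 + (30 * s : ℝ) - a)
    rw [show ((30 * s : ℝ) : ℂ) - (z0 + (30 * s : ℝ) - a) = a - z0 by ring] at this
    linarith
  have a2 : 25 * s ≤ ‖a - z0‖ := by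
    have := norm_add_le (a - z0) (z0 + (30 * s : ℝ) - a)
    rw [show a - z0 + (z0 + (30 * s : ℝ) - a) = ((30 * s : ℝ) : ℂ) by ring] at this
    linarith
  have hp := Real.pi_pos
  have h2 : 0 < 2 * Real.pi * s ^ 2 := by positivity
  obtain ⟨y, hy⟩ : ∃ y, y = (wa z0 z0 w0).re - 2 * (starRingEnd ℂ z0 * a).im := ⟨_, rfl⟩
  refine ⟨round (y / (2 * Real.pi * s ^ 2)), fun z w h0 h => ?_⟩
  have r1 : |2 * Real.pi * s ^ 2 * round (y / (2 * Real.pi * s ^ 2)) - y| ≤ 4 * s ^ 2 := by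
    have := abs_sub_round (y / (2 * Real.pi * s ^ 2))
    rw [show 2 * Real.pi * s ^ 2 * round (y / (2 * Real.pi * s ^ 2)) - y = -(2 * Real.pi * s ^ 2) *
      (y / (2 * Real.pi * s ^ 2) - round (y / (2 * Real.pi * s ^ 2))) by field_simp; ring,
      abs_mul, abs_neg, abs_of_pos h2]
    nlinarith [Real.pi_lt_four, sq_nonneg s]
  generalize round (y / (2 * Real.pi * s ^ 2)) = k at h r1
  have i0 : (wa z0 z0 w0).im = 900 * s ^ 2 := by rw [wa_im, hρ]; simp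
  have i1 := (im_le_norm _).trans_lt h
  have i2 : (((s ^ 2 : ℝ) : ℂ) * (I + 2 * Real.pi * k)).im = s ^ 2 := by simp [-ofReal_pow]
  rw [sub_im, wa_im, i2] at i1
  have a3 : ‖z - a‖ ≤ 5 / 4 * s := le_of_sq_le_sq (by nlinarith) (by positivity)
  have e : wa z0 z w - wa z0 z0 w0 = wa a z w - (s ^ 2 : ℝ) * (I + 2 * Real.pi * k) +
      2 * I * starRingEnd ℂ (a - z0) * (z - a) + ((2 * Real.pi * s ^ 2 * k - y : ℝ) +
        (s ^ 2 + ‖a - z0‖ ^ 2 - 900 * s ^ 2 : ℝ) * I) := by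
    rw [hy, ← i0]
    generalize wa z0 z0 w0 = W0
    apply Complex.ext <;> simp [wa, Complex.sq_norm, normSq_apply, -ofReal_pow] <;> ring
  rw [e]
  refine (norm_add_le _ _).trans_lt ((add_le_add (norm_add_le _ _) (norm_add_le _ _)).trans_lt ?_)
  rw [norm_mul, norm_mul, norm_mul, norm_mul, norm_conj, norm_I, Complex.norm_ofNat, norm_real,
    norm_real, Real.norm_eq_abs, Real.norm_eq_abs]
  have r2 : |s ^ 2 + ‖a - z0‖ ^ 2 - 900 * s ^ 2| ≤ 326 * s ^ 2 :=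
    abs_le.2 ⟨by nlinarith, by nlinarith [norm_nonneg (a - z0)]⟩
  nlinarith [mul_le_mul a1 a3 (norm_nonneg _) (by positivity)]

theorem ns_step {u : ℂ → ℝ} {B M ε t ν : ℝ} (hu : WellF u B) (hM0 : 0 ≤ M)
    (hM : ∀ W W' : ℂ, 0 ≤ W.im → 0 ≤ W'.im → u W - u W' ≤ M * ‖W - W'‖) (ht : 0 < t)
    (h0 : 0 < ν) (h1 : ν ≤ 1 / 100) (h2 : 1800 * M * ν ≤ 1) (hε : ε * (-2 * Real.log ν) = t)
    (hB : t * B = Real.log 2) (h9 : Real.exp (9 * t) = 1 + 1 / 1620000) (n : ℕ) {f : ℂ × ℂ → ℂ}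
    {K : ℝ} (hK : 0 ≤ K)
    (hf : DifferentiableOn ℂ f {p | 900 * (ν ^ (n + 1)) ^ 2 / 2 < rho p.1 p.2})
    (hb : ∀ z w, rho z w = 900 * (ν ^ (n + 1)) ^ 2 →
      ‖f (z, w)‖ ≤ K * Real.exp (phi u ε t ν z w)) {z0 w0 : ℂ}
    (hρ : rho z0 w0 = 900 * (ν ^ n) ^ 2) :
    ‖f (z0, w0)‖ ≤ (1 - 1 / 1620000 ^ 2) * K * Real.exp (phi u ε t ν z0 w0) := by
  have hs : 0 < ν ^ n := by positivity
  have hh : 0 < 900 * (ν ^ (n + 1)) ^ 2 := by positivity
  have hh' : 900 * (ν ^ (n + 1)) ^ 2 ≤ (ν ^ n) ^ 2 / 10 := by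
    rw [pow_succ ν, mul_pow]
    nlinarith [mul_le_mul_of_nonneg_left (by nlinarith : ν ^ 2 ≤ 1 / 10000) (sq_nonneg (ν ^ n))]
  obtain ⟨z', k, hsub⟩ := ns_sub hs hρ
  have key : ∀ z w, rho z w = 900 * (ν ^ (n + 1)) ^ 2 →
      ‖wa z0 z w - wa z0 z0 w0‖ < 450 * (ν ^ n) ^ 2 →
      phi u ε t ν z w ≤ phi u ε t ν z0 w0 + 2 * t + t * lev u (ν ^ n) z w := by
    intro z w e h
    have i1 := (im_le_norm _).trans_lt h
    rw [sub_im, wa_im, wa_im, hρ, e, sub_self, norm_zero] at i1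
    have a3 : ‖z - z0‖ ≤ 37 * ν ^ n := le_of_sq_le_sq (by nlinarith) (by positivity)
    have v : ∑ m ∈ Finset.range n, (lev u (ν ^ m) z w - lev u (ν ^ m) z0 w0) ≤
        ∑ m ∈ Finset.range n, 900 * M * (ν ^ n / ν ^ m) := by
      refine Finset.sum_le_sum fun m hm => ns_var hu hM0 hM hs ?_ (e ▸ hh) (hρ ▸ by positivity)
        h.le a3
      have k1 : ν ^ n ≤ ν ^ (m + 1) :=
        pow_le_pow_of_le_one h0.le (by linarith) (Finset.mem_range.1 hm)
      rw [pow_succ] at k1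
      nlinarith [pow_pos h0 m]
    rw [← Finset.mul_sum, Finset.sum_sub_distrib] at v
    have v2 := mul_le_mul_of_nonneg_left (ns_geom h0 (by linarith) n) (by positivity : 0 ≤ 900 * M)
    have v3 := mul_le_mul_of_nonneg_left (v.trans (v2.trans (by linarith : _ ≤ (1 : ℝ)))) ht.le
    rw [phi_eq hu ε t h0 (by linarith) (N := n + 1) (by nlinarith),
      phi_eq hu ε t h0 (by linarith) (N := n) (by nlinarith), Finset.sum_range_succ, e, hρ,
      show 900 * (ν ^ (n + 1)) ^ 2 = 900 * (ν ^ n) ^ 2 * ν ^ 2 by ring,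
      Real.log_mul (by positivity) (by positivity), Real.log_pow ν]
    push_cast
    linarith
  have i2 : ((((ν ^ n) ^ 2 : ℝ) : ℂ) * (I + 2 * Real.pi * k)).im = (ν ^ n) ^ 2 := by
    simp [-ofReal_pow]
  have hE := Real.exp_pos (phi u ε t ν z0 w0)
  refine (mv_step f _ hh hf z0 w0 (lat (ν ^ n) z') (((ν ^ n) ^ 2 : ℝ) * (I + 2 * Real.pi * k))
    (450 * (ν ^ n) ^ 2) ((ν ^ n) ^ 2 / 2)
    (K * (Real.exp (phi u ε t ν z0 w0) * (1 + 1 / 1620000)))
    (K * (Real.exp (phi u ε t ν z0 w0) * (1 + 1 / 1620000) / 2)) (by positivity) (by positivity)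
    (by nlinarith) (by rw [i2]; nlinarith) (fun z w e h => hsub z w (e ▸ hh) h)
    (fun z w e h => ?_) fun z w e h => ?_).trans (le_of_eq ?_)
  · refine (hb z w e).trans (mul_le_mul_of_nonneg_left ?_ hK)
    rw [← h9, ← Real.exp_add, Real.exp_le_exp]
    have : lev u (ν ^ n) z w ≤ 7 := hu.le _ (ns_im _ (e ▸ hh))
    nlinarith [key z w e h]
  · refine (hb z w e).trans (mul_le_mul_of_nonneg_left ?_ hK)
    have k1 := key z w e (hsub z w (e ▸ hh) (by rw [h, sub_self, norm_zero]; positivity))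
    have i1 := congrArg im h
    rw [wa_im, i2, e] at i1
    have k2 : lat (ν ^ n) z' = lat (ν ^ n) z := by
      by_contra hne
      nlinarith [lat_far hs hne]
    have k3 : lev u (ν ^ n) z w ≤ -B := by
      rw [lev, ← k2, wn, h, mul_div_cancel_left₀ _ (ofReal_ne_zero.2 (by positivity))]
      exact hu.deep k
    rw [← h9, ← Real.exp_add, ← Real.exp_log (show (0 : ℝ) < 2 by norm_num), ← Real.exp_sub,
      Real.exp_le_exp]
    nlinarith
  · field_simp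
    ring

theorem exists_nosec : ∃ (u : ℂ → ℝ) (B ε t ν : ℝ), WellF u B ∧ 0 < ε ∧ 0 < t ∧ 0 < ν ∧
    ν ≤ 1 / 2 ∧ NoSec (phi u ε t ν) := by
  obtain ⟨t, ht, h9⟩ : ∃ t : ℝ, 0 < t ∧ Real.exp (9 * t) = 1 + 1 / 1620000 :=
    ⟨Real.log (1 + 1 / 1620000) / 9, div_pos (Real.log_pos (by norm_num)) (by norm_num), by
      rw [mul_div_cancel₀ _ (by norm_num), Real.exp_log (by norm_num)]⟩
  obtain ⟨u, u1, u2, u3, u4, u5, u6⟩ := exists_well (Real.log 2 / t)
  have hu : WellF u (Real.log 2 / t) := ⟨u1, u2, u3, u4, u5, u6⟩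
  obtain ⟨M, hM0, hM⟩ := ns_lip hu
  obtain ⟨ν, h0, h1, h2⟩ : ∃ ν : ℝ, 0 < ν ∧ ν ≤ 1 / 100 ∧ 1800 * M * ν ≤ 1 := by
    refine ⟨1 / (1800 * M + 100), by positivity,
      one_div_le_one_div_of_le (by norm_num) (by linarith), ?_⟩
    rw [mul_one_div, div_le_one (by positivity)]
    linarith
  have hl : 0 < -2 * Real.log ν := by
    have := Real.log_neg h0 (by linarith)
    linarith
  have hε : 0 < t / (-2 * Real.log ν) := by positivity
  refine ⟨u, _, t / (-2 * Real.log ν), t, ν, hu, hε, ht, h0, by linarith, fun η hη => ?_⟩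
  have hε' := div_mul_cancel₀ t hl.ne'
  generalize t / (-2 * Real.log ν) = ε at hε hε'
  have main : ∀ (n : ℕ) (f : ℂ × ℂ → ℂ) (K : ℝ), 0 ≤ K →
      DifferentiableOn ℂ f {p | 900 * (ν ^ n) ^ 2 / 2 < rho p.1 p.2} →
      (∀ z w, rho z w = 900 * (ν ^ n) ^ 2 → ‖f (z, w)‖ ≤ K * Real.exp (phi u ε t ν z w)) →
      ‖f (0, 900 * I)‖ ≤ (1 - 1 / 1620000 ^ 2) ^ n * K := by
    intro n
    induction n with
    | zero =>
      intro f K hK _ hb
      have e : rho 0 (900 * I) = 900 := by simp [rho]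
      refine (hb _ _ (by simp [e])).trans ?_
      rw [phi_eq hu ε t h0 (by linarith) (N := 0) (by rw [e]; norm_num), e, pow_zero, one_mul]
      refine mul_le_of_le_one_right hK (Real.exp_le_one_iff.2 ?_)
      have := Real.log_nonneg (show (1 : ℝ) ≤ 900 by norm_num)
      simp only [Finset.range_zero, Finset.sum_empty, mul_zero, add_zero]
      nlinarith
    | succ n ih =>
      intro f K hK hf hb
      have k1 : ν ^ (n + 1) ≤ ν ^ n := pow_le_pow_of_le_one h0.le (by linarith) (by omega)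
      have k2 := pow_le_pow_left₀ (by positivity) k1 2
      refine (ih f ((1 - 1 / 1620000 ^ 2) * K) (by positivity)
        (hf.mono fun p hp => lt_of_le_of_lt (b := 900 * (ν ^ n) ^ 2 / 2) (by linarith) hp)
        fun z w e =>
        ns_step hu hM0 hM ht h0 h1 h2 hε' (mul_div_cancel₀ _ ht.ne') h9 n hK hf hb e).trans
        (le_of_eq (by ring))
  obtain ⟨N, hN⟩ := exists_pow_lt_of_lt_one hη (show (1 - 1 / 1620000 ^ 2 : ℝ) < 1 by norm_num)
  have p1 : 0 < (ν ^ N) ^ 2 := by positivity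
  have p2 : (ν ^ N) ^ 2 ≤ 1 := pow_le_one₀ (by positivity) (pow_le_one₀ h0.le (by linarith))
  refine ⟨900 * (ν ^ N) ^ 2 / 2, ε * -Real.log (900 * (ν ^ N) ^ 2 / 2) + t * (N * 7),
    by positivity, by linarith, fun z w h => ?_, fun f K hf hb => ?_⟩
  · rw [phi_eq hu ε t h0 (by linarith) (N := N) (by linarith)]
    have k1 := Real.log_le_log (by positivity) h.le
    have k2 := Finset.sum_le_card_nsmul (Finset.range N) (fun n => lev u (ν ^ n) z w) 7
      fun n _ => hu.le _ (ns_im _ (by linarith))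
    rw [Finset.card_range, nsmul_eq_mul] at k2
    nlinarith
  · have hK : 0 ≤ K := by
      have := (norm_nonneg _).trans (hb 0 (900 * I) (by simp [rho]; linarith))
      exact nonneg_of_mul_nonneg_left this (Real.exp_pos _)
    exact (main N f K hK hf fun z w e => hb z w (by linarith)).trans
      (mul_le_mul_of_nonneg_right hN.le hK)

end Vale.Agent.P250
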