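import Vale.Agent.P250.PhiDef

/-!
The weight has bounded geometry.
-/

open scoped ContDiff Topology
open Filter Complex

noncomputable section

namespace Vale.Agent.P250

open Gm

section Aux

variable {x : Cn 3}

theorem pj_mk_sum (s : Finset ℕ) (f : ℕ → Cn 3 → ℂ) (hf : ∀ n, ContDiffAt ℝ ∞ (f n) x) :
    ∑ n ∈ s, mk (f n) (hf n) = mk (fun y => ∑ n ∈ s, f n y) (ContDiffAt.sum fun n _ => hf n) := by
  induction s using Finset.induction_on with
  | empty => rw [Finset.sum_empty, mk_zero]; exact mk_eq (by simp)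
  | insert n s hn ih =>
    rw [Finset.sum_insert hn, ih, mk_add]
    exact mk_eq (by simp [Finset.sum_insert hn])

/-- Bounds for the mixed jets of a germ. -/
structure PjBd (w : Cn 3 → ℝ) (ψ : Gm x) (K : ℝ) : Prop where
  h2 : ∀ a b, ‖hh ψ a b‖ ≤ K * (w a * w b)
  h3 : ∀ a c b, ‖S3 ψ a c b‖ ≤ K * (w a * w c * w b)
  h4 : ∀ a c b d, ‖S4 ψ a c b d‖ ≤ K * (w a * w c * w b * w d)

variable {w : Cn 3 → ℝ}

theorem PjBd.add {ψ χ : Gm x} {K K' : ℝ} (h : PjBd w ψ K) (h' : PjBd w χ K') :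
    PjBd w (ψ + χ) (K + K') := by
  refine ⟨fun a b => ?_, fun a c b => ?_, fun a c b d => ?_⟩
  · have := h.h2 a b
    have := h'.h2 a b
    simp only [hh, da_add, dh_add, map_add] at *
    exact (norm_add_le _ _).trans (by linarith)
  · have := h.h3 a c b
    have := h'.h3 a c b
    simp only [S3, da_add, dh_add, map_add] at *
    exact (norm_add_le _ _).trans (by linarith)
  · have := h.h4 a c b d
    have := h'.h4 a c b d
    simp only [S4, da_add, dh_add, map_add] at *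
    exact (norm_add_le _ _).trans (by linarith)

theorem PjBd.smul {ψ : Gm x} {K r : ℝ} (h : PjBd w ψ K) (hr : 0 ≤ r) :
    PjBd w (C r * ψ) (r * K) := by
  refine ⟨fun a b => ?_, fun a c b => ?_, fun a c b d => ?_⟩
  · have := mul_le_mul_of_nonneg_left (h.h2 a b) hr
    simp only [hh, da_mul, dh_mul, da_C, dh_C, zero_mul, zero_add, map_mul, val_C, norm_mul,
      norm_real, Real.norm_of_nonneg hr] at *
    linarith
  · have := mul_le_mul_of_nonneg_left (h.h3 a c b) hr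
    simp only [S3, da_mul, dh_mul, da_C, dh_C, zero_mul, zero_add, map_mul, val_C, norm_mul,
      norm_real, Real.norm_of_nonneg hr] at *
    linarith
  · have := mul_le_mul_of_nonneg_left (h.h4 a c b d) hr
    simp only [S4, da_mul, dh_mul, da_C, dh_C, zero_mul, zero_add, map_mul, val_C, norm_mul,
      norm_real, Real.norm_of_nonneg hr] at *
    linarith

theorem PjBd.sum {ψ : ℕ → Gm x} {K : ℕ → ℝ} (h : ∀ n, PjBd w (ψ n) (K n)) (s : Finset ℕ) :
    PjBd w (∑ n ∈ s, ψ n) (∑ n ∈ s, K n) := by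
  induction s using Finset.induction_on with
  | empty => constructor <;> simp [hh, S3, S4, da_zero, dh_zero]
  | insert n s hn ih => rw [Finset.sum_insert hn, Finset.sum_insert hn]; exact (h n).add ih

theorem PjBd.mono {ψ : Gm x} {K K' : ℝ} (h : PjBd w ψ K) (hw : ∀ a, 0 ≤ w a) (hK : K ≤ K') :
    PjBd w ψ K' :=
  ⟨fun a b => (h.h2 a b).trans (mul_le_mul_of_nonneg_right hK (mul_nonneg (hw a) (hw b))),
    fun a c b => (h.h3 a c b).trans (mul_le_mul_of_nonneg_right hK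
      (mul_nonneg (mul_nonneg (hw a) (hw c)) (hw b))),
    fun a c b d => (h.h4 a c b d).trans (mul_le_mul_of_nonneg_right hK
      (mul_nonneg (mul_nonneg (mul_nonneg (hw a) (hw c)) (hw b)) (hw d)))⟩

theorem pj_mul {p q : ℂ} {P Q : ℝ} (hp : ‖p‖ ≤ P) (hq : ‖q‖ ≤ Q) : ‖p * q‖ ≤ P * Q := by
  rw [norm_mul]
  exact mul_le_mul hp hq (norm_nonneg _) ((norm_nonneg _).trans hp)

theorem pj_add {p q : ℂ} {P Q : ℝ} (hp : ‖p‖ ≤ P) (hq : ‖q‖ ≤ Q) : ‖p + q‖ ≤ P + Q :=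
  (norm_add_le _ _).trans (add_le_add hp hq)

theorem pj_sub {p q : ℂ} {P Q : ℝ} (hp : ‖p‖ ≤ P) (hq : ‖q‖ ≤ Q) : ‖p - q‖ ≤ P + Q :=
  (norm_sub_le _ _).trans (add_le_add hp hq)

theorem pj_conj {p : ℂ} {P : ℝ} (hp : ‖p‖ ≤ P) : ‖starRingEnd ℂ p‖ ≤ P := by rwa [norm_conj]

theorem pj_s3 (hx : 0 < rho3 x) (a c b : Cn 3) : dh c (dh a (da b (sG hx))) =
    dh c (sG hx) * dh a (da b (sG hx)) + dh a (sG hx) * dh c (da b (sG hx)) := by
  rw [← da_dh, ← da_dh, sG_hs, da_mul, da_dh, da_dh]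
  ring

theorem pj_sG (hx : 0 < rho3 x) : PjBd (fun a => √(hh (sG hx) a a).re) (sG hx) 16 := by
  have h3 : ∀ a c b, ‖S3 (sG hx) a c b‖ ≤
      4 * (√(hh (sG hx) a a).re * √(hh (sG hx) c c).re * √(hh (sG hx) b b).re) := fun a c b => by
    rw [S3, pj_s3, map_add, map_mul, map_mul]
    exact (pj_add (pj_mul (s_le hx c) (omega_le hx a b))
      (pj_mul (s_le hx a) (omega_le hx c b))).trans (le_of_eq (by ring))
  refine ⟨fun a b => (omega_le hx a b).trans ?_, fun a c b => (h3 a c b).trans ?_,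
    fun a c b d => ?_⟩
  · have := mul_nonneg (Real.sqrt_nonneg (hh (sG hx) a a).re) (Real.sqrt_nonneg (hh (sG hx) b b).re)
    linarith
  · exact mul_le_mul_of_nonneg_right (by norm_num) (by positivity)
  · rw [S4, pj_s3, da_add, da_mul, da_mul, da_dh d c (sG hx), da_dh d a (sG hx)]
    simp only [map_add, map_mul, ← S3_conj (cj_sG hx)]
    exact (pj_add (pj_add (pj_mul (omega_le hx c d) (omega_le hx a b))
      (pj_mul (s_le hx c) (pj_conj (h3 b d a)))) (pj_add (pj_mul (omega_le hx a d)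
      (omega_le hx c b)) (pj_mul (s_le hx a) (pj_conj (h3 b d c))))).trans (le_of_eq (by ring))

theorem pj_cG (hx : 0 < rho3 x) {σ : ℝ} (hσ : 0 < σ) (p : ℂ) {G : ℂ → ℂ} (hG : Per G) {M : ℝ}
    (hM : 0 ≤ M) (h2 : ∀ W : ℂ, 0 ≤ W.im → ‖pW (qW G) W‖ ≤ M)
    (h3 : ∀ W : ℂ, 0 ≤ W.im → ‖pW (pW (qW G)) W‖ ≤ M)
    (h4 : ∀ W : ℂ, 0 ≤ W.im → ‖qW (pW (pW (qW G))) W‖ ≤ M) :
    PjBd (fun a => √(hh (sG hx) a a).re) (cG x σ p G hG) (62500 * M * qn (rho3 x) σ) := by
  have hq := qn_nonneg hx.le σ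
  refine ⟨fun a b => ?_, fun a c b => ?_, fun a c b d => ?_⟩
  · have := level_bound (a := p) hσ hx hG.q.p hM h2 a b zero_le_one zero_le_one fun _ => le_rfl
    have k : 0 ≤ M * qn (rho3 x) σ * (√(hh (sG hx) a a).re * √(hh (sG hx) b b).re) := by
      positivity
    simp only [hh_cG, norm_mul, norm_conj]
    nlinarith
  · have := level_bound (a := p) hσ hx hG.q.p.p hM h3 a b (norm_nonneg (al σ p c))
      (by positivity) fun h => al_le' hσ hx h c
    have k : 0 ≤ M * qn (rho3 x) σ *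
        (√(hh (sG hx) a a).re * √(hh (sG hx) c c).re * √(hh (sG hx) b b).re) := by positivity
    simp only [S3_cG, norm_mul, norm_conj]
    nlinarith
  · have := level_bound (a := p) hσ hx hG.q.p.p.q hM h4 a b
      (mul_nonneg (norm_nonneg (al σ p c)) (norm_nonneg (al σ p d))) (by positivity)
      fun h => mul_le_mul (al_le' hσ hx h c) (al_le' hσ hx h d) (norm_nonneg _) (by positivity)
    simp only [S4_cG, norm_mul, norm_conj]
    nlinarith

theorem PjBd.T3 (hx : 0 < rho3 x) {ψ : Gm x} {K : ℝ}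
    (h : PjBd (fun a => √(hh (sG hx) a a).re) ψ K) (a c b : Cn 3) : ‖T3f (sG hx) ψ a c b‖ ≤
      3 * K * (√(hh (sG hx) a a).re * √(hh (sG hx) c c).re * √(hh (sG hx) b b).re) :=
  (pj_sub (pj_sub (h.h3 a c b) (pj_mul (s_le hx c) (h.h2 a b)))
    (pj_mul (s_le hx a) (h.h2 c b))).trans (le_of_eq (by ring))

theorem PjBd.T4 (hx : 0 < rho3 x) {ψ : Gm x} {K : ℝ}
    (h : PjBd (fun a => √(hh (sG hx) a a).re) ψ K) (a c b d : Cn 3) : ‖T4f (sG hx) ψ a c b d‖ ≤
      9 * K * √(hh (sG hx) a a).re * √(hh (sG hx) c c).re * √(hh (sG hx) b b).re *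
        √(hh (sG hx) d d).re := by
  have s' : ∀ v, ‖val (da v (sG hx))‖ ≤ √(hh (sG hx) v v).re := fun v => by
    rw [val_da_sG]; exact pj_conj (s_le hx v)
  exact (pj_add (pj_sub (pj_sub (pj_sub (pj_sub (h.h4 a c b d) (pj_mul (s' d) (h.h3 a c b)))
    (pj_mul (s' b) (h.h3 a c d))) (pj_mul (s_le hx c) (pj_conj (h.h3 b d a))))
    (pj_mul (s_le hx a) (pj_conj (h.h3 b d c)))) (pj_add (pj_add (pj_add
      (pj_mul (pj_mul (s_le hx c) (s' d)) (h.h2 a b)) (pj_mul (pj_mul (s_le hx c) (s' b)) (h.h2 a d)))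
      (pj_mul (pj_mul (s_le hx a) (s' d)) (h.h2 c b)))
      (pj_mul (pj_mul (s_le hx a) (s' b)) (h.h2 c d)))).trans (le_of_eq (by ring))

theorem pj_hh_sum (ψ : ℕ → Gm x) (s : Finset ℕ) (a b : Cn 3) :
    hh (∑ n ∈ s, ψ n) a b = ∑ n ∈ s, hh (ψ n) a b := by
  induction s using Finset.induction_on with
  | empty => simp [hh, da_zero, dh_zero]
  | insert n s hn ih =>
    rw [Finset.sum_insert hn, Finset.sum_insert hn, ← ih]
    simp only [hh, da_add, dh_add, map_add]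

theorem pj_local {u : ℂ → ℝ} {B : ℝ} (hu : WellF u B) (ε t : ℝ) {ν : ℝ} (h0 : 0 < ν)
    (h1 : ν ≤ 1 / 2) (hx : 0 < rho3 x) : ∃ N : ℕ,
    (fun y : Cn 3 => 2 * phi u ε t ν (y 0) (y 1)) =ᶠ[𝓝 x] fun y => 2 * ε * (- Real.log (rho3 y)) +
      2 * t * ∑ n ∈ Finset.range N, u (wn (ν ^ n) (lat (ν ^ n) (x 0)) (y 0) (y 1)) := by
  obtain ⟨N, hN⟩ := exists_pow_lt_of_lt_one (show 0 < rho3 x / 6 by positivity)
    (show ν < 1 by linarith)
  have h2 : ν ^ N ≤ 1 := pow_le_one₀ h0.le (by linarith)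
  have h3 : 0 < ν ^ N := by positivity
  have h4 : ∀ᶠ y in 𝓝 x, 6 * (ν ^ N) ^ 2 < rho3 y :=
    rho3_smooth.continuous.continuousAt.eventually (lt_mem_nhds (by nlinarith))
  have h5 := (Filter.eventually_all_finset (Finset.range N)).2 fun n _ =>
    lev_local hu.zero (show 0 < ν ^ n by positivity) hx
  refine ⟨N, ?_⟩
  filter_upwards [h4, h5] with y k1 k2
  rw [phi_eq hu ε t h0 (by linarith) k1.le, Finset.sum_congr rfl k2, rho3]
  ring

end Aux

theorem phi_weight {u : ℂ → ℝ} {B ε t ν : ℝ} (hu : WellF u B) (hε : 0 < ε) (ht : 0 < t)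
    (h0 : 0 < ν) (h1 : ν ≤ 1 / 2) :
    ∃ L C : ℝ, 2 * ε ≤ L ∧ 0 ≤ C ∧ Weight (phi u ε t ν) (2 * ε) L C := by
  obtain ⟨M2, m2, k2⟩ := hu.toPer.q.p.bdd
  obtain ⟨M3, m3, k3⟩ := hu.toPer.q.p.p.bdd
  obtain ⟨M4, m4, k4⟩ := hu.toPer.q.p.p.q.bdd
  have hs : ∀ x : Cn 3, 0 < rho3 x →
      ContDiffAt ℝ ∞ (fun y : Cn 3 => 2 * phi u ε t ν (y 0) (y 1)) x := fun x hx => by
    obtain ⟨N, hN⟩ := pj_local hu ε t h0 h1 hx
    exact ((contDiffAt_const.mul (s_smooth hx)).add (contDiffAt_const.mul (ContDiffAt.sum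
      fun n _ => (hu.smooth.comp (wn_smooth _ _)).contDiffAt))).congr_of_eventuallyEq hN
  have hg : ∀ (x : Cn 3) (hx : 0 < rho3 x), ∃ N : ℕ, rmk _ (hs x hx) =
      C ((2 * ε : ℝ) : ℂ) * sG hx + C ((2 * t : ℝ) : ℂ) * ∑ n ∈ Finset.range N,
        cG x (ν ^ n) (lat (ν ^ n) (x 0)) _ hu.toPer := fun x hx => by
    obtain ⟨N, hN⟩ := pj_local hu ε t h0 h1 hx
    refine ⟨N, ?_⟩
    simp only [cG]
    rw [pj_mk_sum, sG, rmk, rmk, C_eq, C_eq, mk_mul, mk_mul, mk_add]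
    refine mk_eq (hN.mono fun y hy => ?_)
    simp only at hy ⊢
    rw [hy]
    push_cast
    ring
  have hb : ∀ (x : Cn 3) (hx : 0 < rho3 x), PjBd (fun a => √(hh (sG hx) a a).re) (rmk _ (hs x hx))
      (2 * ε * 16 + 2 * t * (62500 * (M2 + M3 + M4) * 12)) := fun x hx => by
    obtain ⟨N, hN⟩ := hg x hx
    rw [hN]
    refine ((pj_sG hx).smul (by positivity)).add ((((PjBd.sum fun n => pj_cG hx
      (σ := ν ^ n) (by positivity) _ hu.toPer (M := M2 + M3 + M4) (by positivity)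
      (fun W hW => (k2 W hW).trans (by linarith)) (fun W hW => (k3 W hW).trans (by linarith))
      fun W hW => (k4 W hW).trans (by linarith)) _).mono (fun _ => Real.sqrt_nonneg _)
      ?_).smul (by positivity))
    rw [← Finset.mul_sum]
    exact mul_le_mul_of_nonneg_left (sum_qn hx.le h0 h1 N) (by positivity)
  have hK : 0 ≤ 2 * t * (62500 * (M2 + M3 + M4) * 12) := by positivity
  refine ⟨2 * ε * 16 + 2 * t * (62500 * (M2 + M3 + M4) * 12),
    9 * (2 * ε * 16 + 2 * t * (62500 * (M2 + M3 + M4) * 12)), by linarith, by positivity,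
    hs, fun x hx a => ?_, fun x hx a => ?_, fun x hx a c b => ?_, fun x hx => (hb x hx).T4 hx⟩
  · obtain ⟨N, hN⟩ := hg x hx
    have e : hh (rmk _ (hs x hx)) a a = (2 * ε : ℝ) * hh (sG hx) a a + (2 * t : ℝ) *
        hh (∑ n ∈ Finset.range N, cG x (ν ^ n) (lat (ν ^ n) (x 0)) _ hu.toPer) a a := by
      rw [hN]
      simp only [hh, da_add, dh_add, da_mul, dh_mul, da_C, dh_C, zero_mul, zero_add, map_add,
        map_mul, val_C]
    rw [e, add_re, re_ofReal_mul, re_ofReal_mul, pj_hh_sum, re_sum]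
    refine le_add_of_nonneg_right (mul_nonneg (by positivity) (Finset.sum_nonneg fun n _ => ?_))
    rw [hh_cG, mul_conj, re_ofReal_mul, pq_re hu.smooth]
    exact mul_nonneg (normSq_nonneg _) (mul_nonneg (by norm_num) (hu.subh _))
  · have := (hb x hx).h2 a a
    rw [Real.mul_self_sqrt (omega_nonneg hx a)] at this
    exact (re_le_norm _).trans this
  · refine ((hb x hx).T3 hx a c b).trans ?_
    have k : 0 ≤ (2 * ε * 16 + 2 * t * (62500 * (M2 + M3 + M4) * 12)) *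
        (√(hh (sG hx) a a).re * √(hh (sG hx) c c).re * √(hh (sG hx) b b).re) := by positivity
    nlinarith

end Vale.Agent.P250
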