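import Vale.Agent.P250.PhiDef

/-!
The domain is open, simply connected, and not biholomorphic to a bounded domain.
-/

open scoped ContDiff Topology
open Filter Complex

noncomputable section

namespace Vale.Agent.P250

variable {φ : ℂ → ℂ → ℝ}

theorem tp_rho_cont : Continuous rho3 := rho3_smooth.continuous

theorem tp_tau_cont (hc : ContinuousOn (fun y : Cn 3 => φ (y 0) (y 1)) {x | 0 < rho3 x}) :
    ContinuousOn (tau φ) {x | 0 < rho3 x} :=
  (((continuous_apply 2).norm.pow 2).continuousOn).mul (continuousOn_const.mul hc).rexp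

theorem dom_open (hc : ContinuousOn (fun y : Cn 3 => φ (y 0) (y 1)) {x | 0 < rho3 x}) :
    IsOpen (Dom φ) :=
  (tp_tau_cont hc).isOpen_inter_preimage (isOpen_lt continuous_const tp_rho_cont) isOpen_Iio

theorem tp_tau_lt {x : Cn 3} : tau φ x < 1 ↔ ‖x 2‖ * Real.exp (φ (x 0) (x 1)) < 1 := by
  have h : tau φ x = (‖x 2‖ * Real.exp (φ (x 0) (x 1))) ^ 2 := by
    rw [tau, mul_pow, ← Real.exp_nat_mul]; norm_num
  rw [h, pow_lt_one_iff_of_nonneg (by positivity) (by norm_num)]

theorem tp_convex : Convex ℝ {y : Cn 3 | 0 < rho3 y ∧ ‖y 2‖ < 1} := by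
  intro x hx y hy a b ha hb hab
  have h1 : ∀ i, ‖(a • x + b • y) i‖ ≤ a * ‖x i‖ + b * ‖y i‖ := fun i => by
    refine (norm_add_le _ _).trans (le_of_eq ?_)
    simp [abs_of_nonneg ha, abs_of_nonneg hb]
  have h2 : ((a • x + b • y) 1).im = a * (x 1).im + b * (y 1).im := by simp
  obtain ⟨k1, k2⟩ := hx
  obtain ⟨k3, k4⟩ := hy
  have h3 := pow_le_pow_left₀ (norm_nonneg _) (h1 0) 2
  have h4 : ∀ p q : ℝ, 0 < p → 0 < q → 0 < a * p + b * q := fun p q hp hq => by
    rcases ha.eq_or_lt with rfl | h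
    · rw [zero_add] at hab; simpa [hab] using hq
    · positivity
  constructor
  · have h5 := h4 _ _ k1 k3
    have h6 : (a * ‖x 0‖ + b * ‖y 0‖) ^ 2 ≤ a * ‖x 0‖ ^ 2 + b * ‖y 0‖ ^ 2 := by
      have := mul_nonneg (mul_nonneg ha hb) (sq_nonneg (‖x 0‖ - ‖y 0‖))
      have e : b = 1 - a := by linarith
      subst e
      nlinarith
    unfold rho3 rho at *
    rw [h2]
    linarith
  · have h5 := h4 _ _ (sub_pos.2 k2) (sub_pos.2 k4)
    linarith [h1 2]

theorem dom_simplyConnected
    (hc : ContinuousOn (fun y : Cn 3 => φ (y 0) (y 1)) {x | 0 < rho3 x}) :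
    SimplyConnectedSpace (Dom φ) := by
  have e : Dom φ ≃ₜ {y : Cn 3 | 0 < rho3 y ∧ ‖y 2‖ < 1} :=
    { toFun := fun x => ⟨Function.update x.1 2 (x.1 2 * Real.exp (φ (x.1 0) (x.1 1))), by
        refine ⟨by simpa [rho3] using x.2.1, ?_⟩
        simpa [Real.norm_of_nonneg (Real.exp_pos _).le, -ofReal_exp] using tp_tau_lt.1 x.2.2⟩
      invFun := fun y => ⟨Function.update y.1 2 (y.1 2 * Real.exp (-φ (y.1 0) (y.1 1))), by
        refine ⟨by simpa [rho3] using y.2.1, tp_tau_lt.2 ?_⟩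
        simpa [Real.norm_of_nonneg (Real.exp_pos _).le, -ofReal_exp, mul_assoc, ← Real.exp_add]
          using y.2.2⟩
      left_inv := fun x => Subtype.ext (by simp [mul_assoc, ← Complex.exp_add])
      right_inv := fun x => Subtype.ext (by simp [mul_assoc, ← Complex.exp_add])
      continuous_toFun := by
        have h := hc.comp_continuous (continuous_subtype_val (p := fun x => x ∈ Dom φ))
          fun x => x.2.1
        exact (continuous_subtype_val.update 2 (((continuous_apply 2).comp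
          continuous_subtype_val).mul (continuous_ofReal.comp h.rexp))).subtype_mk _
      continuous_invFun := by
        have h := hc.comp_continuous (continuous_subtype_val
          (p := fun x => x ∈ {y : Cn 3 | 0 < rho3 y ∧ ‖y 2‖ < 1})) fun x => x.2.1
        exact (continuous_subtype_val.update 2 (((continuous_apply 2).comp
          continuous_subtype_val).mul (continuous_ofReal.comp h.neg.rexp))).subtype_mk _ }
  have := tp_convex.contractibleSpace ⟨![0, I, 0], by simp [rho3, rho]⟩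
  have := e.contractibleSpace
  infer_instance

/-- The sublevel sets of the exhaustion function are compact. -/
theorem dom_compact (hc : ContinuousOn (fun y : Cn 3 => φ (y 0) (y 1)) {x | 0 < rho3 x}) (c : ℝ) :
    IsCompact {x | x ∈ Dom φ ∧ - Real.log (rho3 x) + Real.log (‖x 1 + I‖ ^ 2) -
      Real.log (1 - tau φ x) ≤ c} := by
  have hE := Real.exp_pos c
  have hδ := Real.exp_pos (-c)
  have hw : ∀ x : Cn 3, 0 < rho3 x → rho3 x ≤ (x 1).im ∧ (x 1).im + 1 ≤ ‖x 1 + I‖ ∧
      ‖x 0‖ ^ 2 ≤ (x 1).im := fun x hx => by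
    have h1 := im_le_norm (x 1 + I)
    simp only [add_im, I_im] at h1
    unfold rho3 rho at *
    exact ⟨by nlinarith [sq_nonneg ‖x 0‖], h1, by linarith⟩
  have key : ∀ x ∈ Dom φ, - Real.log (rho3 x) + Real.log (‖x 1 + I‖ ^ 2) -
      Real.log (1 - tau φ x) ≤ c → Real.exp (-c) ≤ rho3 x ∧ ‖x 1 + I‖ ≤ Real.exp c ∧
        tau φ x ≤ 1 - Real.exp (-c) := by
    intro x hx h
    obtain ⟨h1, h2, -⟩ := hw x hx.1
    have h0 := hx.1
    have h3 : 0 ≤ tau φ x := by unfold tau; positivity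
    have h4 : Real.log (1 - tau φ x) ≤ 0 := Real.log_nonpos (by linarith [hx.2]) (by linarith)
    have h5 : Real.log (rho3 x) ≤ Real.log (‖x 1 + I‖ ^ 2) :=
      Real.log_le_log h0 (by nlinarith)
    have h6 : ‖x 1 + I‖ ^ 2 ≤ Real.exp c * rho3 x := by
      rw [← Real.log_le_log_iff (by nlinarith) (by positivity), Real.log_mul hE.ne' h0.ne',
        Real.log_exp]
      linarith
    have h7 : Real.exp (-c) * Real.exp c = 1 := by rw [← Real.exp_add]; simp
    refine ⟨by nlinarith, by nlinarith, ?_⟩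
    have := (Real.le_log_iff_exp_le (x := -c) (sub_pos.2 hx.2)).1 (by linarith)
    linarith
  have hb : ∀ x : Cn 3, 0 < rho3 x → ‖x 1 + I‖ ≤ Real.exp c → ∀ R, ‖x 2‖ ≤ R →
      ‖x‖ ≤ Real.exp c + 1 + R := fun x hx h R hR => by
    obtain ⟨h1, h2, h3⟩ := hw x hx
    have h4 := norm_nonneg (x 2)
    have h5 := norm_sub_le (x 1 + I) I
    rw [add_sub_cancel_right, norm_I] at h5
    refine (pi_norm_le_iff_of_nonneg (by linarith)).2 fun i => ?_
    fin_cases i
    · change ‖x 0‖ ≤ _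
      nlinarith [norm_nonneg (x 0), sq_nonneg (‖x 0‖ - 1)]
    · change ‖x 1‖ ≤ _
      linarith
    · change ‖x 2‖ ≤ _
      linarith
  have hK : IsCompact {x : Cn 3 | Real.exp (-c) ≤ rho3 x ∧ ‖x 1 + I‖ ≤ Real.exp c ∧ x 2 = 0} := by
    refine Metric.isCompact_of_isClosed_isBounded ((isClosed_le continuous_const tp_rho_cont).inter
      ((isClosed_le ((continuous_apply 1).add continuous_const).norm continuous_const).inter
        (isClosed_eq (continuous_apply 2) continuous_const)))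
      (isBounded_iff_forall_norm_le.2 ⟨_, fun x hx =>
        hb x (hδ.trans_le hx.1) hx.2.1 0 (by rw [hx.2.2, norm_zero])⟩)
  obtain ⟨M, hM⟩ := hK.exists_bound_of_continuousOn (hc.mono fun x hx => hδ.trans_le hx.1)
  refine Metric.isCompact_of_isClosed_isBounded ?_ (isBounded_iff_forall_norm_le.2
    ⟨Real.exp c + 1 + Real.exp M, fun x hx => ?_⟩)
  · have c1 : IsClosed ({x : Cn 3 | Real.exp (-c) ≤ rho3 x} ∩
        tau φ ⁻¹' Set.Iic (1 - Real.exp (-c))) :=
      ((tp_tau_cont hc).mono fun x hx => hδ.trans_le hx).preimage_isClosed_of_isClosed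
        (isClosed_le continuous_const tp_rho_cont) isClosed_Iic
    have c2 : ContinuousOn (fun x : Cn 3 => - Real.log (rho3 x) + Real.log (‖x 1 + I‖ ^ 2) -
        Real.log (1 - tau φ x)) ({x : Cn 3 | Real.exp (-c) ≤ rho3 x} ∩
        tau φ ⁻¹' Set.Iic (1 - Real.exp (-c))) := by
      refine ((tp_rho_cont.continuousOn.log fun x hx => (hδ.trans_le hx.1).ne').neg.add
        (ContinuousOn.log (by fun_prop) fun x hx => ?_)).sub ((continuousOn_const.sub
          ((tp_tau_cont hc).mono fun x hx => hδ.trans_le hx.1)).log fun x hx => ?_)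
      · have h0 := hδ.trans_le hx.1
        obtain ⟨h1, h2, -⟩ := hw x h0
        exact (pow_pos (by linarith) 2).ne'
      · have : tau φ x ≤ 1 - Real.exp (-c) := hx.2
        exact (by linarith : 0 < 1 - tau φ x).ne'
    have c3 := c2.preimage_isClosed_of_isClosed c1 (isClosed_Iic (a := c))
    refine (congrArg IsClosed (Set.ext fun x => ⟨fun hx => ?_, fun hx => ?_⟩)).mpr c3
    · exact ⟨⟨(key x hx.1 hx.2).1, (key x hx.1 hx.2).2.2⟩, hx.2⟩
    · have : tau φ x ≤ 1 - Real.exp (-c) := hx.1.2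
      exact ⟨⟨hδ.trans_le hx.1.1, by linarith⟩, hx.2⟩
  · obtain ⟨h1, h2, -⟩ := key x hx.1 hx.2
    refine hb x hx.1.1 h2 _ ?_
    have h3 := hM (Function.update x 2 0) ⟨by simpa [rho3] using h1, by simpa using h2, by simp⟩
    simp only [ne_eq, Fin.reduceEq, not_false_eq_true, Function.update_of_ne,
      Real.norm_eq_abs] at h3
    have h4 := tp_tau_lt.1 hx.1.2
    have h5 : 1 ≤ Real.exp (φ (x 0) (x 1)) * Real.exp M := by
      rw [← Real.exp_add]
      exact Real.one_le_exp (by linarith [neg_abs_le (φ (x 0) (x 1))])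
    nlinarith [norm_nonneg (x 2), Real.exp_pos M]

theorem tp_mem {z w ζ : ℂ} (h : 0 < rho z w) (h' : ‖ζ‖ < Real.exp (-φ z w)) :
    (![z, w, ζ] : Cn 3) ∈ Dom φ := by
  refine ⟨h, tp_tau_lt.2 ?_⟩
  change ‖ζ‖ * Real.exp (φ z w) < 1
  rwa [Real.exp_neg, ← one_div, lt_div_iff₀ (Real.exp_pos _)] at h'

theorem tp_diff {E : Type} [NormedAddCommGroup E] [NormedSpace ℂ E] {a b c : E → ℂ}
    (ha : Differentiable ℂ a) (hb : Differentiable ℂ b) (hc : Differentiable ℂ c) :
    Differentiable ℂ fun p => (![a p, b p, c p] : Cn 3) := by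
  refine differentiable_pi.2 fun i => ?_
  fin_cases i
  · exact ha
  · exact hb
  · exact hc

theorem dom_not_biholo (hc : ContinuousOn (fun y : Cn 3 => φ (y 0) (y 1)) {x | 0 < rho3 x})
    (hn : NoSec φ) : ¬ BiholoToBounded (Dom φ) := by
  rintro ⟨D, F, G, hD, -, hb, hF, hG, mF, -, hGF, -⟩
  obtain ⟨K, hK0, hK⟩ := hb.exists_pos_norm_le
  have h9 : 0 < rho 0 (900 * I) := by simp [rho]
  have hP : (![0, 900 * I, 0] : Cn 3) ∈ Dom φ := tp_mem h9 (by simpa using Real.exp_pos _)
  have hl : ∀ z w : ℂ, Differentiable ℂ fun ζ : ℂ => (![z, w, ζ] : Cn 3) := fun z w =>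
    tp_diff (differentiable_const _) (differentiable_const _) differentiable_id
  have hg : DifferentiableAt ℂ (fun ζ : ℂ => F ![0, 900 * I, ζ]) 0 :=
    DifferentiableAt.comp (g := F) 0 (hF.differentiableAt ((dom_open hc).mem_nhds hP)) (hl _ _ 0)
  have hs : ∀ (i : Fin 3) (z w ζ : ℂ), 0 < rho z w → ‖ζ‖ < Real.exp (-φ z w) →
      ‖F ![z, w, ζ] i - F ![z, w, 0] i‖ ≤ 2 * K * Real.exp (φ z w) * ‖ζ‖ := by
    intro i z w ζ h1 h2
    have h3 : Set.MapsTo (fun ζ : ℂ => (![z, w, ζ] : Cn 3)) (Metric.ball 0 (Real.exp (-φ z w)))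
        (Dom φ) := fun ξ hξ => tp_mem h1 (mem_ball_zero_iff.1 hξ)
    have h4 := dist_le_div_mul_dist_of_mapsTo_ball (f := fun ζ : ℂ => F ![z, w, ζ] i)
      (R₂ := 2 * K) (differentiableOn_pi.1 (hF.comp (hl z w).differentiableOn h3) i)
      (fun ξ hξ => by
        have k1 := (norm_le_pi_norm _ i).trans (hK _ (mF (h3 hξ)))
        have k2 := (norm_le_pi_norm _ i).trans (hK _ (mF (h3 (Metric.mem_ball_self
          (Real.exp_pos _)))))
        rw [Metric.mem_closedBall, dist_eq_norm]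
        exact (norm_sub_le _ _).trans (by linarith)) (mem_ball_zero_iff.2 h2)
    rwa [dist_eq_norm, dist_zero_right, Real.exp_neg, div_inv_eq_mul] at h4
  have h0 : deriv (fun ζ : ℂ => F ![0, 900 * I, ζ]) 0 = 0 := by
    rw [← norm_le_zero_iff]
    refine le_of_forall_pos_le_add fun δ hδ => ?_
    obtain ⟨h, B, hh, -, hB, hf⟩ := hn (δ / (2 * K)) (by positivity)
    rw [zero_add]
    refine hg.hasDerivAt.le_of_lip' hδ.le ?_
    filter_upwards [Metric.ball_mem_nhds (0 : ℂ) (Real.exp_pos (-B))] with ζ hζ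
    rw [mem_ball_zero_iff] at hζ
    rcases eq_or_ne ζ 0 with rfl | hz
    · simp
    have hζ' : ∀ z w, h < rho z w → ‖ζ‖ < Real.exp (-φ z w) := fun z w k =>
      hζ.trans_le (Real.exp_le_exp.2 (neg_le_neg (hB z w k)))
    refine (pi_norm_le_iff_of_nonneg (by positivity)).2 fun i => ?_
    have k := hf (fun p => (F ![p.1, p.2, ζ] i - F ![p.1, p.2, 0] i) / ζ) (2 * K) ?_ ?_
    · rw [norm_div, div_le_iff₀ (norm_pos_iff.2 hz), div_mul_cancel₀ _ (by positivity)] at k
      simpa using k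
    · have hd : ∀ ξ : ℂ, Differentiable ℂ fun p : ℂ × ℂ => (![p.1, p.2, ξ] : Cn 3) := fun ξ =>
        tp_diff differentiable_fst differentiable_snd (differentiable_const _)
      have d1 := differentiableOn_pi.1 (hF.comp (s := {p : ℂ × ℂ | h < rho p.1 p.2})
        (hd ζ).differentiableOn fun p hp => tp_mem (hh.trans hp) (hζ' _ _ hp)) i
      have d2 := differentiableOn_pi.1 (hF.comp (s := {p : ℂ × ℂ | h < rho p.1 p.2})
        (hd 0).differentiableOn fun p hp => tp_mem (hh.trans hp) (by simpa using Real.exp_pos _)) i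
      simp only [div_eq_mul_inv]
      exact (d1.sub d2).mul_const _
    · intro z w k
      rw [norm_div, div_le_iff₀ (norm_pos_iff.2 hz)]
      exact hs i z w ζ (hh.trans k) (hζ' z w k)
  have h1 := (hG.differentiableAt (hD.mem_nhds (mF hP))).hasFDerivAt.comp_hasDerivAt (0 : ℂ)
    (f := fun ζ : ℂ => F ![0, 900 * I, ζ]) hg.hasDerivAt
  rw [h0, map_zero] at h1
  have h2 : HasDerivAt (fun ζ : ℂ => ζ) 0 0 := by
    refine (hasDerivAt_pi.1 h1 2).congr_of_eventuallyEq ?_
    filter_upwards [(hl 0 (900 * I)).continuous.continuousAt.eventually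
      ((dom_open hc).mem_nhds hP)] with ζ hζ
    simp [hGF _ hζ]
  exact one_ne_zero ((hasDerivAt_id' (0 : ℂ)).unique h2)

end Vale.Agent.P250
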