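import Vale.Agent.P250.Pinch
import Vale.Agent.P250.Complete
import Vale.Agent.P250.Topo
import Vale.Agent.P250.PhiJet
import Vale.Agent.P250.NoSec

/-!
Completeness of the metric and the final counterexample.
-/

open scoped ContDiff Topology
open Filter Complex

noncomputable section

namespace Vale.Agent.P250

open Gm

variable {φ : ℂ → ℂ → ℝ} {ε L C0 A : ℝ} {x : Cn 3}

/-- The exhaustion function. -/
def exh (φ : ℂ → ℂ → ℝ) (x : Cn 3) : ℝ :=
  - Real.log (rho3 x) + Real.log (‖x 1 + I‖ ^ 2) - Real.log (1 - tau φ x)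

theorem im_le_norm_wi (x : Cn 3) : ‖x 0‖ ^ 2 + rho3 x ≤ ‖x 1 + I‖ := by
  have h1 := im_le_norm (x 1 + I)
  simp only [add_im, I_im] at h1
  simp only [rho3, rho]
  linarith

theorem wi_pos (hx : 0 < rho3 x) : 0 < ‖x 1 + I‖ :=
  lt_of_lt_of_le (by positivity) (im_le_norm_wi x)

theorem wi_smooth : ContDiffAt ℝ ∞ (fun y : Cn 3 => ‖y 1 + I‖ ^ 2) x :=
  (((contDiff_apply ℝ ℂ (1 : Fin 3)).add contDiff_const).norm_sq ℂ).contDiffAt

theorem dh_logwi (hx : 0 < rho3 x) (v : Cn 3) :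
    ‖val (dh v (rmk _ (wi_smooth.log (pow_pos (wi_pos hx) 2).ne')))‖ ≤
      3 * √(hh (sG hx) v v).re := by
  have h0 := wi_pos hx
  have h1 := dh_of_D (D_log (wi_smooth (x := x)) (pow_pos (wi_pos hx) 2)) v
  have e : rmk _ (wi_smooth (x := x)) = (X 1 + C I) * cj (X 1 + C I) := by
    rw [rmk, X, C_eq, mk_add, cj_mk, mk_mul]
    apply mk_eq
    refine Eventually.of_forall fun y => ?_
    simp only [mul_conj, normSq_eq_norm_sq]
  rw [e, map_add, cj_C, dh_mul, dh_add, dh_add, dh_X, dh_cjX, dh_C, dh_C] at h1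
  have h2 := congrArg val h1
  simp only [map_add, map_mul, val_C, val_cj, val_X, add_zero, mul_zero] at h2
  rw [← map_add] at h2
  have h3 := congrArg norm h2
  rw [norm_mul, norm_mul, norm_mul, norm_conj] at h3
  have h4 : ‖v 1‖ = ‖x 1 + I‖ *
      ‖val (dh v (rmk _ (wi_smooth.log (pow_pos (wi_pos hx) 2).ne')))‖ := by
    apply mul_right_cancel₀ h0.ne'
    rw [h3]
    ring
  have h5 : ‖v 1‖ ≤ 3 * ‖x 1 + I‖ * √(hh (sG hx) v v).re := by
    rw [a1_eq hx v, norm_mul, norm_mul, norm_I]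
    have a1 := norm_sub_le (starRingEnd ℂ (x 0) * v 0) (rho3 x * val (dh v (sG hx)))
    rw [norm_mul, norm_mul, norm_conj, norm_real, Real.norm_of_nonneg hx.le] at a1
    have a2 := mul_le_mul_of_nonneg_left (a0_le hx v) (norm_nonneg (x 0))
    have a3 := mul_le_mul_of_nonneg_left (s_le hx v) hx.le
    have a4 : 2 * (‖x 0‖ * √(rho3 x)) + 2 * rho3 x ≤ 3 * ‖x 1 + I‖ := by
      nlinarith [im_le_norm_wi x, sq_nonneg (‖x 0‖ - √(rho3 x)), Real.mul_self_sqrt hx.le,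
        sq_nonneg ‖x 0‖]
    have a5 := mul_le_mul_of_nonneg_right a4 (Real.sqrt_nonneg (hh (sG hx) v v).re)
    simp only [Complex.norm_ofNat, mul_one]
    nlinarith
  rw [h4] at h5
  apply le_of_mul_le_mul_left _ h0
  linarith

theorem dh_logtau (hψ : ContDiffAt ℝ ∞ (fun y : Cn 3 => 2 * φ (y 0) (y 1)) x) (hA : 1 ≤ A)
    (hx : x ∈ Dom φ) (v : Cn 3) :
    ‖val (dh v (rmk _ ((contDiffAt_const.sub (tau_smooth hψ)).log
      (sub_pos.2 hx.2).ne')))‖ ^ 2 ≤ A * ‖ell hψ A v‖ ^ 2 := by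
  have h1 := dh_of_D (D_log (contDiffAt_const.sub (tau_smooth hψ)) (sub_pos.2 hx.2)) v
  have e : rmk _ (contDiffAt_const.sub (tau_smooth hψ) :
      ContDiffAt ℝ ∞ (fun y => 1 - tau φ y) x) = 1 - X 2 * cj (X 2) * eG hψ := by
    rw [← tau_germ, rmk, rmk, mk_one, mk_sub]
    apply mk_eq
    simp
  have h2 := congrArg (fun g => ‖val g‖ ^ 2) h1
  rw [map_mul, val_rmk, e, dh_sub, dh_one, dh_tau] at h2
  simp only [zero_sub, map_neg, norm_neg, map_mul, norm_mul, val_cj, val_X, norm_conj, val_eG,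
    norm_real, Real.norm_eq_abs, mul_pow, sq_abs] at h2
  rw [ell, norm_mul, norm_real, mul_pow, Real.norm_eq_abs, sq_abs, Real.sq_sqrt (wV_pos hA hx).le]
  have h3 := yF_sq hx.2
  have h4 := yF_pos hx.2
  generalize ‖val (dh v (rmk _ ((contDiffAt_const.sub (tau_smooth hψ)).log
      (sub_pos.2 hx.2).ne')))‖ ^ 2 = q at h2 ⊢
  have h5 : q = yF φ x ^ 4 * tau φ x * (Real.exp (2 * φ (x 0) (x 1)) *
      ‖val (Dd (rmk _ hψ) v)‖ ^ 2) := by
    have : yF φ x ^ 4 * (1 - tau φ x) ^ 2 = 1 := by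
      linear_combination (yF φ x ^ 2 * (1 - tau φ x) + 1) * h3
    rw [tau]
    linear_combination -yF φ x ^ 4 * h2 - q * this
  have h6 : yF φ x ^ 4 * tau φ x ≤ A * (yF φ x ^ 3 / 2 * (1 + 2 * yF φ x / A)) := by
    have : A * (yF φ x ^ 3 / 2 * (1 + 2 * yF φ x / A)) = A * yF φ x ^ 3 / 2 + yF φ x ^ 4 := by
      field_simp
    rw [this]
    have a1 : 0 ≤ A * yF φ x ^ 3 / 2 := by positivity
    nlinarith [hx.2, pow_pos h4 4]
  rw [h5, wV]
  have := mul_le_mul_of_nonneg_right h6 (by positivity : 0 ≤ Real.exp (2 * φ (x 0) (x 1)) *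
      ‖val (Dd (rmk _ hψ) v)‖ ^ 2)
  linarith

theorem exh_smooth (hψ : ContDiffAt ℝ ∞ (fun y : Cn 3 => 2 * φ (y 0) (y 1)) x) (hx : x ∈ Dom φ) :
    ContDiffAt ℝ ∞ (exh φ) x :=
  ((s_smooth hx.1).add (wi_smooth.log (pow_pos (wi_pos hx.1) 2).ne')).sub
    ((contDiffAt_const.sub (tau_smooth hψ)).log (sub_pos.2 hx.2).ne')

theorem exh_grad (hW : Weight φ ε L C0) (hε : 0 < ε) (hA : 1 ≤ A) (hx : x ∈ Dom φ) (v : Cn 3) :
    (fderiv ℝ (exh φ) x v) ^ 2 ≤ 3 * (10 + A) * kmet (pot φ A) x v v := by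
  set hψ := hW.smooth x hx.1
  have e : rmk _ (exh_smooth hψ hx) = sG hx.1 +
      rmk _ (wi_smooth.log (pow_pos (wi_pos hx.1) 2).ne') -
      rmk _ ((contDiffAt_const.sub (tau_smooth hψ)).log (sub_pos.2 hx.2).ne') := by
    rw [sG, rmk, rmk, rmk, rmk, mk_add, mk_sub]
    apply mk_eq
    refine Eventually.of_forall fun y => ?_
    simp only [exh]
    push_cast
    ring
  have h1 := congrArg val (D_eq v (rmk _ (exh_smooth hψ hx)))
  rw [D_rmk, val_rmk, ← cj_rmk _ (exh_smooth hψ hx), ← cj_dh, cj_rmk, map_add, val_cj] at h1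
  have h2 : |fderiv ℝ (exh φ) x v| ≤ 2 * ‖val (dh v (rmk _ (exh_smooth hψ hx)))‖ := by
    rw [← Real.norm_eq_abs, ← norm_real, h1]
    refine (norm_add_le _ _).trans ?_
    rw [norm_conj]
    linarith
  rw [e, dh_sub, dh_add, map_sub, map_add] at h2
  have a1 := s_le hx.1 v
  have a2 := dh_logwi hx.1 v
  have a3 := dh_logtau hψ hA hx v
  have a4 := (norm_sub_le _ _).trans (add_le_add_left (norm_add_le (val (dh v (sG hx.1)))
    (val (dh v (rmk _ (wi_smooth.log (pow_pos (wi_pos hx.1) 2).ne'))))) ‖val (dh v (rmk _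
    ((contDiffAt_const.sub (tau_smooth hψ)).log (sub_pos.2 hx.2).ne')))‖)
  rw [kmet_eq (pot_smooth hψ hx A), hh_re_eq hW hA hx, ← sq_abs]
  have b1 := omega_nonneg hx.1 v
  have b2 := mul_nonneg (pP_nonneg hA (yF_ge hx.2)) (mu_nonneg hW hε hx.1 v)
  have b3 := Real.sq_sqrt b1
  have b4 := Real.sqrt_nonneg (hh (sG hx.1) v v).re
  have b5 := sq_nonneg ‖ell hψ A v‖
  generalize ‖val (dh v (rmk _ ((contDiffAt_const.sub (tau_smooth hψ)).log
      (sub_pos.2 hx.2).ne')))‖ = q at a3 a4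
  generalize pP A (yF φ x) * (hh (rmk _ (hW.smooth x hx.1)) v v).re = m at b2 ⊢
  generalize ‖ell hψ A v‖ ^ 2 = l at a3 b5 ⊢
  generalize √(hh (sG hx.1) v v).re = r at a1 a2 b3 b4
  generalize (hh (sG hx.1) v v).re = o at b1 b3 ⊢
  have c1 : |fderiv ℝ (exh φ) x v| ≤ 2 * (4 * r + q) := by linarith
  have c2 := pow_le_pow_left₀ (abs_nonneg _) c1 2
  have c3 : o ≤ A * o := by nlinarith
  have c4 : 0 ≤ (10 + A) * m := by positivity
  have c5 : (10 + A) * (A * o) ≥ 11 * o := by nlinarith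
  nlinarith [sq_nonneg (4 * r - q)]

theorem weight_cont (hW : Weight φ ε L C0) :
    ContinuousOn (fun y : Cn 3 => φ (y 0) (y 1)) {x | 0 < rho3 x} := by
  intro x hx
  have := ((hW.smooth x hx).continuousAt.const_mul (1 / 2)).continuousWithinAt
    (s := {x | 0 < rho3 x})
  simpa using this

theorem pot_complete (hW : Weight φ ε L C0) (hε : 0 < ε) (hA : 1 ≤ A) :
    GeodComplete (Dom φ) (kmet (pot φ A)) := by
  have hU := dom_open (weight_cont hW)
  have hK := kmet_isKahler hU (pot_smoothOn hW A) (kmet_pos hW hε hA)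
  exact complete_of_exhaustion hU hK.smooth hK.symm hK.pos (exh φ)
    (fun x hx => ((exh_smooth (hW.smooth x hx.1) hx).differentiableAt
      (by simp)).differentiableWithinAt) _ (fun x hx => exh_grad hW hε hA hx)
    (dom_compact (weight_cont hW))

theorem main : ∃ (U : Set (Cn 3)) (g : Cn 3 → Cn 3 →L[ℝ] Cn 3 →L[ℝ] ℝ), IsOpen U ∧
    SimplyConnectedSpace U ∧ IsKahler U g ∧ GeodComplete U g ∧ NegPinched U g ∧
    ¬ BiholoToBounded U := by
  obtain ⟨u, B, ε, t, ν, hu, hε, ht, h0, h1, hn⟩ := exists_nosec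
  obtain ⟨L, C, hL, hC, hW⟩ := phi_weight hu hε ht h0 h1
  have hc := weight_cont hW
  have h2 : 0 < 2 * ε := by positivity
  obtain ⟨A, hA, hp⟩ := exists_pinched hW h2 hL hC (dom_open hc)
  exact ⟨_, _, dom_open hc, dom_simplyConnected hc,
    kmet_isKahler (dom_open hc) (pot_smoothOn hW A) (kmet_pos hW h2 hA), pot_complete hW h2 hA, hp,
    dom_not_biholo hc hn⟩

end Vale.Agent.P250
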