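import Vale.Agent.P250.Level
import Vale.Agent.P250.Jets

/-!
The weight `φ` on the Siegel domain and the disc bundle domain.
-/

open scoped ContDiff Topology
open Filter Complex

noncomputable section

namespace Vale.Agent.P250

open Gm

/-- The properties of the periodic well function. -/
structure WellF (u : ℂ → ℝ) (B : ℝ) : Prop where
  smooth : ContDiff ℝ ∞ u
  per : ∀ W, u (W + 2 * Real.pi) = u W
  zero : ∀ W : ℂ, 6 ≤ W.im → u W = 0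
  le : ∀ W : ℂ, 0 ≤ W.im → u W ≤ 7
  deep : ∀ k : ℤ, u (Complex.I + 2 * Real.pi * k) ≤ -B
  subh : ∀ W : ℂ, 0 ≤ fderiv ℝ (fun X => fderiv ℝ u X 1) W 1 +
      fderiv ℝ (fun X => fderiv ℝ u X Complex.I) W Complex.I

theorem WellF.toPer {u : ℂ → ℝ} {B : ℝ} (h : WellF u B) : Per (fun W => (u W : ℂ)) where
  smooth := ofRealCLM.contDiff.comp h.smooth
  per W := by rw [h.per]
  zero W hW := by rw [h.zero W hW.le, ofReal_zero]

/-- The weight. -/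
def phi (u : ℂ → ℝ) (ε t ν : ℝ) (z w : ℂ) : ℝ :=
  ε * (- Real.log (rho z w)) + t * ∑ᶠ n : ℕ, lev u (ν ^ n) z w

theorem lev_zero {u : ℂ → ℝ} {B : ℝ} (h : WellF u B) {σ : ℝ} (hσ : 0 < σ) {z w : ℂ}
    (hρ : 6 * σ ^ 2 ≤ rho z w) : lev u σ z w = 0 :=
  h.zero _ (wn_far hσ (by nlinarith [sq_nonneg ‖z - lat σ z‖]))

theorem phi_eq {u : ℂ → ℝ} {B : ℝ} (h : WellF u B) (ε t : ℝ) {ν : ℝ} (h0 : 0 < ν) (h1 : ν ≤ 1)
    {N : ℕ} {z w : ℂ} (hρ : 6 * (ν ^ N) ^ 2 ≤ rho z w) : phi u ε t ν z w =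
      ε * (- Real.log (rho z w)) + t * ∑ n ∈ Finset.range N, lev u (ν ^ n) z w := by
  rw [phi, finsum_eq_sum_of_support_subset (s := Finset.range N)]
  intro n hn
  by_contra h2
  have h3 : N ≤ n := by simpa using h2
  have h4 : ν ^ n ≤ ν ^ N := pow_le_pow_of_le_one h0.le h1 h3
  have h5 : 0 < ν ^ n := by positivity
  exact hn (lev_zero h h5 (by nlinarith))

/-- Holomorphic functions bounded by `K exp φ` on large subdomains are small at a base point. -/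
def NoSec (φ : ℂ → ℂ → ℝ) : Prop :=
  ∀ η : ℝ, 0 < η → ∃ h B : ℝ, 0 < h ∧ h < 900 ∧ (∀ z w, h < rho z w → φ z w ≤ B) ∧
    ∀ (f : ℂ × ℂ → ℂ) (K : ℝ), DifferentiableOn ℂ f {p | h < rho p.1 p.2} →
      (∀ z w, h < rho z w → ‖f (z, w)‖ ≤ K * Real.exp (φ z w)) → ‖f (0, 900 * I)‖ ≤ η * K

/-- The bounded geometry of the weight. -/
structure Weight (φ : ℂ → ℂ → ℝ) (ε L C : ℝ) : Prop where
  smooth : ∀ x : Cn 3, 0 < rho3 x → ContDiffAt ℝ ∞ (fun y : Cn 3 => 2 * φ (y 0) (y 1)) x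
  ge : ∀ x (hx : 0 < rho3 x) a, ε * (hh (sG hx) a a).re ≤ (hh (rmk _ (smooth x hx)) a a).re
  le : ∀ x (hx : 0 < rho3 x) a, (hh (rmk _ (smooth x hx)) a a).re ≤ L * (hh (sG hx) a a).re
  T3 : ∀ x (hx : 0 < rho3 x) a c b, ‖T3f (sG hx) (rmk _ (smooth x hx)) a c b‖ ≤
    C * √(hh (sG hx) a a).re * √(hh (sG hx) c c).re * √(hh (sG hx) b b).re
  T4 : ∀ x (hx : 0 < rho3 x) a c b d, ‖T4f (sG hx) (rmk _ (smooth x hx)) a c b d‖ ≤
    C * √(hh (sG hx) a a).re * √(hh (sG hx) c c).re * √(hh (sG hx) b b).re * √(hh (sG hx) d d).re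

/-- The fibre coordinate `τ = |ζ|² exp (2 φ)`. -/
def tau (φ : ℂ → ℂ → ℝ) (x : Cn 3) : ℝ := ‖x 2‖ ^ 2 * Real.exp (2 * φ (x 0) (x 1))

/-- The disc bundle domain. -/
def Dom (φ : ℂ → ℂ → ℝ) : Set (Cn 3) := {x | 0 < rho3 x ∧ tau φ x < 1}

end Vale.Agent.P250
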