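import Vale.Agent.P250.Pot
import Vale.Agent.P250.Kah
import Vale.Agent.P250.CurvAlg

/-!
The metric on the disc bundle domain is negatively pinched.
-/

open scoped ContDiff Topology
open Filter Complex

noncomputable section

namespace Vale.Agent.P250

open Gm

variable {φ : ℂ → ℂ → ℝ} {ε L C0 A : ℝ} {x : Cn 3}

/-- The vertical weight. -/
def wV (φ : ℂ → ℂ → ℝ) (A : ℝ) (x : Cn 3) : ℝ :=
  yF φ x ^ 3 / 2 * (1 + 2 * yF φ x / A) * Real.exp (2 * φ (x 0) (x 1))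

theorem wV_pos (hA : 1 ≤ A) (hx : x ∈ Dom φ) : 0 < wV φ A x := by
  have := yF_pos hx.2
  unfold wV
  positivity

theorem pP_nonneg (hA : 1 ≤ A) {y : ℝ} (hy : 1 ≤ y) : 0 ≤ pP A y :=
  mul_nonneg (by linarith) (by positivity)

section

variable (hψ : ContDiffAt ℝ ∞ (fun y : Cn 3 => 2 * φ (y 0) (y 1)) x)

/-- The vertical form. -/
def ell (A : ℝ) (a : Cn 3) : ℂ := (√(wV φ A x) : ℝ) * val (Dd (rmk _ hψ) a)

theorem val_pG (hx : tau φ x < 1) : val (pG hψ hx A) = pP A (yF φ x) := by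
  simp only [pG, map_mul, map_add, map_sub, map_one, val_yG, val_C, pP]
  push_cast
  ring

theorem val_p0G (hx : tau φ x < 1) :
    val (p0G hψ hx A) = (yF φ x ^ 3 / 2 * (1 + 2 * yF φ x / A) : ℝ) := by
  simp only [p0G, map_mul, map_add, map_pow, map_one, val_yG, val_C, map_ofNat]
  push_cast
  ring

theorem val_p1G (hx : tau φ x < 1) :
    val (p1G hψ hx A) = (yF φ x ^ 5 / 4 * (3 + 8 * yF φ x / A) : ℝ) := by
  simp only [p1G, map_mul, map_add, map_pow, val_yG, val_C, map_ofNat]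
  push_cast
  ring

theorem val_p2G (hx : tau φ x < 1) :
    val (p2G hψ hx A) = (yF φ x ^ 7 / 8 * (15 + 48 * yF φ x / A) : ℝ) := by
  simp only [p2G, map_mul, map_add, map_pow, val_yG, val_C, map_ofNat]
  push_cast
  ring

theorem wV_eq (hA : 1 ≤ A) (hx : x ∈ Dom φ) : val (p0G hψ hx.2 A) * val (eG hψ) =
    (√(wV φ A x) : ℝ) * (√(wV φ A x) : ℝ) := by
  rw [← ofReal_mul, Real.mul_self_sqrt (wV_pos hA hx).le, val_p0G, val_eG, wV, ← ofReal_mul]

theorem conj_ell (b : Cn 3) :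
    starRingEnd ℂ (ell hψ A b) = (√(wV φ A x) : ℝ) * val (Db (rmk _ hψ) b) := by
  rw [ell, map_mul, conj_ofReal, val_Db (cj_rmk _ _)]

theorem hh_pot (hA : 1 ≤ A) (hx : x ∈ Dom φ) (a b : Cn 3) :
    hh (rmk _ (pot_smooth hψ hx A)) a b =
      hM A (yF φ x) (hh (sG hx.1)) (hh (rmk _ hψ)) (ell hψ A) a b := by
  rw [(pot_jet hψ hx A).hh_eq, hM, val_pG, wV_eq hψ hA hx, conj_ell, ell]
  ring

theorem ell_zero (hA : 1 ≤ A) (hx : x ∈ Dom φ) {a : Cn 3} (h1 : hh (sG hx.1) a a = 0)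
    (h2 : ell hψ A a = 0) : a = 0 := by
  obtain ⟨h0, h1⟩ := omega_zero hx.1 h1
  have e : a = a 2 • e2 := by
    ext i
    fin_cases i <;> simp [e2, h0, h1]
  rw [e, ell, Dd_smul, (pot_jet hψ hx A).Dd_e2] at h2
  have h3 : ((√(wV φ A x) : ℝ) : ℂ) ≠ 0 := by
    exact_mod_cast (Real.sqrt_pos.2 (wV_pos hA hx)).ne'
  rw [e]
  simpa [h3] using Or.inl (by simpa [h3] using h2)

end

theorem hh_re_eq (hW : Weight φ ε L C0) (hA : 1 ≤ A) (hx : x ∈ Dom φ) (a : Cn 3) :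
    (hh (rmk _ (pot_smooth (hW.smooth x hx.1) hx A)) a a).re = A * (hh (sG hx.1) a a).re +
      pP A (yF φ x) * (hh (rmk _ (hW.smooth x hx.1)) a a).re +
      ‖ell (hW.smooth x hx.1) A a‖ ^ 2 := by
  rw [hh_pot (hW.smooth x hx.1) hA hx, hM, mul_conj, normSq_eq_norm_sq]
  simp only [add_re, re_ofReal_mul, ofReal_re]

theorem mu_nonneg (hW : Weight φ ε L C0) (hε : 0 < ε) (hx : 0 < rho3 x) (a : Cn 3) :
    0 ≤ (hh (rmk _ (hW.smooth x hx)) a a).re :=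
  (mul_nonneg hε.le (omega_nonneg hx a)).trans (hW.ge x hx a)

theorem pot_pos (hW : Weight φ ε L C0) (hε : 0 < ε) (hA : 1 ≤ A) (hx : x ∈ Dom φ) (a : Cn 3)
    (ha : a ≠ 0) : 0 < (hh (rmk _ (pot_smooth (hW.smooth x hx.1) hx A)) a a).re := by
  rw [hh_re_eq hW hA hx]
  have h1 := omega_nonneg hx.1 a
  have h2 := mul_nonneg (pP_nonneg hA (yF_ge hx.2)) (mu_nonneg hW hε hx.1 a)
  have h3 := sq_nonneg ‖ell (hW.smooth x hx.1) A a‖
  have h4 : 0 ≤ A * (hh (sG hx.1) a a).re := by positivity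
  by_contra h
  have h5 : (hh (sG hx.1) a a).re = 0 := by nlinarith
  have h6 : ‖ell (hW.smooth x hx.1) A a‖ ^ 2 = 0 := by linarith
  refine ha (ell_zero (hW.smooth x hx.1) hA hx ?_ (by simpa using h6))
  have h7 := omega_le hx.1 a a
  rw [h5] at h7
  simpa using h7

theorem pot_smoothOn (hW : Weight φ ε L C0) (A : ℝ) : ContDiffOn ℝ ∞ (pot φ A) (Dom φ) :=
  fun x hx => (pot_smooth (hW.smooth x hx.1) hx A).contDiffWithinAt

theorem kmet_pos (hW : Weight φ ε L C0) (hε : 0 < ε) (hA : 1 ≤ A) (x : Cn 3) (hx : x ∈ Dom φ)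
    (a : Cn 3) (ha : a ≠ 0) : 0 < kmet (pot φ A) x a a := by
  rw [kmet_eq (pot_smooth (hW.smooth x hx.1) hx A)]
  linarith [pot_pos hW hε hA hx a ha]

theorem hf_hh {s : Gm x} (hs : cj s = s) : HF (hh s) := ⟨hh_add s, hh_smul s, hh_conj hs⟩

/-- The corrected connection. -/
def gamC (hW : Weight φ ε L C0) (hx : x ∈ Dom φ) (A : ℝ) (a c : Cn 3) : Cn 3 :=
  christoffel (kmet (pot φ A)) x a c + (-1 : ℂ) • Qf (sG hx.1) (rmk _ (hW.smooth x hx.1))
    (eG (hW.smooth x hx.1)) (p0G (hW.smooth x hx.1) hx.2 A) (p1G (hW.smooth x hx.1) hx.2 A) a c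

theorem p0_ne (hψ : ContDiffAt ℝ ∞ (fun y : Cn 3 => 2 * φ (y 0) (y 1)) x) (hA : 1 ≤ A)
    (hx : x ∈ Dom φ) : val (p0G hψ hx.2 A) ≠ 0 := by
  have := yF_pos hx.2
  rw [val_p0G]
  exact ofReal_ne_zero.2 (by positivity)

theorem hh_gamC (hW : Weight φ ε L C0) (hε : 0 < ε) (hA : 1 ≤ A) (hx : x ∈ Dom φ) (a c b : Cn 3) :
    hh (rmk _ (pot_smooth (hW.smooth x hx.1) hx A)) (gamC hW hx A a c) b =
    val (pG (hW.smooth x hx.1) hx.2 A) * T3f (sG hx.1) (rmk _ (hW.smooth x hx.1)) a c b +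
      val (p0G (hW.smooth x hx.1) hx.2 A) * val (eG (hW.smooth x hx.1)) * starRingEnd ℂ (x 2) *
      (val (Dd (rmk _ (hW.smooth x hx.1)) a) * hh (rmk _ (hW.smooth x hx.1)) c b +
        val (Dd (rmk _ (hW.smooth x hx.1)) c) * hh (rmk _ (hW.smooth x hx.1)) a b) := by
  rw [← (pot_jet (hW.smooth x hx.1) hx A).shift (p0_ne _ hA hx), gamC, hh_add, hh_smul,
    hh_christoffel _ (kmet_pos hW hε hA x hx)]
  ring

theorem tau_eq (hx : x ∈ Dom φ) : tau φ x = (yF φ x ^ 2 - 1) / yF φ x ^ 2 := by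
  have := yF_pos hx.2
  field_simp
  linear_combination -yF_sq hx.2

theorem ptData (hW : Weight φ ε L C0) (hε : 0 < ε) (hA : 1 ≤ A) (hx : x ∈ Dom φ) :
    PtData ε L C0 A (yF φ x) (hh (sG hx.1)) (hh (rmk _ (hW.smooth x hx.1)))
      (ell (hW.smooth x hx.1) A) ((√(wV φ A x) : ℝ) * starRingEnd ℂ (x 2))
      (T3f (sG hx.1) (rmk _ (hW.smooth x hx.1))) (T4f (sG hx.1) (rmk _ (hW.smooth x hx.1)))
      (gamC hW hx A) where
  hy := yF_ge hx.2
  hω := hf_hh (cj_sG _)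
  hμ := hf_hh (cj_rmk _ _)
  ℓ_add a b := by rw [ell, ell, ell, Dd_add, map_add, mul_add]
  ℓ_smul t a := by
    rw [ell, ell, Dd_smul, map_mul, val_C]
    ring
  vert := ⟨e2, by
    rw [ell, (pot_jet (hW.smooth x hx.1) hx A).Dd_e2, map_one, mul_one]
    exact_mod_cast (Real.sqrt_pos.2 (wV_pos hA hx)).ne', by
    rw [hh, (pot_jet (hW.smooth x hx.1) hx A).hh_s_e2, map_zero]⟩
  nondeg a := ell_zero _ hA hx
  ω_nonneg := omega_nonneg hx.1
  μ_ge := hW.ge x hx.1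
  μ_le := hW.le x hx.1
  hβ := by
    have h1 := tau_eq hx
    have h2 := yF_pos hx.2
    rw [norm_mul, norm_conj, norm_real, Real.norm_of_nonneg (Real.sqrt_nonneg _), mul_pow,
      Real.sq_sqrt (wV_pos hA hx).le, wV, mul_assoc, mul_comm (Real.exp _)]
    change _ * tau φ x = _
    rw [h1, psiP]
    field_simp
  T3_add a c b b' := by
    simp only [T3f, S3_add, hh_add']
    ring
  T3_smul a c t b := by
    simp only [T3f, S3_smul, hh_smul']
    ring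
  T3_symm a c b := by
    simp only [T3f, S3_symm _ a c]
    ring
  T3_le := hW.T3 x hx.1
  T4_le := hW.T4 x hx.1
  hΓ a c b := by
    rw [← hh_pot _ hA hx, hh_gamC hW hε hA hx, val_pG, wV_eq _ hA hx, ell, ell]
    ring

theorem KK_eq (hW : Weight φ ε L C0) (hε : 0 < ε) (hA : 1 ≤ A) (hx : x ∈ Dom φ) (a c b d : Cn 3) :
    KK (rmk _ (pot_smooth (hW.smooth x hx.1) hx A)) (christoffel (kmet (pot φ A)) x) a c b d =
    curvT A (yF φ x) (hh (sG hx.1)) (hh (rmk _ (hW.smooth x hx.1)))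
      (ell (hW.smooth x hx.1) A) ((√(wV φ A x) : ℝ) * starRingEnd ℂ (x 2))
      (T3f (sG hx.1) (rmk _ (hW.smooth x hx.1))) (T4f (sG hx.1) (rmk _ (hW.smooth x hx.1)))
      (gamC hW hx A) a c b d := by
  set hψ := hW.smooth x hx.1
  have H := pot_jet hψ hx A
  have h1 := H.curv_id (cj_p2G hψ hx.2 A) (p0_ne _ hA hx) a c b d
  rw [← hh_gamC hW hε hA hx, ← hh_christoffel _ (kmet_pos hW hε hA x hx), ← hh_conj H.rφ] at h1
  have g : ∀ a c, christoffel (kmet (pot φ A)) x a c = gamC hW hx A a c +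
      Qf (sG hx.1) (rmk _ hψ) (eG hψ) (p0G hψ hx.2 A) (p1G hψ hx.2 A) a c := by
    intro a c
    simp [gamC]
  have h2 : KK (rmk _ (pot_smooth hψ hx A)) (christoffel (kmet (pot φ A)) x) a c b d =
      (S4 (rmk _ (pot_smooth hψ hx A)) a c b d - hh (rmk _ (pot_smooth hψ hx A))
        (Qf (sG hx.1) (rmk _ hψ) (eG hψ) (p0G hψ hx.2 A) (p1G hψ hx.2 A) a c)
        (christoffel (kmet (pot φ A)) x b d) - hh (rmk _ (pot_smooth hψ hx A)) (gamC hW hx A a c)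
        (Qf (sG hx.1) (rmk _ hψ) (eG hψ) (p0G hψ hx.2 A) (p1G hψ hx.2 A) b d)) -
        hh (rmk _ (pot_smooth hψ hx A)) (gamC hW hx A a c) (gamC hW hx A b d) := by
    rw [KK, g a c, hh_add]
    nth_rewrite 1 [g b d]
    rw [hh_add']
    ring
  have hy := yF_pos hx.2
  have ht : x 2 * starRingEnd ℂ (x 2) * val (eG hψ) =
      ((yF φ x ^ 2 - 1) / yF φ x ^ 2 : ℝ) := by
    rw [← tau_eq hx, val_eG, mul_conj, normSq_eq_norm_sq, tau, ofReal_mul]
  have hw := wV_eq hψ hA hx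
  have e1 : x 2 * starRingEnd ℂ (x 2) * val (eG hψ) * val (p0G hψ hx.2 A) = psiP A (yF φ x) := by
    rw [ht, val_p0G, ← ofReal_mul, psiP]
    congr 1
    field_simp
  have e2 : val (p0G hψ hx.2 A) + x 2 * starRingEnd ℂ (x 2) * val (eG hψ) * val (p1G hψ hx.2 A) =
      mP A (yF φ x) * val (p0G hψ hx.2 A) := by
    rw [ht, val_p0G, val_p1G, ← ofReal_mul, ← ofReal_mul, ← ofReal_add, mP]
    congr 1
    field_simp
    ring
  have e3 : (val (p1G hψ hx.2 A) * val (p0G hψ hx.2 A) + x 2 * starRingEnd ℂ (x 2) * val (eG hψ) *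
      (val (p2G hψ hx.2 A) * val (p0G hψ hx.2 A) - val (p1G hψ hx.2 A) ^ 2)) /
      val (p0G hψ hx.2 A) = 2 * vP A (yF φ x) * val (p0G hψ hx.2 A) ^ 2 := by
    rw [div_eq_iff (p0_ne _ hA hx), ht, val_p0G, val_p1G, val_p2G]
    norm_cast
    rw [vP]
    field_simp
    ring
  rw [h2, h1, e1, e2, e3, hh_pot hψ hA hx, val_pG, curvT]
  simp only [map_mul, conj_ofReal, conj_conj, conj_ell]
  simp only [ell]
  generalize ((√(wV φ A x) : ℝ) : ℂ) = w at hw ⊢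
  have hw2 : val (p0G hψ hx.2 A) ^ 2 * val (eG hψ) ^ 2 = w ^ 4 := by
    rw [← mul_pow, hw]
    ring
  linear_combination (mP A (yF φ x) * (hh (rmk _ hψ) a b * val (Dd (rmk _ hψ) c) *
    val (Db (rmk _ hψ) d) + hh (rmk _ hψ) a d * val (Dd (rmk _ hψ) c) * val (Db (rmk _ hψ) b) +
    hh (rmk _ hψ) c b * val (Dd (rmk _ hψ) a) * val (Db (rmk _ hψ) d) +
    hh (rmk _ hψ) c d * val (Dd (rmk _ hψ) a) * val (Db (rmk _ hψ) b)) +
    x 2 * (val (Db (rmk _ hψ) b) * T3f (sG hx.1) (rmk _ hψ) a c d +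
      val (Db (rmk _ hψ) d) * T3f (sG hx.1) (rmk _ hψ) a c b) +
    starRingEnd ℂ (x 2) * (val (Dd (rmk _ hψ) a) * starRingEnd ℂ (T3f (sG hx.1) (rmk _ hψ) b d c) +
      val (Dd (rmk _ hψ) c) * starRingEnd ℂ (T3f (sG hx.1) (rmk _ hψ) b d a))) * hw +
    2 * vP A (yF φ x) * (val (Dd (rmk _ hψ) a) * val (Dd (rmk _ hψ) c) * val (Db (rmk _ hψ) b) *
      val (Db (rmk _ hψ) d)) * hw2

theorem exists_pinched (hW : Weight φ ε L C0) (hε : 0 < ε) (hL : ε ≤ L) (hC : 0 ≤ C0)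
    (hU : IsOpen (Dom φ)) : ∃ A : ℝ, 1 ≤ A ∧ NegPinched (Dom φ) (kmet (pot φ A)) := by
  obtain ⟨A, a, b, hA, ha, hab, h⟩ := curv_alg ε L C0 hε hL hC
  refine ⟨A, hA, a / 4, b / 4, by positivity, by linarith, fun x hx u v huv => ?_⟩
  have hpos := pot_pos hW hε hA hx
  have hΓ := hh_christoffel (pot_smooth (hW.smooth x hx.1) hx A) (kmet_pos hW hε hA x hx)
  have hr := cj_rmk _ (pot_smooth (hW.smooth x hx.1) hx A)
  have hWp := WW_pos hr hpos huv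
  set t : ℝ := - (hh (sG hx.1) u v).re / (hh (sG hx.1) u u).re with ht
  have h0 : (hh (sG hx.1) u (v + (t : ℂ) • u)).re = 0 := by
    simp only [hh_add', hh_smul', conj_ofReal, add_re, re_ofReal_mul, ht]
    by_cases h1 : (hh (sG hx.1) u u).re = 0
    · have h2 := omega_le hx.1 u v
      rw [h1] at h2
      have h3 : hh (sG hx.1) u v = 0 := by simpa using h2
      simp [h3]
    · field_simp
      ring
  have h1 := h _ _ _ _ _ _ _ _ (ptData hW hε hA hx) u _ h0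
  simp only [← KK_eq hW hε hA hx, ← hh_pot _ hA hx] at h1
  rw [KK_shift hr hpos hΓ, ← WW, WW_shift hr] at h1
  rw [sectional_eq hU hx (pot_smoothOn hW A) (kmet_pos hW hε hA)]
  have h2 := (le_div_iff₀ hWp).2 h1.1
  have h3 := (div_le_iff₀ hWp).2 h1.2
  constructor <;> linarith

end Vale.Agent.P250
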