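import Vale.Agent.P250.PhiDef

/-!
The Kähler potential on the disc bundle domain and its jets.
-/

open scoped ContDiff Topology
open Filter Complex

noncomputable section

namespace Vale.Agent.P250

open Gm

/-- The radial variable `y = (1 - τ)^(-1/2)`. -/
def yF (φ : ℂ → ℂ → ℝ) (x : Cn 3) : ℝ := (√(1 - tau φ x))⁻¹

/-- The Kähler potential. -/
def pot (φ : ℂ → ℂ → ℝ) (A : ℝ) (x : Cn 3) : ℝ :=
  A * (- Real.log (rho3 x)) + 2 * (1 + 1 / A) * Real.log (yF φ x) - 2 * Real.log (1 + yF φ x)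

variable {φ : ℂ → ℂ → ℝ} {x : Cn 3}

theorem tau_nonneg (φ : ℂ → ℂ → ℝ) (x : Cn 3) : 0 ≤ tau φ x := by
  unfold tau
  positivity

theorem yF_pos (hx : tau φ x < 1) : 0 < yF φ x := by
  have : 0 < 1 - tau φ x := by linarith
  unfold yF
  positivity

theorem yF_sq (hx : tau φ x < 1) : yF φ x ^ 2 * (1 - tau φ x) = 1 := by
  have : 0 < 1 - tau φ x := by linarith
  rw [yF, inv_pow, Real.sq_sqrt this.le, inv_mul_cancel₀ this.ne']

theorem yF_ge (hx : tau φ x < 1) : 1 ≤ yF φ x := by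
  have h1 := yF_sq hx
  have h2 := yF_pos hx
  have h3 := tau_nonneg φ x
  by_contra h
  have : yF φ x ^ 2 < 1 := by nlinarith
  nlinarith [mul_nonneg (sq_nonneg (yF φ x)) h3]

variable (hψ : ContDiffAt ℝ ∞ (fun y : Cn 3 => 2 * φ (y 0) (y 1)) x)
include hψ

theorem tau_smooth : ContDiffAt ℝ ∞ (tau φ) x :=
  ((contDiff_apply ℝ ℂ (2 : Fin 3)).norm_sq ℂ).contDiffAt.mul hψ.exp

theorem yF_smooth (hx : tau φ x < 1) : ContDiffAt ℝ ∞ (yF φ) x := by
  have : 0 < 1 - tau φ x := by linarith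
  exact ((contDiffAt_const.sub (tau_smooth hψ)).sqrt this.ne').inv (Real.sqrt_pos.2 this).ne'

theorem pot_smooth (hx : x ∈ Dom φ) (A : ℝ) : ContDiffAt ℝ ∞ (pot φ A) x := by
  have h1 := yF_pos hx.2
  exact ((contDiffAt_const.mul (s_smooth hx.1)).add (contDiffAt_const.mul
    ((yF_smooth hψ hx.2).log h1.ne'))).sub (contDiffAt_const.mul
    ((contDiffAt_const.add (yF_smooth hψ hx.2)).log (by positivity)))

/-- The germ of `exp (2 φ)`. -/
def eG : Gm x := rmk (fun y : Cn 3 => Real.exp (2 * φ (y 0) (y 1))) hψ.exp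

/-- The germ of `y`. -/
def yG (hx : tau φ x < 1) : Gm x := rmk (yF φ) (yF_smooth hψ hx)

theorem dh_eG (a : Cn 3) : dh a (eG hψ) = eG hψ * dh a (rmk _ hψ) := by
  refine dh_of_D (fun v => ?_) a
  have h1 : eG hψ = mk (fun y => exp ((2 * φ (y 0) (y 1) : ℝ) : ℂ)) (smooth_ofReal hψ).cexp := by
    rw [eG, rmk]
    exact mk_eq (Eventually.of_forall fun y => ofReal_exp _)
  rw [h1, D_exp]
  rfl

theorem tau_germ : rmk (tau φ) (tau_smooth hψ) = X 2 * cj (X 2) * eG hψ := by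
  rw [eG, rmk, rmk, X, cj_mk, mk_mul, mk_mul]
  apply mk_eq
  refine Eventually.of_forall fun y => ?_
  simp only [tau, mul_conj, normSq_eq_norm_sq]
  push_cast
  rfl

theorem yG_sq (hx : tau φ x < 1) : yG hψ hx ^ 2 * (1 - X 2 * cj (X 2) * eG hψ) = 1 := by
  rw [← tau_germ, yG, rmk, rmk, sq, mk_mul, mk_one, mk_sub, mk_mul]
  apply mk_eq
  filter_upwards [(tau_smooth hψ).continuousAt.eventually (gt_mem_nhds hx)] with y hy
  have := yF_sq hy
  rw [sq] at this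
  exact_mod_cast this

theorem psi_vert : dh e2 (rmk _ hψ) = 0 := by
  have h : ∀ c : ℂ, D (c • e2) (rmk _ hψ) = 0 := by
    intro c
    rw [D_rmk, rmk, mk_zero]
    apply mk_eq
    filter_upwards [rev_diff hψ] with y hy
    have h1 : HasDerivAt (fun t : ℝ => y + t • c • e2) (c • e2) 0 := by
      simpa using ((hasDerivAt_id (0 : ℝ)).smul_const (c • e2)).const_add y
    have h2 := (show HasFDerivAt _ _ (y + (0 : ℝ) • c • e2) by
      simpa using hy.hasFDerivAt).comp_hasDerivAt (0 : ℝ) h1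
    have h3 : ((fun y : Cn 3 => 2 * φ (y 0) (y 1)) ∘ fun t : ℝ => y + t • c • e2) =
        fun _ => 2 * φ (y 0) (y 1) := by
      ext t
      simp [e2]
    rw [h3] at h2
    have h4 := h2.unique (hasDerivAt_const _ _)
    simp only [ofReal_eq_zero]
    exact h4
  have h1 := h 1
  rw [one_smul] at h1
  rw [dh, h1, h I]
  ring

theorem dh_tau (a : Cn 3) : dh a (X 2 * cj (X 2) * eG hψ) =
    cj (X 2) * eG hψ * Dd (rmk _ hψ) a := by
  simp only [dh_mul, dh_X, dh_cjX, dh_eG, Dd]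
  ring

theorem dh_yG (hx : tau φ x < 1) (a : Cn 3) :
    dh a (yG hψ hx) = C (1 / 2) * yG hψ hx ^ 3 * (cj (X 2) * eG hψ * Dd (rmk _ hψ) a) := by
  have h1 := yG_sq hψ hx
  have h2 := congrArg (dh a) h1
  rw [sq, dh_mul, dh_mul, dh_sub, dh_one, dh_tau] at h2
  linear_combination (C (1 / 2) * yG hψ hx) * h2 - (2 * C (1 / 2) * dh a (yG hψ hx)) * h1 -
    dh a (yG hψ hx) * C_half

theorem val_yG (hx : tau φ x < 1) : val (yG hψ hx) = yF φ x := rfl

theorem val_eG : val (eG hψ) = Real.exp (2 * φ (x 0) (x 1)) := rfl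

theorem cj_yG (hx : tau φ x < 1) : cj (yG hψ hx) = yG hψ hx := cj_rmk _ _

theorem cj_eG : cj (eG hψ) = eG hψ := cj_rmk _ _

omit hψ in
theorem cj_Creal (r : ℝ) : cj (C r : Gm x) = C r := by rw [cj_C, conj_ofReal]

omit hψ in
theorem cj_half : cj (C (1 / 2) : Gm x) = C (1 / 2) := by
  rw [cj_C, map_div₀, map_one, map_ofNat]

theorem da_yG (hx : tau φ x < 1) (a : Cn 3) :
    da a (yG hψ hx) = C (1 / 2) * yG hψ hx ^ 3 * (X 2 * eG hψ * Db (rmk _ hψ) a) := by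
  have := congrArg cj (dh_yG hψ hx a)
  rwa [cj_dh, map_mul, map_mul, map_mul, map_mul, map_pow, cj_cj, cj_Dd (cj_rmk _ _), cj_yG, cj_eG,
    cj_half] at this

theorem da_pot (hx : x ∈ Dom φ) (A : ℝ) {Z : Gm x} (hZ : (1 + yG hψ hx.2) * Z = 1) (b : Cn 3) :
    da b (rmk _ (pot_smooth hψ hx A)) = C A * da b (sG hx.1) +
      ((1 + C ((1 / A : ℝ) : ℂ)) * yG hψ hx.2 ^ 2 - yG hψ hx.2 ^ 3 * Z) *
        (X 2 * eG hψ * Db (rmk _ hψ) b) := by
  have h0 := yF_pos hx.2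
  have s1 := yF_smooth hψ hx.2
  have s2 : ContDiffAt ℝ ∞ (fun y => 1 + yF φ y) x := contDiffAt_const.add s1
  have p2 : 0 < 1 + yF φ x := by positivity
  have h1 := da_of_D (D_log s1 h0) b
  have h2 := da_of_D (D_log s2 p2) b
  have e1 : rmk _ s2 = 1 + yG hψ hx.2 := by
    rw [yG, rmk, rmk, mk_one, mk_add]
    apply mk_eq
    simp
  have e2 : rmk _ (pot_smooth hψ hx A) = C A * sG hx.1 + C 2 * (1 + C ((1 / A : ℝ) : ℂ)) *
      rmk _ (s1.log h0.ne') - C 2 * rmk _ (s2.log p2.ne') := by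
    rw [sG, rmk, rmk, rmk, rmk, C_eq, C_eq, C_eq, mk_one, mk_add, mk_mul, mk_mul, mk_mul, mk_mul,
      mk_add, mk_sub]
    apply mk_eq
    refine Eventually.of_forall fun y => ?_
    simp only [pot]
    push_cast
    ring
  rw [e1, da_add, da_one, da_yG] at h2
  change da b (yG hψ hx.2) = yG hψ hx.2 * _ at h1
  rw [da_yG] at h1
  have h3 : da b (rmk _ (s1.log h0.ne')) =
      C (1 / 2) * yG hψ hx.2 ^ 2 * (X 2 * eG hψ * Db (rmk _ hψ) b) := by
    apply cancel_val (φ := yG hψ hx.2) (by rw [val_yG]; exact_mod_cast h0.ne')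
    linear_combination -h1
  have h4 : da b (rmk _ (s2.log p2.ne')) =
      C (1 / 2) * yG hψ hx.2 ^ 3 * Z * (X 2 * eG hψ * Db (rmk _ hψ) b) := by
    linear_combination -Z * h2 - da b (rmk _ (s2.log p2.ne')) * hZ
  rw [e2]
  simp only [da_sub, da_add, da_mul, da_C, da_one, h3, h4, map_ofNat]
  have h5 : da b (2 : Gm x) = 0 := by rw [← map_ofNat (C : ℂ →+* Gm x) 2, da_C]
  rw [h5]
  linear_combination ((1 + C ((1 / A : ℝ) : ℂ)) * yG hψ hx.2 ^ 2 - yG hψ hx.2 ^ 3 * Z) *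
    (X 2 * eG hψ * Db (rmk _ hψ) b) * C_half

/-- The germ of `p`. -/
def pG (hx : tau φ x < 1) (A : ℝ) : Gm x :=
  (yG hψ hx - 1) * (1 + C ((1 / A : ℝ) : ℂ) * (yG hψ hx + 1))

/-- The germ of `p'`. -/
def p0G (hx : tau φ x < 1) (A : ℝ) : Gm x :=
  C (1 / 2) * yG hψ hx ^ 3 * (1 + 2 * C ((1 / A : ℝ) : ℂ) * yG hψ hx)

/-- The germ of `p''`. -/
def p1G (hx : tau φ x < 1) (A : ℝ) : Gm x :=
  C (1 / 2) ^ 2 * yG hψ hx ^ 5 * (3 + 8 * C ((1 / A : ℝ) : ℂ) * yG hψ hx)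

/-- The germ of `p'''`. -/
def p2G (hx : tau φ x < 1) (A : ℝ) : Gm x :=
  C (1 / 2) ^ 3 * yG hψ hx ^ 7 * (15 + 48 * C ((1 / A : ℝ) : ℂ) * yG hψ hx)

omit hψ in
theorem dh_pow (a : Cn 3) (Y : Gm x) (n : ℕ) : dh a (Y ^ (n + 1)) = (n + 1) * Y ^ n * dh a Y := by
  induction n with
  | zero => simp
  | succ n ih =>
    rw [pow_succ, dh_mul, ih]
    push_cast
    ring

omit hψ in
theorem dh_nat (a : Cn 3) (n : ℕ) [n.AtLeastTwo] : dh a (OfNat.ofNat n : Gm x) = 0 := by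
  rw [← map_ofNat (C : ℂ →+* Gm x) n, dh_C]

omit hψ in
theorem pot_ring {R : Type*} [CommRing R] {Y Z t h η : R} (h3 : Y ^ 2 * (1 - t) = 1)
    (hZ : (1 + Y) * Z = 1) (h5 : h * 2 = 1) :
    t * ((1 + η) * Y ^ 2 - Y ^ 3 * Z) = (Y - 1) * (1 + η * (Y + 1)) ∧
    (1 + η) * Y ^ 2 - Y ^ 3 * Z + t * ((1 + η) * 2 * h * Y ^ 4 - 3 * h * Y ^ 5 * Z +
      h * Y ^ 6 * Z ^ 2) = h * Y ^ 3 * (1 + 2 * η * Y) := by
  constructor
  · linear_combination (-(1 + η - Y * Z)) * h3 - (Y - 1) * Y * hZ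
  · linear_combination (-((1 + η) * 2 * h * Y ^ 2 - 3 * h * Y ^ 3 * Z + h * Y ^ 4 * Z ^ 2)) * h3 +
      (-3 * h * Y ^ 3 * (Y - 1) + h * Y ^ 4 * (Y - 1) * Z + h * Y ^ 3 * (Y - 2)) * hZ +
      (Y ^ 3 * Z - (1 + η) * Y ^ 2) * h5

theorem cj_p2G (hx : tau φ x < 1) (A : ℝ) : cj (p2G hψ hx A) = p2G hψ hx A := by
  simp only [p2G, map_mul, map_add, map_pow, cj_half, cj_yG, cj_Creal, map_ofNat]

theorem pot_jet (hx : x ∈ Dom φ) (A : ℝ) : JetHyp A (sG hx.1) (rmk _ hψ) (eG hψ) (pG hψ hx.2 A)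
    (p0G hψ hx.2 A) (p1G hψ hx.2 A) (p2G hψ hx.2 A) (rmk _ (pot_smooth hψ hx A)) where
  rs := cj_sG _
  rψ := cj_rmk _ _
  rφ := cj_rmk _ _
  re := cj_eG _
  rp := by simp only [pG, map_mul, map_add, map_sub, map_one, cj_yG, cj_Creal]
  r0 := by simp only [p0G, map_mul, map_add, map_pow, map_one, cj_half, cj_yG, cj_Creal, map_ofNat]
  r1 := by simp only [p1G, map_mul, map_add, map_pow, cj_half, cj_yG, cj_Creal, map_ofNat]
  hs := sG_hs _
  vs := sG_vert _ (by simp [e2]) (by simp [e2])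
  vψ := psi_vert _
  he := dh_eG _
  hp a := by
    simp only [pG, p0G, dh_mul, dh_add, dh_sub, dh_one, dh_C, dh_yG]
    ring
  h0 a := by
    simp only [p0G, p1G, dh_mul, dh_add, dh_one, dh_C, dh_pow a _ 2, dh_nat a 2, dh_yG]
    push_cast
    ring
  h1 a := by
    simp only [p1G, p2G, dh_mul, dh_add, dh_C, dh_pow a _ 4, dh_pow a _ 1, dh_nat a 3,
      dh_nat a 8, dh_yG]
    push_cast
    ring
  hφ a b := by
    obtain ⟨Z, hZ⟩ := exists_inv (1 + yG hψ hx.2) (by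
      rw [map_add, map_one, val_yG]
      have := yF_pos hx.2
      exact_mod_cast (by positivity : 1 + yF φ x ≠ 0))
    have h1 := congrArg (dh a) hZ
    rw [dh_mul, dh_add, dh_one, dh_yG] at h1
    have h2 : dh a Z = - Z ^ 2 * (C (1 / 2) * yG hψ hx.2 ^ 3 *
        (cj (X 2) * eG hψ * Dd (rmk _ hψ) a)) := by
      linear_combination Z * h1 - dh a Z * hZ
    have h3 := yG_sq hψ hx.2
    rw [da_pot hψ hx A hZ]
    simp only [dh_mul, dh_add, dh_sub, dh_one, dh_C, dh_pow a _ 2, dh_pow a _ 1, dh_yG, h2, dh_X,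
      dh_eG, dh_Db, pG, p0G]
    have h4 : C (a 2) = Dd (rmk _ hψ) a - X 2 * dh a (rmk _ hψ) := by
      rw [Dd]
      ring
    rw [h4]
    obtain ⟨k1, k2⟩ := pot_ring (η := C ((1 / A : ℝ) : ℂ)) h3 hZ C_half
    push_cast at k1 k2 ⊢
    linear_combination dh a (da b (rmk _ hψ)) * k1 +
      eG hψ * Dd (rmk _ hψ) a * Db (rmk _ hψ) b * k2

end Vale.Agent.P250
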