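import Vale.Agent.P250.Germ

/-!
The Riemannian curvature of a Kähler metric in terms of its potential.
-/

open scoped ContDiff Topology
open Filter Complex

noncomputable section

namespace Vale.Agent.P250

open Gm

section General

variable {U : Set (Cn 3)} {g : Cn 3 → Cn 3 →L[ℝ] Cn 3 →L[ℝ] ℝ} {x : Cn 3}

theorem cda_clm {F : Type*} [NormedAddCommGroup F] [NormedSpace ℝ F] {f : Cn 3 → Cn 3 →L[ℝ] F}
    (h : ∀ v, ContDiffAt ℝ ∞ (fun y => f y v) x) : ContDiffAt ℝ ∞ f x := by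
  let d := Module.finrank ℝ (Cn 3)
  have hd : d = Module.finrank ℝ (Fin d → ℝ) := (Module.finrank_fin_fun ℝ).symm
  let e₁ := ContinuousLinearEquiv.ofFinrankEq hd
  let e₂ := (e₁.arrowCongr (1 : F ≃L[ℝ] F)).trans (ContinuousLinearEquiv.piRing (Fin d))
  rw [← Function.id_comp f, ← e₂.symm_comp_self]
  exact e₂.symm.contDiff.contDiffAt.comp x (contDiffAt_pi.mpr fun i => h _)

theorem cda_fderiv {F : Type*} [NormedAddCommGroup F] [NormedSpace ℝ F] {f : Cn 3 → F}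
    (hf : ContDiffAt ℝ ∞ f x) (v : Cn 3) : ContDiffAt ℝ ∞ (fun y => fderiv ℝ f y v) x :=
  (hf.fderiv_right (m := ∞) (by simp)).clm_apply contDiffAt_const

theorem rm_equiv {b : Cn 3 →L[ℝ] Cn 3 →L[ℝ] ℝ} (hb : ∀ u, u ≠ 0 → 0 < b u u) :
    ∃ e : Cn 3 ≃L[ℝ] (Cn 3 →L[ℝ] ℝ), (e : Cn 3 →L[ℝ] Cn 3 →L[ℝ] ℝ) = b := by
  have hinj : Function.Injective b.toLinearMap := by
    rw [injective_iff_map_eq_zero]
    intro u hu
    by_contra h
    have h1 := hb u h
    have h2 : b u = 0 := hu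
    simp [h2] at h1
  have hdim : Module.finrank ℝ (Cn 3) = Module.finrank ℝ (Cn 3 →L[ℝ] ℝ) := by
    rw [← (LinearMap.toContinuousLinearMap (𝕜 := ℝ) (E := Cn 3) (F' := ℝ)).finrank_eq]
    exact Subspace.dual_finrank_eq.symm
  exact ⟨(LinearMap.linearEquivOfInjective _ hinj hdim).toContinuousLinearEquiv, by
    ext u : 1
    rfl⟩

theorem rm_apply (hb : ∀ u, u ≠ 0 → 0 < g x u u) (u v : Cn 3) :
    g x (christoffel g x u v) = koszul g x u v := by
  obtain ⟨e, he⟩ := rm_equiv hb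
  rw [christoffel, ← he]
  simp

theorem koszul_apply (y u v w : Cn 3) : koszul g y u v w =
    1 / 2 * (fderiv ℝ g y u v w + fderiv ℝ g y v u w - fderiv ℝ g y w u v) := by
  simp [koszul]

theorem rm_koszul_diff (hs : ContDiffAt ℝ ∞ g x) (u v : Cn 3) :
    ContDiffAt ℝ ∞ (fun y => koszul g y u v) x := by
  have h2 : ∀ a b c, ContDiffAt ℝ ∞ (fun y => fderiv ℝ g y a b c) x := fun a b c =>
    ((cda_fderiv hs a).clm_apply contDiffAt_const).clm_apply contDiffAt_const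
  refine cda_clm fun w => ?_
  simp only [koszul_apply]
  exact contDiffAt_const.mul (((h2 _ _ _).add (h2 _ _ _)).sub (h2 _ _ _))

theorem rm_diff (hs : ContDiffAt ℝ ∞ g x) (hb : ∀ u, u ≠ 0 → 0 < g x u u) (u v : Cn 3) :
    DifferentiableAt ℝ (fun y => christoffel g y u v) x := by
  obtain ⟨e, he⟩ := rm_equiv hb
  have h1 : ContDiffAt ℝ ∞ (fun y => (g y).inverse) x := by
    have := contDiffAt_map_inverse (𝕜 := ℝ) (n := ∞) e
    rw [he] at this
    exact this.comp x hs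
  exact (h1.clm_apply (rm_koszul_diff hs u v)).differentiableAt (by simp)

theorem fderiv_apply2 (hs : DifferentiableAt ℝ g x) (a u v : Cn 3) :
    fderiv ℝ (fun y => g y u v) x a = fderiv ℝ g x a u v := by
  have := ((hs.hasFDerivAt.clm_apply (hasFDerivAt_const u x)).clm_apply
    (hasFDerivAt_const v x)).fderiv
  rw [this]
  simp

theorem rm_formula (hU : IsOpen U) (hx : x ∈ U) (hs : ContDiffOn ℝ ∞ g U)
    (hsymm : ∀ x ∈ U, ∀ u v, g x u v = g x v u) (hpos : ∀ x ∈ U, ∀ u, u ≠ 0 → 0 < g x u u)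
    (u v : Cn 3) : g x (riemann g x u v v) u =
      fderiv ℝ (fun y => koszul g y v v u) x u - fderiv ℝ (fun y => koszul g y u v u) x v +
        g x (christoffel g x u v) (christoffel g x u v) -
        g x (christoffel g x u u) (christoffel g x v v) := by
  have hx' := hU.mem_nhds hx
  have hsx := hs.contDiffAt hx'
  have hd : DifferentiableAt ℝ g x := hsx.differentiableAt (by simp)
  have key : ∀ a b c z, g x (fderiv ℝ (fun y => christoffel g y b c) x a) z =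
      fderiv ℝ (fun y => koszul g y b c z) x a - fderiv ℝ g x a (christoffel g x b c) z := by
    intro a b c z
    have h1 : (fun y => g y (christoffel g y b c) z) =ᶠ[𝓝 x] fun y => koszul g y b c z := by
      filter_upwards [hx'] with y hy
      rw [rm_apply (hpos y hy)]
    have h2 := ((hd.hasFDerivAt.clm_apply (rm_diff hsx (hpos x hx) b c).hasFDerivAt).clm_apply
      (hasFDerivAt_const z x)).fderiv
    rw [← h1.fderiv_eq, h2]
    simp
  have sy : ∀ a b c, fderiv ℝ g x a b c = fderiv ℝ g x a c b := by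
    intro a b c
    rw [← fderiv_apply2 hd, ← fderiv_apply2 hd]
    have : (fun y => g y b c) =ᶠ[𝓝 x] fun y => g y c b := by
      filter_upwards [hx'] with y hy using hsymm y hy b c
    rw [this.fderiv_eq]
  simp only [riemann, map_add, map_sub, add_apply, sub_apply, key, rm_apply (hpos x hx),
    koszul_apply]
  linarith [sy u (christoffel g x v v) u, sy v (christoffel g x u v) u,
    sy (christoffel g x u v) v u, sy u (christoffel g x u v) v]

end General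

/-- The complex structure as a real linear map. -/
def JJ : Cn 3 →L[ℝ] Cn 3 := (I • ContinuousLinearMap.id ℂ (Cn 3)).restrictScalars ℝ

/-- The Riemannian metric with Kähler potential `Φ`. -/
def kmet (Φ : Cn 3 → ℝ) (y : Cn 3) : Cn 3 →L[ℝ] Cn 3 →L[ℝ] ℝ :=
  fderiv ℝ (fderiv ℝ Φ) y + (fderiv ℝ (fderiv ℝ Φ) y).bilinearComp JJ JJ

theorem kmet_apply (Φ : Cn 3 → ℝ) (y u v : Cn 3) : kmet Φ y u v =
    fderiv ℝ (fderiv ℝ Φ) y u v + fderiv ℝ (fderiv ℝ Φ) y (I • u) (I • v) := rfl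

variable {Φ : Cn 3 → ℝ} {x : Cn 3}

theorem smooth_ofReal {f : Cn 3 → ℝ} (hf : ContDiffAt ℝ ∞ f x) :
    ContDiffAt ℝ ∞ (fun y => (f y : ℂ)) x := ofRealCLM.contDiff.contDiffAt.comp x hf

/-- The germ of a real smooth function. -/
def rmk (f : Cn 3 → ℝ) (hf : ContDiffAt ℝ ∞ f x) : Gm x := mk _ (smooth_ofReal hf)

theorem val_rmk (f : Cn 3 → ℝ) (hf : ContDiffAt ℝ ∞ f x) : val (rmk f hf) = f x := rfl

theorem cj_rmk (f : Cn 3 → ℝ) (hf : ContDiffAt ℝ ∞ f x) : cj (rmk f hf) = rmk f hf :=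
  cj_real _

theorem rsmooth_fderiv {f : Cn 3 → ℝ} (hf : ContDiffAt ℝ ∞ f x) (v : Cn 3) :
    ContDiffAt ℝ ∞ (fun y => fderiv ℝ f y v) x :=
  (hf.fderiv_right (m := ∞) (by simp)).clm_apply contDiffAt_const

theorem rev_diff {F : Type*} [NormedAddCommGroup F] [NormedSpace ℝ F] {f : Cn 3 → F}
    (hf : ContDiffAt ℝ ∞ f x) : ∀ᶠ y in 𝓝 x, DifferentiableAt ℝ f y :=
  ((hf.of_le (m := 1) (by simp)).eventually (by simp)).mono fun _ h =>
    h.differentiableAt (by simp)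

theorem D_rmk (v : Cn 3) (f : Cn 3 → ℝ) (hf : ContDiffAt ℝ ∞ f x) :
    D v (rmk f hf) = rmk (fun y => fderiv ℝ f y v) (rsmooth_fderiv hf v) := by
  rw [rmk, D_mk, rmk]
  apply mk_eq
  filter_upwards [rev_diff hf] with y hy
  have := (ofRealCLM.hasFDerivAt.comp y hy.hasFDerivAt).fderiv
  have h2 : (fun y => (f y : ℂ)) = ofRealCLM ∘ f := rfl
  rw [h2, this]
  rfl

theorem rmk_eq {f g : Cn 3 → ℝ} {hf : ContDiffAt ℝ ∞ f x} {hg : ContDiffAt ℝ ∞ g x}
    (h : f =ᶠ[𝓝 x] g) : rmk f hf = rmk g hg :=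
  mk_eq (h.mono fun y hy => by simp only [hy])

theorem kmet_smooth_apply (hΦ : ContDiffAt ℝ ∞ Φ x) (u v : Cn 3) :
    ContDiffAt ℝ ∞ (fun y => kmet Φ y u v) x := by
  have h1 : ContDiffAt ℝ ∞ (fderiv ℝ (fderiv ℝ Φ)) x :=
    (hΦ.fderiv_right (m := ∞) (by simp)).fderiv_right (m := ∞) (by simp)
  simp only [kmet_apply]
  exact ((h1.clm_apply contDiffAt_const).clm_apply contDiffAt_const).add
    ((h1.clm_apply contDiffAt_const).clm_apply contDiffAt_const)

theorem kmet_smooth (hΦ : ContDiffAt ℝ ∞ Φ x) : ContDiffAt ℝ ∞ (kmet Φ) x := by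
  exact cda_clm fun u => cda_clm fun v => kmet_smooth_apply hΦ u v

theorem DD_rmk (hΦ : ContDiffAt ℝ ∞ Φ x) (u v : Cn 3) :
    D u (D v (rmk Φ hΦ)) = rmk (fun y => fderiv ℝ (fderiv ℝ Φ) y u v)
      ((((hΦ.fderiv_right (m := ∞) (by simp)).fderiv_right (m := ∞) (by simp)).clm_apply
        contDiffAt_const).clm_apply contDiffAt_const) := by
  rw [D_rmk, D_rmk]
  apply rmk_eq
  filter_upwards [rev_diff (hΦ.fderiv_right (m := ∞) (by simp))] with y hy
  rw [fderiv_clm_apply hy (differentiableAt_const _)]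
  simp

theorem kmet_germ (hΦ : ContDiffAt ℝ ∞ Φ x) (u v : Cn 3) :
    rmk _ (kmet_smooth_apply hΦ u v) =
      2 * (dh u (da v (rmk Φ hΦ)) + dh v (da u (rmk Φ hΦ))) := by
  have h1 : rmk _ (kmet_smooth_apply hΦ u v) =
      D u (D v (rmk Φ hΦ)) + D (I • u) (D (I • v) (rmk Φ hΦ)) := by
    rw [DD_rmk, DD_rmk, rmk, rmk, rmk, mk_add]
    apply mk_eq
    simp [kmet_apply]
  rw [h1]
  simp only [D_I_eq, D_eq u, D_eq v, dh_add, da_add, dh_sub, da_sub, dh_mul, da_mul, dh_C, da_C,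
    da_dh]
  linear_combination (dh u (dh v (rmk Φ hΦ)) - dh u (da v (rmk Φ hΦ)) -
    dh v (da u (rmk Φ hΦ)) + da u (da v (rmk Φ hΦ))) * C_I

theorem dkmet_germ (hΦ : ContDiffAt ℝ ∞ Φ x) (a u v : Cn 3) :
    rmk (fun y => fderiv ℝ (kmet Φ) y a u v) (((cda_fderiv (kmet_smooth hΦ) a).clm_apply
      contDiffAt_const).clm_apply contDiffAt_const) = D a (2 * (dh u (da v (rmk Φ hΦ)) + dh v (da u (rmk Φ hΦ)))) := by
  rw [← kmet_germ, D_rmk]
  apply rmk_eq
  filter_upwards [rev_diff (kmet_smooth hΦ)] with y hy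
  rw [fderiv_apply2 hy]

theorem D_two (v : Cn 3) : D v (2 : Gm x) = 0 := by
  rw [← map_ofNat (C : ℂ →+* Gm x) 2, D_C]

theorem koszul_germ (hΦ : ContDiffAt ℝ ∞ Φ x) (u v w : Cn 3) :
    rmk (fun y => koszul (kmet Φ) y u v w) ((rm_koszul_diff (kmet_smooth hΦ) u v).clm_apply
      contDiffAt_const) =
      2 * (dh v (dh u (da w (rmk Φ hΦ))) + dh w (da u (da v (rmk Φ hΦ)))) := by
  have h1 : rmk (fun y => koszul (kmet Φ) y u v w) ((rm_koszul_diff (kmet_smooth hΦ) u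
      v).clm_apply contDiffAt_const) = C (1 / 2) *
      (D u (2 * (dh v (da w (rmk Φ hΦ)) + dh w (da v (rmk Φ hΦ)))) +
        D v (2 * (dh u (da w (rmk Φ hΦ)) + dh w (da u (rmk Φ hΦ)))) -
        D w (2 * (dh u (da v (rmk Φ hΦ)) + dh v (da u (rmk Φ hΦ))))) := by
    rw [← dkmet_germ, ← dkmet_germ, ← dkmet_germ, rmk, rmk, rmk, rmk, mk_add, mk_sub, C_eq, mk_mul]
    apply mk_eq
    refine Eventually.of_forall fun y => ?_
    simp [koszul_apply]
  rw [h1]
  simp only [D_mul, D_two, D_add]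
  simp only [D_eq u, D_eq v, D_eq w, da_dh, dh_dh u v, dh_dh w u, dh_dh w v, da_da v u, da_da w u,
    da_da w v]
  linear_combination 2 * (dh v (dh u (da w (rmk Φ hΦ))) + dh w (da u (da v (rmk Φ hΦ)))) * C_half

/-- The Hermitian metric of a germ of potential. -/
def hh (φ : Gm x) (a b : Cn 3) : ℂ := val (dh a (da b φ))

/-- The third derivative. -/
def S3 (φ : Gm x) (a c b : Cn 3) : ℂ := val (dh c (dh a (da b φ)))

/-- The fourth derivative. -/
def S4 (φ : Gm x) (a c b d : Cn 3) : ℂ := val (da d (dh c (dh a (da b φ))))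

theorem hh_conj {φ : Gm x} (hφ : cj φ = φ) (a b : Cn 3) :
    hh φ b a = starRingEnd ℂ (hh φ a b) := by
  rw [hh, hh, ← val_cj, cj_dh, cj_da, hφ, da_dh]

theorem hh_add (φ : Gm x) (a b c : Cn 3) : hh φ (a + b) c = hh φ a c + hh φ b c := by
  simp [hh, dh_dir_add]

theorem hh_smul (φ : Gm x) (t : ℂ) (a c : Cn 3) : hh φ (t • a) c = t * hh φ a c := by
  simp [hh, dh_dir_smul]

theorem hh_add' (φ : Gm x) (a b c : Cn 3) : hh φ c (a + b) = hh φ c a + hh φ c b := by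
  simp [hh, da_dir_add, dh_add]

theorem hh_smul' (φ : Gm x) (t : ℂ) (a c : Cn 3) :
    hh φ c (t • a) = starRingEnd ℂ t * hh φ c a := by
  simp [hh, da_dir_smul, dh_mul, dh_C]

theorem kmet_eq (hΦ : ContDiffAt ℝ ∞ Φ x) (u v : Cn 3) :
    kmet Φ x u v = 4 * (hh (rmk Φ hΦ) u v).re := by
  have := congrArg val (kmet_germ hΦ u v)
  rw [val_rmk, map_mul, map_add, map_ofNat] at this
  change _ = 2 * (hh _ u v + hh _ v u) at this
  rw [hh_conj (cj_rmk Φ hΦ) u v, add_conj] at this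
  have h2 := congrArg re this
  simp at h2
  linarith

theorem koszul_eq (hΦ : ContDiffAt ℝ ∞ Φ x) (u v w : Cn 3) :
    koszul (kmet Φ) x u v w = 4 * (S3 (rmk Φ hΦ) u v w).re := by
  have := congrArg val (koszul_germ hΦ u v w)
  have h1 : val (dh w (da u (da v (rmk Φ hΦ)))) = starRingEnd ℂ (S3 (rmk Φ hΦ) u v w) := by
    rw [S3, ← val_cj, cj_dh, cj_dh, cj_da, cj_rmk, da_dh, da_dh, da_da]
  rw [val_rmk, map_mul, map_add, map_ofNat, h1] at this
  change _ = 2 * (S3 _ u v w + _) at this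
  rw [add_conj] at this
  have h2 := congrArg re this
  simp at h2
  linarith

theorem hh_christoffel (hΦ : ContDiffAt ℝ ∞ Φ x) (hb : ∀ u, u ≠ 0 → 0 < kmet Φ x u u)
    (u v w : Cn 3) : hh (rmk Φ hΦ) (christoffel (kmet Φ) x u v) w = S3 (rmk Φ hΦ) u v w := by
  have h : ∀ w, (hh (rmk Φ hΦ) (christoffel (kmet Φ) x u v) w).re =
      (S3 (rmk Φ hΦ) u v w).re := by
    intro w
    have := congrArg (fun l : Cn 3 →L[ℝ] ℝ => l w) (rm_apply hb u v)
    simp only [kmet_eq hΦ, koszul_eq hΦ] at this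
    linarith
  have h2 := h (I • w)
  have h3 : S3 (rmk Φ hΦ) u v (I • w) = starRingEnd ℂ I * S3 (rmk Φ hΦ) u v w := by
    simp [S3, da_dir_smul, dh_mul, dh_C, dh_neg]
  rw [hh_smul', h3] at h2
  apply Complex.ext (h w)
  simpa using h2

theorem kmet_closed (hΦ : ContDiffAt ℝ ∞ Φ x) (u v w : Cn 3) :
    fderiv ℝ (kmet Φ) x u (I • v) w + fderiv ℝ (kmet Φ) x v (I • w) u +
      fderiv ℝ (kmet Φ) x w (I • u) v = 0 := by
  have h1 := congrArg val (dkmet_germ hΦ u (I • v) w)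
  have h2 := congrArg val (dkmet_germ hΦ v (I • w) u)
  have h3 := congrArg val (dkmet_germ hΦ w (I • u) v)
  rw [val_rmk] at h1 h2 h3
  have : D u (2 * (dh (I • v) (da w (rmk Φ hΦ)) + dh w (da (I • v) (rmk Φ hΦ)))) +
      D v (2 * (dh (I • w) (da u (rmk Φ hΦ)) + dh u (da (I • w) (rmk Φ hΦ)))) +
      D w (2 * (dh (I • u) (da v (rmk Φ hΦ)) + dh v (da (I • u) (rmk Φ hΦ)))) = 0 := by
    simp only [dh_dir_smul, da_dir_smul, dh_mul, dh_C, D_mul, D_two, D_add, D_C, conj_I, map_neg,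
      D_neg, zero_mul, zero_add, dh_neg, neg_zero]
    simp only [D_eq u, D_eq v, D_eq w, da_dh, dh_dh u v, dh_dh w u, dh_dh w v, da_da v u,
      da_da w u, da_da w v]
    ring
  have h4 := congrArg val this
  rw [map_add, map_add, ← h1, ← h2, ← h3, map_zero] at h4
  exact_mod_cast h4

theorem rm_kahler {U : Set (Cn 3)} (hU : IsOpen U) (hx : x ∈ U) (hΦ : ContDiffOn ℝ ∞ Φ U)
    (hpos : ∀ x ∈ U, ∀ u, u ≠ 0 → 0 < kmet Φ x u u) (u v : Cn 3) :
    kmet Φ x (riemann (kmet Φ) x u v v) u = -4 *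
      ((S4 (rmk Φ (hΦ.contDiffAt (hU.mem_nhds hx))) u v u v -
        hh (rmk Φ (hΦ.contDiffAt (hU.mem_nhds hx))) (christoffel (kmet Φ) x u v)
          (christoffel (kmet Φ) x u v)).re -
      (S4 (rmk Φ (hΦ.contDiffAt (hU.mem_nhds hx))) u u v v -
        hh (rmk Φ (hΦ.contDiffAt (hU.mem_nhds hx))) (christoffel (kmet Φ) x u u)
          (christoffel (kmet Φ) x v v)).re) := by
  have hΦx := hΦ.contDiffAt (hU.mem_nhds hx)
  rw [rm_formula hU hx (fun y hy => (kmet_smooth (hΦ.contDiffAt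
    (hU.mem_nhds hy))).contDiffWithinAt) (fun y hy a b => by
      rw [kmet_eq (hΦ.contDiffAt (hU.mem_nhds hy)), kmet_eq (hΦ.contDiffAt (hU.mem_nhds hy)),
        hh_conj (cj_rmk _ _) a b, conj_re]) hpos, kmet_eq hΦx, kmet_eq hΦx]
  have h1 := congrArg (fun φ => val (D u φ)) (koszul_germ hΦx v v u)
  have h2 := congrArg (fun φ => val (D v φ)) (koszul_germ hΦx u v u)
  simp only [D_rmk, val_rmk] at h1 h2
  have h3 : D u (2 * (dh v (dh v (da u (rmk Φ hΦx))) + dh u (da v (da v (rmk Φ hΦx))))) -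
      D v (2 * (dh v (dh u (da u (rmk Φ hΦx))) + dh u (da u (da v (rmk Φ hΦx))))) =
      2 * (da v (dh u (dh u (da v (rmk Φ hΦx)))) + cj (da v (dh u (dh u (da v (rmk Φ hΦx)))))) -
      2 * (da v (dh v (dh u (da u (rmk Φ hΦx)))) + cj (da v (dh v (dh u (da u (rmk Φ hΦx)))))) := by
    simp only [D_mul, D_two, D_add, cj_da, cj_dh, cj_rmk]
    simp only [D_eq u, D_eq v, da_dh, dh_dh u v, da_da v u]
    ring
  have h4 := congrArg val h3
  simp only [map_sub, ← h1, ← h2, map_mul, map_add, map_ofNat, val_cj, add_conj] at h4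
  have h5 := congrArg re h4
  simp only [sub_re, ofReal_re, mul_re, re_ofNat, im_ofNat, ofReal_im, mul_zero, sub_zero] at h5
  simp only [sub_re, S4]
  linarith

end Vale.Agent.P250
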