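import Vale.Agent.P250.Riem
import Vale.Agent.P250.MV

/-!
The potential `s = -log ρ` of the complex hyperbolic metric on the Siegel domain.
-/

open scoped ContDiff Topology
open Filter Complex

noncomputable section

namespace Vale.Agent.P250

open Gm

variable {x : Cn 3}

theorem dh_of_D {φ ψ e : Gm x} (h : ∀ v, D v φ = e * D v ψ) (v : Cn 3) : dh v φ = e * dh v ψ := by
  rw [dh, dh, h, h]
  ring

theorem da_of_D {φ ψ e : Gm x} (h : ∀ v, D v φ = e * D v ψ) (v : Cn 3) : da v φ = e * da v ψ := by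
  rw [da, da, h, h]
  ring

theorem D_log {f : Cn 3 → ℝ} (hf : ContDiffAt ℝ ∞ f x) (h0 : 0 < f x) (v : Cn 3) :
    D v (rmk f hf) = rmk f hf * D v (rmk (fun y => Real.log (f y)) (hf.log h0.ne')) := by
  have h1 : rmk f hf = mk (fun y => exp ((Real.log (f y) : ℝ) : ℂ))
      (smooth_ofReal (hf.log h0.ne')).cexp := by
    apply mk_eq
    filter_upwards [hf.continuousAt.eventually (lt_mem_nhds h0)] with y hy
    rw [← ofReal_exp, Real.exp_log hy]
  rw [h1, D_exp]
  rfl

theorem exists_inv (φ : Gm x) (h : val φ ≠ 0) : ∃ ψ : Gm x, φ * ψ = 1 := by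
  obtain ⟨f, hf, rfl⟩ := ind φ
  refine ⟨mk (fun y => (f y)⁻¹) (hf.inv h), ?_⟩
  rw [mk_mul, mk_one]
  apply mk_eq
  filter_upwards [hf.continuousAt.eventually_ne h] with y hy
  exact mul_inv_cancel₀ hy

theorem cancel_val {φ a b : Gm x} (h : val φ ≠ 0) (e : φ * a = φ * b) : a = b := by
  obtain ⟨ψ, hψ⟩ := exists_inv φ h
  linear_combination ψ * e - (a - b) * hψ

/-- The height function on `ℂ³`. -/
def rho3 (y : Cn 3) : ℝ := rho (y 0) (y 1)

theorem rho3_smooth : ContDiff ℝ ∞ rho3 := by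
  unfold rho3 rho
  exact (imCLM.contDiff.comp (contDiff_apply ℝ ℂ (1 : Fin 3))).sub
    ((contDiff_apply ℝ ℂ (0 : Fin 3)).norm_sq ℂ)

/-- The germ of the height function. -/
def rG (x : Cn 3) : Gm x := rmk rho3 rho3_smooth.contDiffAt

theorem rG_eq : rG x = C (-I / 2) * (X 1 - cj (X 1)) - X 0 * cj (X 0) := by
  rw [rG, rmk, X, X, cj_mk, cj_mk, mk_sub, C_eq, mk_mul, mk_mul, mk_sub]
  apply mk_eq
  refine Eventually.of_forall fun y => ?_
  simp only [rho3, rho, sub_conj, mul_conj, normSq_eq_norm_sq]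
  push_cast
  linear_combination ((y 1).im : ℂ) * I_mul_I

theorem dh_rG (a : Cn 3) : dh a (rG x) = C (-I / 2 * a 1) - C (a 0) * cj (X 0) := by
  rw [rG_eq]
  simp only [dh_sub, dh_mul, dh_C, dh_X, dh_cjX, map_mul]
  ring

theorem s_smooth (hx : 0 < rho3 x) : ContDiffAt ℝ ∞ (fun y => - Real.log (rho3 y)) x :=
  (rho3_smooth.contDiffAt.log hx.ne').neg

/-- The germ of the potential `-log ρ`. -/
def sG (hx : 0 < rho3 x) : Gm x := rmk _ (s_smooth hx)

variable (hx : 0 < rho3 x)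

theorem cj_sG : cj (sG hx) = sG hx := cj_rmk _ _

theorem val_rG : val (rG x) = rho3 x := rfl

theorem rG_ne (hx : 0 < rho3 x) : val (rG x) ≠ 0 := by
  rw [val_rG]
  exact_mod_cast hx.ne'

theorem dh_rG' (a : Cn 3) : dh a (rG x) = - rG x * dh a (sG hx) := by
  have h1 : sG hx = - rmk (fun y => Real.log (rho3 y)) (rho3_smooth.contDiffAt.log hx.ne') := by
    rw [sG, rmk, rmk, mk_neg]
    apply mk_eq
    simp
  rw [h1, dh_neg, rG, dh_of_D (D_log rho3_smooth.contDiffAt hx)]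
  ring

theorem da_rG' (a : Cn 3) : da a (rG x) = - rG x * da a (sG hx) := by
  have := congrArg cj (dh_rG' hx a)
  rwa [cj_dh, map_mul, map_neg, cj_dh, cj_sG, rG, cj_rmk] at this

theorem sG_hs (a c : Cn 3) : dh c (dh a (sG hx)) = dh a (sG hx) * dh c (sG hx) := by
  have h1 := congrArg (dh c) (dh_rG' hx a)
  rw [dh_rG, dh_sub, dh_mul, dh_C, dh_C, dh_cjX, dh_mul, dh_neg, dh_rG' hx] at h1
  apply cancel_val (rG_ne hx)
  linear_combination h1

theorem sG_omega (a b : Cn 3) : rG x * dh a (da b (sG hx)) =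
    C (a 0 * starRingEnd ℂ (b 0)) + rG x * (dh a (sG hx) * da b (sG hx)) := by
  have h1 := congrArg (da b) (dh_rG' hx a)
  rw [dh_rG, da_sub, da_mul, da_C, da_C, da_cjX, da_mul, da_neg, da_rG' hx, da_dh] at h1
  rw [map_mul]
  linear_combination h1

theorem sG_vert {a : Cn 3} (h0 : a 0 = 0) (h1 : a 1 = 0) : dh a (sG hx) = 0 := by
  have := dh_rG' hx a
  rw [dh_rG, h0, h1] at this
  apply cancel_val (rG_ne hx)
  simp only [mul_zero, map_zero, zero_mul, sub_zero] at this
  linear_combination this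

theorem val_da_sG (a : Cn 3) : val (da a (sG hx)) = starRingEnd ℂ (val (dh a (sG hx))) := by
  rw [← val_cj, cj_dh, cj_sG]

theorem omega_re (a : Cn 3) :
    (hh (sG hx) a a).re = ‖a 0‖ ^ 2 / rho3 x + ‖val (dh a (sG hx))‖ ^ 2 := by
  have h1 := congrArg val (sG_omega hx a a)
  simp only [map_mul, map_add, val_C, val_da_sG, mul_conj, val_rG, normSq_eq_norm_sq] at h1
  have h2 := congrArg re h1
  simp only [re_ofReal_mul, add_re, ofReal_re] at h2
  rw [hh]
  field_simp
  linarith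

theorem omega_nonneg (a : Cn 3) : 0 ≤ (hh (sG hx) a a).re := by
  rw [omega_re]
  positivity

theorem s_le (a : Cn 3) : ‖val (dh a (sG hx))‖ ≤ √(hh (sG hx) a a).re := by
  apply Real.le_sqrt_of_sq_le
  rw [omega_re]
  have : 0 ≤ ‖a 0‖ ^ 2 / rho3 x := by positivity
  linarith

theorem a0_le (a : Cn 3) : ‖a 0‖ ≤ √(rho3 x) * √(hh (sG hx) a a).re := by
  rw [← Real.sqrt_mul hx.le]
  apply Real.le_sqrt_of_sq_le
  rw [omega_re, mul_add, mul_div_cancel₀ _ hx.ne']
  have : 0 ≤ rho3 x * ‖val (dh a (sG hx))‖ ^ 2 := by positivity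
  linarith

theorem a1_eq (a : Cn 3) : a 1 =
    2 * I * (starRingEnd ℂ (x 0) * a 0 - rho3 x * val (dh a (sG hx))) := by
  have h1 := congrArg val ((dh_rG a).symm.trans (dh_rG' hx a))
  simp only [map_sub, map_mul, map_neg, val_C, val_cj, val_X, val_rG] at h1
  linear_combination 2 * I * h1 + a 1 * I_mul_I

theorem omega_le (a b : Cn 3) :
    ‖hh (sG hx) a b‖ ≤ 2 * √(hh (sG hx) a a).re * √(hh (sG hx) b b).re := by
  have h1 := congrArg val (sG_omega hx a b)
  simp only [map_mul, map_add, val_C, val_da_sG, val_rG] at h1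
  have h2 : hh (sG hx) a b = a 0 * starRingEnd ℂ (b 0) / rho3 x +
      val (dh a (sG hx)) * starRingEnd ℂ (val (dh b (sG hx))) := by
    have : (rho3 x : ℂ) ≠ 0 := rG_ne hx
    rw [hh]
    field_simp
    linear_combination h1
  have h3 : ‖a 0‖ * ‖b 0‖ / rho3 x ≤ √(hh (sG hx) a a).re * √(hh (sG hx) b b).re := by
    rw [div_le_iff₀ hx]
    calc ‖a 0‖ * ‖b 0‖ ≤ (√(rho3 x) * √(hh (sG hx) a a).re) * (√(rho3 x) * √(hh (sG hx) b b).re) :=
          mul_le_mul (a0_le hx a) (a0_le hx b) (norm_nonneg _) (by positivity)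
      _ = _ := by
          have := Real.mul_self_sqrt hx.le
          linear_combination √(hh (sG hx) a a).re * √(hh (sG hx) b b).re * this
  have h4 := mul_le_mul (s_le hx a) (s_le hx b) (norm_nonneg _) (Real.sqrt_nonneg _)
  rw [h2]
  refine (norm_add_le _ _).trans ?_
  rw [norm_div, norm_mul, norm_mul, norm_conj, norm_conj, norm_real, Real.norm_of_nonneg hx.le]
  linarith

theorem omega_zero {a : Cn 3} (h : hh (sG hx) a a = 0) : a 0 = 0 ∧ a 1 = 0 := by
  have h0 : a 0 = 0 := by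
    have := a0_le hx a
    rw [h] at this
    simpa using this
  have h1 : val (dh a (sG hx)) = 0 := by
    have := s_le hx a
    rw [h] at this
    simpa using this
  exact ⟨h0, by rw [a1_eq hx a, h0, h1]; simp⟩

end Vale.Agent.P250
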